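import Mathlib

open Set

namespace Vale.Agent.Lib.P369

/-- `L x = log (1 + 1 / x)`, the derivative of `g`. -/
noncomputable def Lg (x : ℝ) : ℝ := Real.log (x + 1) - Real.log x

/-- `P x = 1 / (x (x + 1))`, minus the derivative of `L`. -/
noncomputable def Pf (x : ℝ) : ℝ := 1 / (x * (x + 1))

lemma Pf_pos {x : ℝ} (hx : 0 < x) : 0 < Pf x := by
  unfold Pf; positivity

lemma Lg_eq_log_div {x : ℝ} (hx : 0 < x) : Lg x = Real.log ((x + 1) / x) := by
  unfold Lg
  rw [Real.log_div (by positivity) (by positivity)]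

lemma hasDerivAt_Lg {x : ℝ} (hx : 0 < x) : HasDerivAt Lg (-Pf x) x := by
  have h1 : HasDerivAt (fun y : ℝ => Real.log (y + 1)) (1 / (x + 1)) x := by
    have := (hasDerivAt_id x).add_const (1 : ℝ)
    have h2 := this.log (by simp; positivity)
    simpa using h2
  have h2 : HasDerivAt Real.log (1 / x) x := by
    simpa using Real.hasDerivAt_log hx.ne'
  have h3 := h1.sub h2
  refine h3.congr_deriv ?_
  unfold Pf
  field_simp
  ring

lemma hasDerivAt_Pf {x : ℝ} (hx : 0 < x) :
    HasDerivAt Pf (-(2 * x + 1) * Pf x ^ 2) x := by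
  have h1 : HasDerivAt (fun y : ℝ => y * (y + 1)) (1 * (x + 1) + x * 1) x :=
    (hasDerivAt_id x).mul ((hasDerivAt_id x).add_const (1 : ℝ))
  have h2 := (hasDerivAt_const x (1 : ℝ)).div h1 (by positivity)
  refine h2.congr_deriv ?_
  unfold Pf
  field_simp
  ring

/-- Logarithm versus the Padé bound. -/
lemma log_ge_pade {y : ℝ} (hy : 1 ≤ y) : 2 * (y - 1) / (y + 1) ≤ Real.log y := by
  have hmono : MonotoneOn (fun y : ℝ => Real.log y - 2 * (y - 1) / (y + 1)) (Ici 1) := by
    refine monotoneOn_of_hasDerivWithinAt_nonneg (convex_Ici 1)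
      (f' := fun y => (y - 1) ^ 2 / (y * (y + 1) ^ 2)) ?_ ?_ ?_
    · intro z hz
      have hz' : (1 : ℝ) ≤ z := hz
      have h1 : z ≠ 0 := by linarith
      have h2 : z + 1 ≠ 0 := by linarith
      refine ContinuousAt.continuousWithinAt ?_
      refine ContinuousAt.sub (Real.continuousAt_log h1) ?_
      refine ContinuousAt.div (by fun_prop) (by fun_prop) h2
    · intro z hz
      rw [interior_Ici] at hz
      have hz' : (1 : ℝ) < z := hz
      have h1 : z ≠ 0 := by linarith
      have h2 : z + 1 ≠ 0 := by linarith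
      have hlog := Real.hasDerivAt_log h1
      have hnum : HasDerivAt (fun y : ℝ => 2 * (y - 1)) (2 * 1) z :=
        ((hasDerivAt_id z).sub_const 1).const_mul 2
      have hden : HasDerivAt (fun y : ℝ => y + 1) 1 z := (hasDerivAt_id z).add_const 1
      have hq := hnum.div hden h2
      have := hlog.sub hq
      refine (this.congr_deriv ?_).hasDerivWithinAt
      field_simp
      ring
    · intro z hz
      rw [interior_Ici] at hz
      have hz' : (1 : ℝ) < z := hz
      positivity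
  have := hmono (mem_Ici.mpr le_rfl) (mem_Ici.mpr hy) hy
  simp only [sub_self, mul_zero, zero_div, Real.log_one, sub_zero] at this
  linarith

/-- `2 log u ≤ u - 1/u` for `u ≥ 1`. -/
lemma two_log_le {u : ℝ} (hu : 1 ≤ u) : 2 * Real.log u ≤ u - 1 / u := by
  have hmono : MonotoneOn (fun y : ℝ => y - 1 / y - 2 * Real.log y) (Ici 1) := by
    refine monotoneOn_of_hasDerivWithinAt_nonneg (convex_Ici 1)
      (f' := fun y => (1 - 1 / y) ^ 2) ?_ ?_ ?_
    · intro z hz
      have hz' : (1 : ℝ) ≤ z := hz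
      have h1 : z ≠ 0 := by linarith
      refine ContinuousAt.continuousWithinAt ?_
      refine ContinuousAt.sub (ContinuousAt.sub continuousAt_id ?_) ?_
      · exact ContinuousAt.div continuousAt_const continuousAt_id h1
      · exact ContinuousAt.mul continuousAt_const (Real.continuousAt_log h1)
    · intro z hz
      rw [interior_Ici] at hz
      have hz' : (1 : ℝ) < z := hz
      have h1 : z ≠ 0 := by linarith
      have hlog := (Real.hasDerivAt_log h1).const_mul 2
      have hinv : HasDerivAt (fun y : ℝ => 1 / y) (-1 / z ^ 2) z := by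
        have := (hasDerivAt_inv h1)
        simpa [one_div, neg_div] using this
      have := ((hasDerivAt_id z).sub hinv).sub hlog
      refine (this.congr_deriv ?_).hasDerivWithinAt
      field_simp
      ring
    · intro z _
      positivity
  have := hmono (mem_Ici.mpr le_rfl) (mem_Ici.mpr hu) hu
  simp only [div_one, sub_self, Real.log_one, mul_zero, sub_zero] at this
  linarith

lemma Lg_pos {x : ℝ} (hx : 0 < x) : 0 < Lg x := by
  rw [Lg_eq_log_div hx]
  apply Real.log_pos
  rw [lt_div_iff₀ hx]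
  linarith

/-- `(2x+1) L(x) ≥ 2`. -/
lemma Lg_lower {x : ℝ} (hx : 0 < x) : 2 ≤ (2 * x + 1) * Lg x := by
  have hy : 1 ≤ (x + 1) / x := by
    rw [le_div_iff₀ hx]; linarith
  have := log_ge_pade hy
  rw [← Lg_eq_log_div hx] at this
  have e : 2 * ((x + 1) / x - 1) / ((x + 1) / x + 1) = 2 / (2 * x + 1) := by
    field_simp
    ring
  rw [e] at this
  have h2 : 0 < 2 * x + 1 := by positivity
  rw [div_le_iff₀ h2] at this
  linarith

/-- `x (x+1) L(x)^2 ≤ 1`. -/
lemma Lg_upper {x : ℝ} (hx : 0 < x) : x * (x + 1) * Lg x ^ 2 ≤ 1 := by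
  set y := (x + 1) / x with hy
  have hy1 : 1 ≤ y := by
    rw [hy, le_div_iff₀ hx]; linarith
  set u := √y with hu
  have hu1 : 1 ≤ u := by
    rw [hu]; exact Real.one_le_sqrt.mpr hy1
  have hu2 : u ^ 2 = y := Real.sq_sqrt (by linarith)
  have hlog : Lg x = 2 * Real.log u := by
    rw [Lg_eq_log_div hx, ← hy, ← hu2, Real.log_pow]
    norm_num
  have h2 := two_log_le hu1
  have hupos : 0 < u := by linarith
  have h3 : Lg x ≤ u - 1 / u := by rw [hlog]; exact h2
  have h4 : 0 < Lg x := Lg_pos hx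
  have h5 : x * (x + 1) * (u - 1 / u) ^ 2 = 1 := by
    have hxy : x * (u ^ 2 - 1) = 1 := by
      rw [hu2, hy]; field_simp; ring
    have e : u - 1 / u = (u ^ 2 - 1) / u := by field_simp
    rw [e]
    have hx1 : x + 1 = x * u ^ 2 := by
      rw [hu2, hy]; field_simp
    rw [hx1, div_pow]
    field_simp
    linear_combination (x * (u ^ 2 - 1) + 1) * hxy
  have h6 : Lg x ^ 2 ≤ (u - 1 / u) ^ 2 := by
    apply pow_le_pow_left₀ h4.le h3
  calc x * (x + 1) * Lg x ^ 2 ≤ x * (x + 1) * (u - 1 / u) ^ 2 := by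
        apply mul_le_mul_of_nonneg_left h6; positivity
    _ = 1 := h5

/-- `Y(s) = s (s+1) L(s)` has slope at least one. -/
lemma Y_growth {t y : ℝ} (ht : 0 < t) (hty : t ≤ y) :
    y - t ≤ y * (y + 1) * Lg y - t * (t + 1) * Lg t := by
  have hmono : MonotoneOn (fun s : ℝ => s * (s + 1) * Lg s - s) (Ioi 0) := by
    refine monotoneOn_of_hasDerivWithinAt_nonneg (convex_Ioi 0)
      (f' := fun s => (2 * s + 1) * Lg s - 2) ?_ ?_ ?_
    · intro z hz
      have hz' : 0 < z := hz
      have hd := hasDerivAt_Lg hz'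
      have h1 : ContinuousAt Lg z := hd.continuousAt
      refine ContinuousAt.continuousWithinAt ?_
      fun_prop
    · intro z hz
      rw [interior_Ioi] at hz
      have hz' : 0 < z := hz
      have hd := hasDerivAt_Lg hz'
      have h1 : HasDerivAt (fun y : ℝ => y * (y + 1)) (1 * (z + 1) + z * 1) z :=
        (hasDerivAt_id z).mul ((hasDerivAt_id z).add_const (1 : ℝ))
      have h2 := (h1.mul hd).sub (hasDerivAt_id z)
      refine (h2.congr_deriv ?_).hasDerivWithinAt
      unfold Pf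
      field_simp
      ring
    · intro z hz
      rw [interior_Ioi] at hz
      have := Lg_lower (show 0 < z from hz)
      show 0 ≤ (2 * z + 1) * Lg z - 2
      linarith
  have := hmono (mem_Ioi.mpr ht) (mem_Ioi.mpr (lt_of_lt_of_le ht hty)) hty
  simp only at this
  linarith

/-- Auxiliary inequality (A). -/
lemma aux_A {t y : ℝ} (ht : 0 < t) (hty : t ≤ y) :
    Lg y ^ 2 ≤ Lg t * (Lg y - (y - t) * Pf y) := by
  have hy : 0 < y := lt_of_lt_of_le ht hty
  have hanti : AntitoneOn (fun s : ℝ => Lg y * Lg s - Lg y ^ 2 - (y - s) * Lg s * Pf y)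
      (Ioc 0 y) := by
    refine antitoneOn_of_hasDerivWithinAt_nonpos (convex_Ioc 0 y)
      (f' := fun s => -(Lg y * Pf s) + Lg s * Pf y + (y - s) * Pf s * Pf y) ?_ ?_ ?_
    · intro z hz
      have hd := hasDerivAt_Lg hz.1
      have h1 : ContinuousAt Lg z := hd.continuousAt
      refine ContinuousAt.continuousWithinAt ?_
      fun_prop
    · intro z hz
      rw [interior_Ioc] at hz
      have hd := hasDerivAt_Lg hz.1
      have h1 := hd.const_mul (Lg y)
      have h2 : HasDerivAt (fun s : ℝ => (y - s) * Lg s * Pf y)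
          (((-1) * Lg z + (y - z) * (-Pf z)) * Pf y) z := by
        have h3 : HasDerivAt (fun s : ℝ => y - s) (-1) z := by
          simpa using (hasDerivAt_id z).const_sub y
        exact (h3.mul hd).mul_const (Pf y)
      have h4 := (h1.sub_const (Lg y ^ 2)).sub h2
      refine (h4.congr_deriv ?_).hasDerivWithinAt
      ring
    · intro z hz
      rw [interior_Ioc] at hz
      have hz0 : 0 < z := hz.1
      have hz1 : z ≤ y := hz.2.le
      have hg := Y_growth hz0 hz1
      have hPz : 0 < Pf z := Pf_pos hz0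
      have hPy : 0 < Pf y := Pf_pos hy
      have e1 : Pf y * (y * (y + 1)) = 1 := by unfold Pf; field_simp
      have e2 : Pf z * (z * (z + 1)) = 1 := by unfold Pf; field_simp
      have : -(Lg y * Pf z) + Lg z * Pf y + (y - z) * Pf z * Pf y =
          Pf z * Pf y * (z * (z + 1) * Lg z + (y - z) - y * (y + 1) * Lg y) := by
        have : Lg y * Pf z = Pf z * (Pf y * (y * (y + 1))) * Lg y := by rw [e1]; ring
        rw [this]
        have : Lg z * Pf y = (Pf z * (z * (z + 1))) * Pf y * Lg z := by rw [e2]; ring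
        rw [this]
        ring
      rw [this]
      apply mul_nonpos_of_nonneg_of_nonpos (by positivity)
      linarith
  have hle := hanti ⟨ht, hty⟩ ⟨hy, le_rfl⟩ hty
  simp only [sub_self, zero_mul] at hle
  nlinarith [hle]

/-- `Y₁(s) = s (s+1) L(s) + s`. -/
noncomputable def Yone (s : ℝ) : ℝ := s * (s + 1) * Lg s + s

lemma hasDerivAt_Yone {s : ℝ} (hs : 0 < s) : HasDerivAt Yone ((2 * s + 1) * Lg s) s := by
  have hd := hasDerivAt_Lg hs
  have h1 : HasDerivAt (fun y : ℝ => y * (y + 1)) (1 * (s + 1) + s * 1) s :=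
    (hasDerivAt_id s).mul ((hasDerivAt_id s).add_const (1 : ℝ))
  have h2 := (h1.mul hd).add (hasDerivAt_id s)
  refine h2.congr_deriv ?_
  unfold Pf
  field_simp
  ring

lemma Yone_growth {t y : ℝ} (ht : 0 < t) (hty : t ≤ y) : 0 ≤ Yone y - Yone t := by
  have := Y_growth ht hty
  unfold Yone
  linarith

/-- The square root free form of the symmetric inequality. -/
lemma sym_aux {t x κ : ℝ} (ht : 0 < t) (htx : t ≤ x) (hκ : 0 < κ)
    (hκ2 : κ ^ 2 = 4 + Lg x * Lg t) : Yone x - Yone t ≤ (x - t) * κ := by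
  have hx : 0 < x := lt_of_lt_of_le ht htx
  have hl : 0 < Lg t := Lg_pos ht
  set F : ℝ → ℝ := fun y => (y - t) * (4 + κ ^ 2) / (2 * κ) + (y - t) * Lg y * Lg t / (2 * κ)
    - (Yone y - Yone t) with hF
  have hmono : MonotoneOn F (Icc t x) := by
    refine monotoneOn_of_hasDerivWithinAt_nonneg (convex_Icc t x)
      (f' := fun y => (4 + κ ^ 2) / (2 * κ) +
        (1 * Lg y + (y - t) * (-Pf y)) * Lg t / (2 * κ) - (2 * y + 1) * Lg y) ?_ ?_ ?_
    · intro z hz
      have hz0 : 0 < z := lt_of_lt_of_le ht hz.1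
      have h1 : ContinuousAt Lg z := (hasDerivAt_Lg hz0).continuousAt
      have h2 : ContinuousAt Yone z := (hasDerivAt_Yone hz0).continuousAt
      refine ContinuousAt.continuousWithinAt ?_
      simp only [hF]
      fun_prop
    · intro z hz
      rw [interior_Icc] at hz
      have hz0 : 0 < z := lt_trans ht hz.1
      have h1 : HasDerivAt (fun y : ℝ => (y - t) * (4 + κ ^ 2) / (2 * κ))
          (1 * (4 + κ ^ 2) / (2 * κ)) z :=
        (((hasDerivAt_id z).sub_const t).mul_const (4 + κ ^ 2)).div_const (2 * κ)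
      have h2 : HasDerivAt (fun y : ℝ => (y - t) * Lg y * Lg t / (2 * κ))
          ((1 * Lg z + (z - t) * (-Pf z)) * Lg t / (2 * κ)) z :=
        ((((hasDerivAt_id z).sub_const t).mul (hasDerivAt_Lg hz0)).mul_const (Lg t)).div_const
          (2 * κ)
      have h3 : HasDerivAt (fun y : ℝ => Yone y - Yone t) ((2 * z + 1) * Lg z) z :=
        (hasDerivAt_Yone hz0).sub_const _
      have h4 := (h1.add h2).sub h3
      refine (h4.congr_deriv ?_).hasDerivWithinAt
      ring
    · intro z hz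
      rw [interior_Icc] at hz
      have hz0 : 0 < z := lt_trans ht hz.1
      have hA := aux_A ht hz.1.le
      have hU := Lg_upper hz0
      have hLz : 0 < Lg z := Lg_pos hz0
      have hsq : ((2 * z + 1) * Lg z) ^ 2 ≤ 4 + Lg z ^ 2 := by nlinarith
      have hsq2 : 2 * κ * ((2 * z + 1) * Lg z) ≤ κ ^ 2 + 4 + Lg z ^ 2 := by
        nlinarith [sq_nonneg (κ - (2 * z + 1) * Lg z)]
      have hgoal : (4 + κ ^ 2) / (2 * κ) + (1 * Lg z + (z - t) * (-Pf z)) * Lg t / (2 * κ)
          - (2 * z + 1) * Lg z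
          = ((4 + κ ^ 2) + Lg t * (Lg z - (z - t) * Pf z) - 2 * κ * ((2 * z + 1) * Lg z)) /
            (2 * κ) := by
        field_simp
        ring
      show 0 ≤ (4 + κ ^ 2) / (2 * κ) + (1 * Lg z + (z - t) * (-Pf z)) * Lg t / (2 * κ)
          - (2 * z + 1) * Lg z
      rw [hgoal]
      apply div_nonneg _ (by positivity)
      linarith
  have hle := hmono (left_mem_Icc.mpr htx) (right_mem_Icc.mpr htx) htx
  simp only [hF, sub_self, zero_mul, zero_div, add_zero] at hle
  have e : (x - t) * (4 + κ ^ 2) / (2 * κ) + (x - t) * Lg x * Lg t / (2 * κ) = (x - t) * κ := by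
    have : Lg x * Lg t = κ ^ 2 - 4 := by linarith
    have e2 : (x - t) * Lg x * Lg t = (x - t) * (κ ^ 2 - 4) := by
      rw [← this]; ring
    rw [e2]
    field_simp
    ring
  linarith

/-- The symmetric inequality `(Y₁(x) - Y₁(t))² ≤ (x - t)² (4 + L(x) L(t))`. -/
lemma sym_ineq {x t : ℝ} (hx : 0 < x) (ht : 0 < t) :
    (Yone x - Yone t) ^ 2 ≤ (x - t) ^ 2 * (4 + Lg x * Lg t) := by
  have hLx := Lg_pos hx
  have hLt := Lg_pos ht
  have hpos : 0 < 4 + Lg x * Lg t := by positivity
  set κ := √(4 + Lg x * Lg t) with hκdef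
  have hκ : 0 < κ := Real.sqrt_pos.mpr hpos
  have hκ2 : κ ^ 2 = 4 + Lg x * Lg t := Real.sq_sqrt hpos.le
  rcases le_total t x with h | h
  · have h1 := sym_aux ht h hκ hκ2
    have h2 := Yone_growth ht h
    have h3 : (Yone x - Yone t) ^ 2 ≤ ((x - t) * κ) ^ 2 := pow_le_pow_left₀ h2 h1 2
    rw [mul_pow, hκ2] at h3
    exact h3
  · have h1 := sym_aux hx h hκ (by rw [hκ2]; ring)
    have h2 := Yone_growth hx h
    have h3 : (Yone t - Yone x) ^ 2 ≤ ((t - x) * κ) ^ 2 := pow_le_pow_left₀ h2 h1 2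
    rw [mul_pow, hκ2] at h3
    nlinarith

/-- The determinant inequality. -/
lemma det_nonneg {x t : ℝ} (hx : 0 < x) (ht : 0 < t) :
    (x * (x + 1) * Lg x + t * (t + 1) * Lg t - (x - t)) ^ 2 ≤
      Lg x * (x + t + 2 * x * t) * (Lg t * (x + t + 2 * x * t) - 2 * (x - t)) := by
  have hS := sym_ineq hx ht
  have hL := Lg_lower hx
  have hLx := Lg_pos hx
  have e : Lg x * (x + t + 2 * x * t) * (Lg t * (x + t + 2 * x * t) - 2 * (x - t))
      - (x * (x + 1) * Lg x + t * (t + 1) * Lg t - (x - t)) ^ 2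
      = (x - t) ^ 2 * Lg x * (Lg t + 4 * x + 2) - (Yone x - Yone t) ^ 2 := by
    unfold Yone
    ring
  have h2 : (x - t) ^ 2 * (4 + Lg x * Lg t) ≤ (x - t) ^ 2 * Lg x * (Lg t + 4 * x + 2) := by
    have : 4 + Lg x * Lg t ≤ Lg x * (Lg t + 4 * x + 2) := by nlinarith
    calc (x - t) ^ 2 * (4 + Lg x * Lg t) ≤ (x - t) ^ 2 * (Lg x * (Lg t + 4 * x + 2)) :=
          mul_le_mul_of_nonneg_left this (sq_nonneg _)
      _ = _ := by ring
  linarith

/-- The function `Γ(x,t) = (x - t) L(x) / L(t)`. -/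
noncomputable def Gam (x t : ℝ) : ℝ := (x - t) * Lg x / Lg t

/-- The partial derivative of `Γ` in `x`. -/
noncomputable def GamX (x t : ℝ) : ℝ := (Lg x - (x - t) * Pf x) / Lg t

/-- The partial derivative of `Γ` in `t`. -/
noncomputable def GamT (x t : ℝ) : ℝ := -Lg x / Lg t + (x - t) * Lg x * Pf t / Lg t ^ 2

/-- The second derivative of `Γ` along the direction `(ξ, ω)`. -/
noncomputable def GamQ (x t ξ ω : ℝ) : ℝ :=
  -(x + t + 2 * x * t) * Pf x ^ 2 / Lg t * ξ ^ 2
  + 2 * ((Lg x * Pf t + Pf x * Lg t - (x - t) * Pf x * Pf t) / Lg t ^ 2) * (ξ * ω)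
  - Lg x * Pf t ^ 2 * (Lg t * (x + t + 2 * x * t) - 2 * (x - t)) / Lg t ^ 3 * ω ^ 2

lemma GamQ_nonpos {x t : ℝ} (hx : 0 < x) (ht : 0 < t) (ξ ω : ℝ) : GamQ x t ξ ω ≤ 0 := by
  have hdet := det_nonneg hx ht
  have hl := Lg_pos ht
  set Z := x + t + 2 * x * t with hZ
  have hZpos : 0 < Z := by positivity
  set X := Lg x with hX
  set l := Lg t with hl'
  set a := x * (x + 1) with ha
  set b := t * (t + 1) with hb
  have hapos : 0 < a := by positivity
  have hbpos : 0 < b := by positivity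
  have hPa : Pf x = 1 / a := rfl
  have hPb : Pf t = 1 / b := rfl
  set p := Pf x * ξ with hp
  set w := Pf t * ω with hw
  have key : GamQ x t ξ ω = -(((Z * l * p - (a * X + b * l - (x - t)) * w) ^ 2 +
      (X * Z * (l * Z - 2 * (x - t)) - (a * X + b * l - (x - t)) ^ 2) * w ^ 2) / (Z * l ^ 3)) := by
    unfold GamQ
    rw [← hX, ← hl', ← hZ]
    simp only [hp, hw, hPa, hPb]
    field_simp
    ring
  rw [key]
  apply neg_nonpos.mpr
  apply div_nonneg _ (by positivity)
  have : 0 ≤ X * Z * (l * Z - 2 * (x - t)) - (a * X + b * l - (x - t)) ^ 2 := by linarith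
  positivity

lemma hasDerivAt_Lg_comp {f : ℝ → ℝ} {f' s : ℝ} (hf : HasDerivAt f f' s) (h : 0 < f s) :
    HasDerivAt (fun s => Lg (f s)) (-Pf (f s) * f') s :=
  HasDerivAt.comp (h₂ := Lg) s (hasDerivAt_Lg h) hf

lemma hasDerivAt_Pf_comp {f : ℝ → ℝ} {f' s : ℝ} (hf : HasDerivAt f f' s) (h : 0 < f s) :
    HasDerivAt (fun s => Pf (f s)) (-(2 * f s + 1) * Pf (f s) ^ 2 * f') s :=
  HasDerivAt.comp (h₂ := Pf) s (hasDerivAt_Pf h) hf

/-- The derivative of `Γ` along a line. -/
lemma hasDerivAt_Gam_line {x t ξ ω s : ℝ} (hx : 0 < x + s * ξ) (ht : 0 < t + s * ω) :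
    HasDerivAt (fun s : ℝ => Gam (x + s * ξ) (t + s * ω))
      (GamX (x + s * ξ) (t + s * ω) * ξ + GamT (x + s * ξ) (t + s * ω) * ω) s := by
  have hlx : HasDerivAt (fun s : ℝ => x + s * ξ) ξ s := by
    simpa using ((hasDerivAt_id s).mul_const ξ).const_add x
  have hlt : HasDerivAt (fun s : ℝ => t + s * ω) ω s := by
    simpa using ((hasDerivAt_id s).mul_const ω).const_add t
  have hLx := hasDerivAt_Lg_comp hlx hx
  have hLt := hasDerivAt_Lg_comp hlt ht
  have hl := (Lg_pos ht).ne'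
  have h := ((hlx.fun_sub hlt).fun_mul hLx).fun_div hLt hl
  refine h.congr_deriv ?_
  unfold GamX GamT
  field_simp
  ring

/-- The second derivative of `Γ` along a line. -/
lemma hasDerivAt_GamD_line {x t ξ ω s : ℝ} (hx : 0 < x + s * ξ) (ht : 0 < t + s * ω) :
    HasDerivAt (fun s : ℝ => GamX (x + s * ξ) (t + s * ω) * ξ + GamT (x + s * ξ) (t + s * ω) * ω)
      (GamQ (x + s * ξ) (t + s * ω) ξ ω) s := by
  have hlx : HasDerivAt (fun s : ℝ => x + s * ξ) ξ s := by
    simpa using ((hasDerivAt_id s).mul_const ξ).const_add x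
  have hlt : HasDerivAt (fun s : ℝ => t + s * ω) ω s := by
    simpa using ((hasDerivAt_id s).mul_const ω).const_add t
  have hLx := hasDerivAt_Lg_comp hlx hx
  have hLt := hasDerivAt_Lg_comp hlt ht
  have hPx := hasDerivAt_Pf_comp hlx hx
  have hPt := hasDerivAt_Pf_comp hlt ht
  have hl := (Lg_pos ht).ne'
  have hu := hlx.fun_sub hlt
  have h1 := ((hLx.fun_sub (hu.fun_mul hPx)).fun_div hLt hl).mul_const ξ
  have h2 := (((hLx.fun_neg).fun_div hLt hl).fun_add
    (((hu.fun_mul hLx).fun_mul hPt).fun_div (hLt.fun_pow 2) (pow_ne_zero 2 hl))).mul_const ω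
  have h := h1.fun_add h2
  unfold GamX GamT
  refine h.congr_deriv ?_
  set x' := x + s * ξ with hx'
  set t' := t + s * ω with ht'
  unfold GamQ
  set X := Lg x' with hX
  set l := Lg t' with hl'
  set P := Pf x' with hP
  set W := Pf t' with hW
  have hPne : P ≠ 0 := (Pf_pos hx).ne'
  have hWne : W ≠ 0 := (Pf_pos ht).ne'
  have hPa : P * (x' * (x' + 1)) = 1 := by rw [hP]; unfold Pf; field_simp
  have hWa : W * (t' * (t' + 1)) = 1 := by rw [hW]; unfold Pf; field_simp
  have e2' : (x' + t' + 2 * x' * t') * P ^ 2 = 2 * P - (x' - t') * (2 * x' + 1) * P ^ 2 := by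
    have : (x' + t' + 2 * x' * t') = 2 * (x' * (x' + 1)) - (x' - t') * (2 * x' + 1) := by ring
    rw [this]
    linear_combination (2 * P) * hPa
  have e3' : (x' + t' + 2 * x' * t') * W ^ 2 = 2 * W + (x' - t') * (2 * t' + 1) * W ^ 2 := by
    have : (x' + t' + 2 * x' * t') = 2 * (t' * (t' + 1)) + (x' - t') * (2 * t' + 1) := by ring
    rw [this]
    linear_combination (2 * W) * hWa
  have hZP : -(x' + t' + 2 * x' * t') * P ^ 2 / l * ξ ^ 2 =
      (-2 * P + (x' - t') * (2 * x' + 1) * P ^ 2) / l * ξ ^ 2 := by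
    have : -(x' + t' + 2 * x' * t') * P ^ 2 = -2 * P + (x' - t') * (2 * x' + 1) * P ^ 2 := by
      linarith
    rw [this]
  have hZW : X * W ^ 2 * (l * (x' + t' + 2 * x' * t') - 2 * (x' - t')) / l ^ 3 * ω ^ 2 =
      X * (l * ((x' + t' + 2 * x' * t') * W ^ 2) - 2 * (x' - t') * W ^ 2) / l ^ 3 * ω ^ 2 := by
    ring
  rw [hZP, hZW, e3']
  simp only [Nat.cast_ofNat, Nat.add_one_sub_one, pow_one]
  field_simp
  ring

/-- A one dimensional Taylor inequality. -/
lemma taylor_one {φ ψ χ : ℝ → ℝ}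
    (h1 : ∀ s ∈ Icc (0 : ℝ) 1, HasDerivAt φ (ψ s) s)
    (h2 : ∀ s ∈ Icc (0 : ℝ) 1, HasDerivAt ψ (χ s) s)
    (h3 : ∀ s ∈ Icc (0 : ℝ) 1, χ s ≤ 0) : φ 1 ≤ φ 0 + ψ 0 := by
  have hanti : AntitoneOn ψ (Icc 0 1) := by
    refine antitoneOn_of_hasDerivWithinAt_nonpos (convex_Icc 0 1) (f' := χ) ?_ ?_ ?_
    · intro s hs
      exact (h2 s hs).continuousAt.continuousWithinAt
    · intro s hs
      rw [interior_Icc] at hs
      exact (h2 s (Ioo_subset_Icc_self hs)).hasDerivWithinAt
    · intro s hs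
      rw [interior_Icc] at hs
      exact h3 s (Ioo_subset_Icc_self hs)
  have hcont : ContinuousOn φ (Icc 0 1) := fun s hs => (h1 s hs).continuousAt.continuousWithinAt
  obtain ⟨c, hc, hc2⟩ := exists_hasDerivAt_eq_slope φ ψ (by norm_num : (0 : ℝ) < 1) hcont
    (fun s hs => h1 s (Ioo_subset_Icc_self hs))
  have hle := hanti (left_mem_Icc.mpr zero_le_one) (Ioo_subset_Icc_self hc) hc.1.le
  rw [hc2] at hle
  simp only [sub_zero, div_one] at hle
  linarith

/-- The supporting plane of the concave function `Γ`. -/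
lemma Gam_plane {a r x m : ℝ} (ha : 0 < a) (hr : 0 < r) (hx : 0 < x) (hm : 0 < m) :
    Gam a r ≤ Gam x m + GamX x m * (a - x) + GamT x m * (r - m) := by
  have hpos1 : ∀ s ∈ Icc (0 : ℝ) 1, 0 < x + s * (a - x) := by
    intro s hs
    have : x + s * (a - x) = (1 - s) * x + s * a := by ring
    rw [this]
    rcases eq_or_lt_of_le hs.1 with h | h
    · rw [← h]; simpa using hx
    · have : 0 ≤ 1 - s := by linarith [hs.2]
      positivity
  have hpos2 : ∀ s ∈ Icc (0 : ℝ) 1, 0 < m + s * (r - m) := by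
    intro s hs
    have : m + s * (r - m) = (1 - s) * m + s * r := by ring
    rw [this]
    rcases eq_or_lt_of_le hs.1 with h | h
    · rw [← h]; simpa using hm
    · have : 0 ≤ 1 - s := by linarith [hs.2]
      positivity
  have := taylor_one (φ := fun s => Gam (x + s * (a - x)) (m + s * (r - m)))
    (ψ := fun s => GamX (x + s * (a - x)) (m + s * (r - m)) * (a - x) +
      GamT (x + s * (a - x)) (m + s * (r - m)) * (r - m))
    (χ := fun s => GamQ (x + s * (a - x)) (m + s * (r - m)) (a - x) (r - m))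
    (fun s hs => hasDerivAt_Gam_line (hpos1 s hs) (hpos2 s hs))
    (fun s hs => hasDerivAt_GamD_line (hpos1 s hs) (hpos2 s hs))
    (fun s hs => GamQ_nonpos (hpos1 s hs) (hpos2 s hs) _ _)
  simp only [one_mul, add_sub_cancel, zero_mul, add_zero] at this
  linarith

/-- The three point inequality. -/
lemma Gam_three_point {η a b r s x : ℝ} (h0 : 0 ≤ η) (h1 : η ≤ 1) (ha : 0 < a) (hb : 0 < b)
    (hr : 0 < r) (hs : 0 < s) (hx : 0 < x) (hm : 0 < η * r + (1 - η) * s) :
    η * Gam a r + (1 - η) * Gam b s ≤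
      Gam x (η * r + (1 - η) * s) +
        GamX x (η * r + (1 - η) * s) * (η * a + (1 - η) * b - x) := by
  set m := η * r + (1 - η) * s with hmdef
  have h2 := Gam_plane ha hr hx hm
  have h3 := Gam_plane hb hs hx hm
  have h4 : 0 ≤ 1 - η := by linarith
  have h5 := mul_le_mul_of_nonneg_left h2 h0
  have h6 := mul_le_mul_of_nonneg_left h3 h4
  have e : η * (Gam x m + GamX x m * (a - x) + GamT x m * (r - m)) +
      (1 - η) * (Gam x m + GamX x m * (b - x) + GamT x m * (s - m)) =
      Gam x m + GamX x m * (η * a + (1 - η) * b - x) := by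
    have : η * (r - m) + (1 - η) * (s - m) = 0 := by rw [hmdef]; ring
    linear_combination (GamT x m) * this
  linarith

end Vale.Agent.Lib.P369
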