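import Vale.Agent.Lib.P369.Entropy

open Finset

namespace Vale.Agent.Lib.P369

lemma exists_sigma {r s : ℝ} (hr : 0 ≤ r) (hs : 0 ≤ s) :
    ∃ ς : ℝ, 0 < ς ∧ ς < 1 ∧ r / (1 + r) < ς ^ 2 ∧ s / (1 + s) < ς ^ 2 := by
  have h1 := thermal_ratio hr
  have h2 := thermal_ratio hs
  set a := max (r / (1 + r)) (s / (1 + s)) with ha
  have ha1 : a < 1 := max_lt h1 h2
  have ha0 : 0 ≤ a := le_max_of_le_left (by positivity)
  refine ⟨√((1 + a) / 2), Real.sqrt_pos.mpr (by linarith), ?_, ?_, ?_⟩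
  · rw [Real.sqrt_lt' one_pos]
    linarith
  · rw [Real.sq_sqrt (by linarith)]
    have : r / (1 + r) ≤ a := le_max_left _ _
    linarith
  · rw [Real.sq_sqrt (by linarith)]
    have : s / (1 + s) ≤ a := le_max_right _ _
    linarith

lemma Cflow_nonneg {σ : ℕ → ℝ} {N : ℕ} (h : FinPassive σ N) {t ρ : ℝ} (ht : 0 ≤ t)
    (hρ : t / (1 + t) < ρ) (hρ1 : ρ < 1) : 0 ≤ Cflow t ρ N σ := by
  have hs := flow_upper h ht zero_le_one (le_refl _) hρ 0
  have hn := flow_nonneg h ht zero_le_one (le_refl (1 : ℝ)) 0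
  simp only [pow_zero, mul_one] at hs
  linarith

/-- The flow of a finitely supported passive sequence is regular. -/
lemma Reg_flow {σ : ℕ → ℝ} {N : ℕ} (h : FinPassive σ N) {t θ θ₂ ρ : ℝ} (ht : 0 < t) (h0 : 0 < θ)
    (hθ : θ ≤ θ₂) (hθ₂ : θ₂ < 1) (hρ : t / (1 + t) < ρ) (hρ1 : ρ < 1) :
    Reg (flow t θ N σ) (σ 0 * (1 / (1 + t))) (Cflow t ρ N σ) (1 - gf t θ₂) ρ := by
  have h1 : θ < 1 := lt_of_le_of_lt hθ hθ₂
  have hz : 0 < t / (1 + t) := by positivity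
  have hz2 := one_sub_gf_pos ht hθ₂
  refine ⟨mul_pos h.zero_pos (by positivity), hz2, lt_trans hz hρ, hρ1, ?_, ?_, ?_, ?_⟩
  · intro j
    have h2 := flow_lower h ht.le h0.le h1.le j
    have h3 := gf_ge ht.le h0.le h1.le
    have h4 := one_sub_gf_ge ht.le hθ hθ₂.le
    have h5 : (1 - gf t θ₂) ^ j ≤ (1 - gf t θ) ^ j := pow_le_pow_left₀ hz2.le h4 j
    have h6 := h.zero_pos
    refine le_trans ?_ h2
    rw [mul_assoc]
    apply mul_le_mul_of_nonneg_left _ h6.le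
    exact mul_le_mul h3 h5 (by positivity) (gf_pos ht.le h1.le).le
  · exact fun j => flow_upper h ht.le h0.le h1.le hρ j
  · exact fun j => flow_anti h ht h0 h1 j
  · exact flow_hasSum h ht.le h1.le

lemma flow_le_one {σ : ℕ → ℝ} {N : ℕ} (h : FinPassive σ N) {t θ : ℝ} (ht : 0 ≤ t) (h0 : 0 ≤ θ)
    (h1 : θ ≤ 1) (j : ℕ) : flow t θ N σ j ≤ 1 :=
  le_hasSum (flow_hasSum h ht h1) j (fun i _ => flow_nonneg h ht h0 h1 i)

lemma flow_linear {σ : ℕ → ℝ} {N : ℕ} (h : FinPassive σ N) {t θ ρ : ℝ} (ht : 0 ≤ t) (h0 : 0 ≤ θ)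
    (h1 : θ ≤ 1) (hρ : t / (1 + t) < ρ) (hρ1 : ρ < 1) :
    Summable (fun k : ℕ => ((k : ℝ) + 1) * flow t θ N σ k) := by
  have hz : 0 ≤ t / (1 + t) := by positivity
  refine Summable.of_nonneg_of_le (fun j => mul_nonneg (by positivity) (flow_nonneg h ht h0 h1 j))
    (fun j => ?_) ((summable_linear_geom (hz.trans hρ.le) hρ1).mul_left (Cflow t ρ N σ))
  calc ((j : ℝ) + 1) * flow t θ N σ j ≤ ((j : ℝ) + 1) * (Cflow t ρ N σ * ρ ^ j) :=
        mul_le_mul_of_nonneg_left (flow_upper h ht h0 h1 hρ j) (by positivity)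
    _ = _ := by ring

section Spade
variable {p q : ℕ → ℝ} {Np Nq : ℕ} {η r s : ℝ}

/-- Continuity of the output of the two flows in the flow parameter. -/
lemma continuousOn_output (hp : FinPassive p Np) (hq : FinPassive q Nq) (h0 : 0 ≤ η) (h1 : η ≤ 1)
    (hr : 0 ≤ r) (hs : 0 ≤ s) {ρ : ℝ} (hρr : r / (1 + r) < ρ) (hρs : s / (1 + s) < ρ)
    (hρ1 : ρ < 1) (j : ℕ) :
    ContinuousOn (fun θ => output η (flow r θ Np p) (flow s θ Nq q) j) (Set.Icc 0 1) := by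
  unfold output
  have hz : 0 ≤ r / (1 + r) := by positivity
  have hρ0 : 0 ≤ ρ := hz.trans hρr.le
  have hC₁ := Cflow_nonneg hp hr hρr hρ1
  have hC₂ := Cflow_nonneg hq hs hρs hρ1
  have hgeo : Summable (fun k : ℕ => ρ ^ k) := summable_geometric_of_lt_one hρ0 hρ1
  have hsum : Summable (fun x : ℕ × ℕ => (Cflow r ρ Np p * ρ ^ x.1) * (Cflow s ρ Nq q * ρ ^ x.2)) :=
    (hgeo.mul_left _).mul_of_nonneg (hgeo.mul_left _) (fun k => by positivity)
      (fun k => by positivity)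
  refine continuousOn_tsum (fun x => ?_) hsum (fun x θ hθ => ?_)
  · refine ContinuousOn.mul (ContinuousOn.mul ?_ ?_) continuousOn_const
    · exact fun θ hθ => (continuousAt_flow hr hθ.2 Np p x.1).continuousWithinAt
    · exact fun θ hθ => (continuousAt_flow hs hθ.2 Nq q x.2).continuousWithinAt
  · have h2 := flow_nonneg hp hr hθ.1 hθ.2 x.1
    have h3 := flow_nonneg hq hs hθ.1 hθ.2 x.2
    have h4 := flow_upper hp hr hθ.1 hθ.2 hρr x.1
    have h5 := flow_upper hq hs hθ.1 hθ.2 hρs x.2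
    have h6 := trans_nonneg (η := η) j x.1 x.2
    have h7 := trans_le_one h0 h1 j x.1 x.2
    rw [Real.norm_eq_abs, abs_of_nonneg (by positivity)]
    calc _ ≤ flow r θ Np p x.1 * flow s θ Nq q x.2 * 1 :=
          mul_le_mul_of_nonneg_left h7 (by positivity)
      _ = flow r θ Np p x.1 * flow s θ Nq q x.2 := by ring
      _ ≤ _ := mul_le_mul h4 h5 h3 (by positivity)

/-- The monotone quantity. -/
noncomputable def Psi (η r s : ℝ) (p q : ℕ → ℝ) (Np Nq : ℕ) (θ : ℝ) : ℝ :=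
  (entropy (output η (flow r θ Np p) (flow s θ Nq q)) - g (η * r + (1 - η) * s)) /
      Lg (η * r + (1 - η) * s) -
    η * ((entropy (flow r θ Np p) - g r) / Lg r) -
    (1 - η) * ((entropy (flow s θ Nq q) - g s) / Lg s)

/-- The derivative of the monotone quantity. -/
noncomputable def Psid (η r s : ℝ) (p q : ℕ → ℝ) (Np Nq : ℕ) (θ : ℝ) : ℝ :=
  (Df (η * r + (1 - η) * s) (output η (flow r θ Np p) (flow s θ Nq q)) / θ) /
      Lg (η * r + (1 - η) * s) -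
    η * ((Df r (flow r θ Np p) / θ) / Lg r) -
    (1 - η) * ((Df s (flow s θ Nq q) / θ) / Lg s)

lemma Psi_hasDerivAt (hp : FinPassive p Np) (hq : FinPassive q Nq) (h0 : 0 < η) (h1 : η < 1)
    (hr : 0 < r) (hs : 0 < s) {θ : ℝ} (hθ : θ ∈ Set.Ioo (0 : ℝ) 1) :
    HasDerivAt (Psi η r s p q Np Nq) (Psid η r s p q Np Nq θ) θ := by
  obtain ⟨ς, hς0, hς1, hςr, hςs⟩ := exists_sigma hr.le hs.le
  have hρ0 : 0 < ς ^ 2 := by positivity
  have hρ1 : ς ^ 2 < 1 := by nlinarith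
  set θ₁ := θ / 2 with hθ₁
  set θ₂ := (1 + θ) / 2 with hθ₂
  have hθ1 := hθ.1
  have hθ2 := hθ.2
  have h1pos : 0 < θ₁ := by rw [hθ₁]; linarith
  have h2lt : θ₂ < 1 := by rw [hθ₂]; linarith
  have hmem : θ ∈ Set.Ioo θ₁ θ₂ := ⟨by rw [hθ₁]; linarith, by rw [hθ₂]; linarith⟩
  have hIoo : ∀ y ∈ Set.Ioo θ₁ θ₂, 0 < y ∧ y < 1 := fun y hy =>
    ⟨lt_trans h1pos hy.1, lt_trans hy.2 h2lt⟩
  have hRP : ∀ y ∈ Set.Ioo θ₁ θ₂, Reg (flow r y Np p) (p 0 * (1 / (1 + r))) (Cflow r (ς ^ 2) Np p)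
      (1 - gf r θ₂) (ς ^ 2) := fun y hy =>
    Reg_flow hp hr (hIoo y hy).1 hy.2.le h2lt hςr hρ1
  have hRQ : ∀ y ∈ Set.Ioo θ₁ θ₂, Reg (flow s y Nq q) (q 0 * (1 / (1 + s))) (Cflow s (ς ^ 2) Nq q)
      (1 - gf s θ₂) (ς ^ 2) := fun y hy =>
    Reg_flow hq hs (hIoo y hy).1 hy.2.le h2lt hςs hρ1
  have hRC : ∀ y ∈ Set.Ioo θ₁ θ₂, Reg (output η (flow r y Np p) (flow s y Nq q)) _ _ _ ς :=
    fun y hy => Reg_output h0 h1.le hς0 hς1 (hRP y hy) (hRQ y hy)
  have hdP : ∀ y ∈ Set.Ioo θ₁ θ₂, ∀ k, HasDerivAt (fun y => flow r y Np p k)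
      (-Lop r (flow r y Np p) k / y) y := fun y hy k =>
    hasDerivAt_flow hr.le (hIoo y hy).1 (hIoo y hy).2.le Np p k
  have hdQ : ∀ y ∈ Set.Ioo θ₁ θ₂, ∀ k, HasDerivAt (fun y => flow s y Nq q k)
      (-Lop s (flow s y Nq q) k / y) y := fun y hy k =>
    hasDerivAt_flow hs.le (hIoo y hy).1 (hIoo y hy).2.le Nq q k
  have hdC : ∀ y ∈ Set.Ioo θ₁ θ₂, ∀ j, HasDerivAt
      (fun y => output η (flow r y Np p) (flow s y Nq q) j)
      (-Lop (η * r + (1 - η) * s) (output η (flow r y Np p) (flow s y Nq q)) j / y) y :=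
    fun y hy j => hasDerivAt_output_flow h0.le h1.le h1pos hr.le hs.le hρ0 hρ1
      (Cflow_nonneg hp hr.le hςr hρ1) (Cflow_nonneg hq hs.le hςs hρ1) hdP hdQ
      (fun y hy k => ((hRP y hy).pos k).le) (fun y hy k => ((hRQ y hy).pos k).le)
      (fun y hy k => (hRP y hy).up k) (fun y hy k => (hRQ y hy).up k) hy j
  have hm : 0 ≤ η * r + (1 - η) * s := by
    have : 0 ≤ 1 - η := by linarith
    positivity
  have hE1 := hasDerivAt_entropy h1pos hm hdC hRC hmem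
  have hE2 := hasDerivAt_entropy h1pos hr.le hdP hRP hmem
  have hE3 := hasDerivAt_entropy h1pos hs.le hdQ hRQ hmem
  exact (((hE1.sub_const _).div_const _).sub (((hE2.sub_const _).div_const _).const_mul η)).sub
    (((hE3.sub_const _).div_const _).const_mul (1 - η))

lemma Psid_nonneg (hp : FinPassive p Np) (hq : FinPassive q Nq) (h0 : 0 < η) (h1 : η < 1)
    (hr : 0 < r) (hs : 0 < s) {θ : ℝ} (hθ : θ ∈ Set.Ioo (0 : ℝ) 1) :
    0 ≤ Psid η r s p q Np Nq θ := by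
  obtain ⟨ς, hς0, hς1, hςr, hςs⟩ := exists_sigma hr.le hs.le
  have hρ1 : ς ^ 2 < 1 := by nlinarith
  have h2lt : (1 + θ) / 2 < 1 := by linarith [hθ.2]
  have hle : θ ≤ (1 + θ) / 2 := by linarith [hθ.2]
  have hRP := Reg_flow hp hr hθ.1 hle h2lt hςr hρ1
  have hRQ := Reg_flow hq hs hθ.1 hle h2lt hςs hρ1
  have hRC := Reg_output h0 h1.le hς0 hς1 hRP hRQ
  have hcoup := coupling_ineq h0.le h1.le hRP hRQ hRC hr hs
  have hm : 0 < η * r + (1 - η) * s := by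
    have : 0 < 1 - η := by linarith
    positivity
  rw [hRP.tsum_W hr, hRQ.tsum_W hs, hRC.tsum_W hm] at hcoup
  have e : Psid η r s p q Np Nq θ = (1 / θ) *
      (Df (η * r + (1 - η) * s) (output η (flow r θ Np p) (flow s θ Nq q)) /
        Lg (η * r + (1 - η) * s) -
      (η * (Df r (flow r θ Np p) / Lg r) + (1 - η) * (Df s (flow s θ Nq q) / Lg s))) := by
    unfold Psid
    have := hθ.1.ne'
    field_simp
    ring
  rw [e]
  apply mul_nonneg (by have := hθ.1; positivity)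
  linarith

lemma Psi_continuousOn (hp : FinPassive p Np) (hq : FinPassive q Nq) (h0 : 0 < η) (h1 : η < 1)
    (hr : 0 < r) (hs : 0 < s) : ContinuousOn (Psi η r s p q Np Nq) (Set.Icc 0 1) := by
  obtain ⟨ς, hς0, hς1, hςr, hςs⟩ := exists_sigma hr.le hs.le
  have hρ1 : ς ^ 2 < 1 := by nlinarith
  have hρ0 : 0 ≤ ς ^ 2 := by positivity
  have hC₁ := Cflow_nonneg hp hr.le hςr hρ1
  have hC₂ := Cflow_nonneg hq hs.le hςs hρ1
  have hEP : ContinuousOn (fun θ => entropy (flow r θ Np p)) (Set.Icc 0 1) :=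
    continuousOn_entropy hC₁ hρ0 hρ1
      (fun j θ hθ => (continuousAt_flow hr.le hθ.2 Np p j).continuousWithinAt)
      (fun θ hθ j => flow_nonneg hp hr.le hθ.1 hθ.2 j)
      (fun θ hθ j => flow_le_one hp hr.le hθ.1 hθ.2 j)
      (fun θ hθ j => flow_upper hp hr.le hθ.1 hθ.2 hςr j)
  have hEQ : ContinuousOn (fun θ => entropy (flow s θ Nq q)) (Set.Icc 0 1) :=
    continuousOn_entropy hC₂ hρ0 hρ1
      (fun j θ hθ => (continuousAt_flow hs.le hθ.2 Nq q j).continuousWithinAt)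
      (fun θ hθ j => flow_nonneg hq hs.le hθ.1 hθ.2 j)
      (fun θ hθ j => flow_le_one hq hs.le hθ.1 hθ.2 j)
      (fun θ hθ j => flow_upper hq hs.le hθ.1 hθ.2 hςs j)
  have hSP : ∀ θ ∈ Set.Icc (0 : ℝ) 1, Summable (fun k : ℕ => ((k : ℝ) + 1) * flow r θ Np p k) :=
    fun θ hθ => flow_linear hp hr.le hθ.1 hθ.2 hςr hρ1
  have hSQ : ∀ θ ∈ Set.Icc (0 : ℝ) 1, Summable (fun k : ℕ => ((k : ℝ) + 1) * flow s θ Nq q k) :=
    fun θ hθ => flow_linear hq hs.le hθ.1 hθ.2 hςs hρ1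
  have hn : ∀ θ ∈ Set.Icc (0 : ℝ) 1, HasSum (output η (flow r θ Np p) (flow s θ Nq q)) 1 :=
    fun θ hθ => output_hasSum h0.le h1.le (flow_nonneg hp hr.le hθ.1 hθ.2)
      (flow_nonneg hq hs.le hθ.1 hθ.2) (hSP θ hθ) (hSQ θ hθ)
      (flow_hasSum hp hr.le hθ.2) (flow_hasSum hq hs.le hθ.2)
  have hn0 : ∀ θ ∈ Set.Icc (0 : ℝ) 1, ∀ j, 0 ≤ output η (flow r θ Np p) (flow s θ Nq q) j :=
    fun θ hθ j => tsum_nonneg fun x => mul_nonneg (mul_nonneg
      (flow_nonneg hp hr.le hθ.1 hθ.2 _) (flow_nonneg hq hs.le hθ.1 hθ.2 _)) (trans_nonneg _ _ _)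
  have hEC : ContinuousOn (fun θ => entropy (output η (flow r θ Np p) (flow s θ Nq q)))
      (Set.Icc 0 1) := by
    have hK : 0 ≤ Cflow r (ς ^ 2) Np p * Cflow s (ς ^ 2) Nq q / (1 - ς) ^ 2 := by
      have : 0 < 1 - ς := by linarith
      positivity
    exact continuousOn_entropy hK hς0.le hς1
      (fun j => continuousOn_output hp hq h0.le h1.le hr.le hs.le hςr hςs hρ1 j)
      hn0 (fun θ hθ j => le_hasSum (hn θ hθ) j (fun i _ => hn0 θ hθ i))
      (fun θ hθ j => output_upper h0.le h1.le (flow_nonneg hp hr.le hθ.1 hθ.2)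
        (flow_nonneg hq hs.le hθ.1 hθ.2) hς0 hς1 hC₁ hC₂
        (fun k => flow_upper hp hr.le hθ.1 hθ.2 hςr k)
        (fun k => flow_upper hq hs.le hθ.1 hθ.2 hςs k) (hSP θ hθ) (hSQ θ hθ) j)
  unfold Psi
  exact (((hEC.sub continuousOn_const).div_const _).sub
    (((hEP.sub continuousOn_const).div_const _).const_smul η)).sub
    (((hEQ.sub continuousOn_const).div_const _).const_smul (1 - η))

lemma Psi_zero (hp : FinPassive p Np) (hq : FinPassive q Nq) (h0 : 0 < η) (h1 : η < 1)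
    (hr : 0 < r) (hs : 0 < s) : Psi η r s p q Np Nq 0 = 0 := by
  unfold Psi
  have e1 : flow r 0 Np p = thermal r := funext (flow_zero hp hr.le)
  have e2 : flow s 0 Nq q = thermal s := funext (flow_zero hq hs.le)
  have hm : 0 < η * r + (1 - η) * s := by
    have : 0 < 1 - η := by linarith
    positivity
  rw [e1, e2, output_thermal h0.le h1.le hr.le hs.le, entropy_thermal hm, entropy_thermal hr,
    entropy_thermal hs]
  simp

/-- The main inequality for finitely supported passive sequences. -/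
theorem spade_fin (hp : FinPassive p Np) (hq : FinPassive q Nq) (h0 : 0 < η) (h1 : η < 1)
    (hr : 0 < r) (hs : 0 < s) :
    η * ((entropy p - g r) / Lg r) + (1 - η) * ((entropy q - g s) / Lg s) ≤
      (entropy (output η p q) - g (η * r + (1 - η) * s)) / Lg (η * r + (1 - η) * s) := by
  have hmono : MonotoneOn (Psi η r s p q Np Nq) (Set.Icc 0 1) := by
    refine monotoneOn_of_hasDerivWithinAt_nonneg (convex_Icc 0 1)
      (Psi_continuousOn hp hq h0 h1 hr hs) (f' := Psid η r s p q Np Nq) ?_ ?_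
    · intro θ hθ
      rw [interior_Icc] at hθ
      exact (Psi_hasDerivAt hp hq h0 h1 hr hs hθ).hasDerivWithinAt
    · intro θ hθ
      rw [interior_Icc] at hθ
      exact Psid_nonneg hp hq h0 h1 hr hs hθ
  have hle := hmono (Set.left_mem_Icc.mpr zero_le_one) (Set.right_mem_Icc.mpr zero_le_one)
    zero_le_one
  rw [Psi_zero hp hq h0 h1 hr hs] at hle
  unfold Psi at hle
  have e1 : flow r 1 Np p = p := funext (flow_one hp r)
  have e2 : flow s 1 Nq q = q := funext (flow_one hq s)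
  rw [e1, e2] at hle
  linarith

end Spade

end Vale.Agent.Lib.P369
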