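import Vale.Agent.Lib.P369.Kernel2

open Polynomial Finset

namespace Vale.Agent.Lib.P369

/-- The shifted coupling kernel: `Ms η j (k+1) (l+1)` is `K_j / D` in generating function form. -/
noncomputable def Ms (η : ℝ) (j : ℕ) : ℕ → ℕ → ℝ
  | 0, _ => 0
  | _ + 1, 0 => 0
  | k + 1, l + 1 => trans η j k l + (1 - η) * Ms η j k (l + 1) + η * Ms η j (k + 1) l
termination_by k l => k + l

@[simp] lemma Ms_zero_left (η : ℝ) (j l : ℕ) : Ms η j 0 l = 0 := by
  rw [Ms]

@[simp] lemma Ms_zero_right (η : ℝ) (j k : ℕ) : Ms η j k 0 = 0 := by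
  cases k <;> rw [Ms]

lemma Ms_succ_succ (η : ℝ) (j k l : ℕ) :
    Ms η j (k + 1) (l + 1) =
      trans η j k l + (1 - η) * Ms η j k (l + 1) + η * Ms η j (k + 1) l := by
  rw [Ms]

section
variable {η : ℝ} (h0 : 0 ≤ η) (h1 : η ≤ 1)
include h0 h1

lemma Ms_nonneg (j k l : ℕ) : 0 ≤ Ms η j k l := by
  induction k generalizing l with
  | zero => simp
  | succ k ihk =>
    induction l with
    | zero => simp
    | succ l ihl =>
      rw [Ms_succ_succ]
      have := ihk (l + 1)
      have := trans_nonneg (η := η) j k l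
      have : 0 ≤ 1 - η := by linarith
      positivity

/-- The fundamental relation `K_{j+1} = (η x (1-y) + (1-η) y (1-x)) M_j`. -/
lemma trans_succ_eq (j k l : ℕ) :
    trans η (j + 1) k l =
      η * Ms η j k (l + 1) + (1 - η) * Ms η j (k + 1) l - Ms η j k l := by
  induction k generalizing l with
  | zero =>
    induction l with
    | zero =>
      rw [trans_zero_zero_succ h0 h1]
      simp
    | succ l ihl =>
      rw [trans_zero_l_succ h0 h1, ihl]
      have e := Ms_succ_succ η j 0 l
      simp only [Ms_zero_left, mul_zero, zero_add, sub_zero, add_zero] at e ⊢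
      rw [e]
      ring
  | succ k ihk =>
    induction l with
    | zero =>
      rw [trans_k_zero_succ h0 h1, ihk 0]
      have e := Ms_succ_succ η j k 0
      simp only [Ms_zero_right, mul_zero, add_zero, sub_zero] at e ⊢
      rw [e]
      ring
    | succ l ihl =>
      rw [trans_rec_succ h0 h1, ihk (l + 1), ihl]
      have e1 := Ms_succ_succ η j k (l + 1)
      have e2 := Ms_succ_succ η j (k + 1) l
      have e3 := Ms_succ_succ η j k l
      linear_combination (-η) * e1 - (1 - η) * e2 + e3

/-- The difference relation `K_j - K_{j+1} = (1-x)(1-y) M_j`. -/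
lemma trans_sub_succ_eq (j k l : ℕ) :
    trans η j k l - trans η (j + 1) k l =
      Ms η j (k + 1) (l + 1) - Ms η j k (l + 1) - Ms η j (k + 1) l + Ms η j k l := by
  rw [trans_succ_eq h0 h1, Ms_succ_succ]
  ring

omit h0 h1 in
lemma Ms_eq_zero (j k l : ℕ) (h : k + l ≤ j + 1) : Ms η j k l = 0 := by
  induction k generalizing l with
  | zero => simp
  | succ k ihk =>
    induction l with
    | zero => simp
    | succ l ihl =>
      rw [Ms_succ_succ, trans_eq_zero (η := η) (by omega), ihk _ (by omega), ihl (by omega)]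
      ring

/-- Abel summation for the transition probabilities. -/
lemma abel_trans (J k l : ℕ) :
    ∑ j ∈ range (J + 1), ((j : ℝ) + 1) * (trans η j k l - trans η (j + 1) k l) =
      ∑ j ∈ range (J + 1), trans η j k l - ((J : ℝ) + 1) * trans η (J + 1) k l := by
  induction J with
  | zero => simp
  | succ J ih =>
    rw [sum_range_succ, ih, sum_range_succ _ (J + 1)]
    push_cast
    ring

/-- The total mass of the coupling kernel. -/
lemma sum_Ms (J : ℕ) (a b : ℕ) (h : a + b ≤ J + 2) :
    ∑ j ∈ range (J + 1), ((j : ℝ) + 1) * Ms η j a b = (a : ℝ) * b := by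
  induction a generalizing b with
  | zero => simp
  | succ a iha =>
    induction b with
    | zero => simp
    | succ b ihb =>
      have hs : ∀ j : ℕ, ((j : ℝ) + 1) * Ms η j (a + 1) (b + 1) =
          ((j : ℝ) + 1) * (trans η j a b - trans η (j + 1) a b) +
          ((j : ℝ) + 1) * Ms η j a (b + 1) + ((j : ℝ) + 1) * Ms η j (a + 1) b -
          ((j : ℝ) + 1) * Ms η j a b := by
        intro j
        rw [trans_sub_succ_eq h0 h1]
        ring
      simp only [hs, sum_sub_distrib, sum_add_distrib]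
      rw [abel_trans h0 h1, sum_trans_eq_one h0 h1 (by omega),
        trans_eq_zero (η := η) (by omega), iha (b + 1) (by omega), ihb (by omega),
        iha b (by omega)]
      push_cast
      ring

/-- The coupling kernel. -/
lemma tsum_Ms (a b : ℕ) :
    HasSum (fun j : ℕ => ((j : ℝ) + 1) * Ms η j (a + 1) (b + 1)) (((a : ℝ) + 1) * ((b : ℝ) + 1)) := by
  have h := sum_Ms (η := η) h0 h1 (a + b) (a + 1) (b + 1) (by omega)
  have : ∀ j ∉ range (a + b + 1), ((j : ℝ) + 1) * Ms η j (a + 1) (b + 1) = 0 := by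
    intro j hj
    rw [mem_range] at hj
    rw [Ms_eq_zero (η := η) j (a + 1) (b + 1) (by omega), mul_zero]
  have hs : HasSum (fun j : ℕ => ((j : ℝ) + 1) * Ms η j (a + 1) (b + 1))
      (∑ j ∈ range (a + b + 1), ((j : ℝ) + 1) * Ms η j (a + 1) (b + 1)) :=
    hasSum_sum_of_ne_finset_zero this
  rw [h] at hs
  push_cast at hs
  exact hs

lemma Ms_le (j a b : ℕ) :
    Ms η j (a + 1) (b + 1) ≤ ((a : ℝ) + 1) * ((b : ℝ) + 1) := by
  have hs := tsum_Ms (η := η) h0 h1 a b
  have hnn : ∀ i : ℕ, 0 ≤ ((i : ℝ) + 1) * Ms η i (a + 1) (b + 1) := fun i =>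
    mul_nonneg (by positivity) (Ms_nonneg h0 h1 _ _ _)
  have := le_hasSum hs j (fun i _ => hnn i)
  have h2 : Ms η j (a + 1) (b + 1) ≤ ((j : ℝ) + 1) * Ms η j (a + 1) (b + 1) := by
    have := Ms_nonneg (η := η) h0 h1 j (a + 1) (b + 1)
    have hj : (0 : ℝ) ≤ j := Nat.cast_nonneg j
    nlinarith
  linarith

/-- Polynomial form of the intertwining identity. -/
lemma PT_intertwine (r s : ℝ) (k l : ℕ) :
    (C r + 1) * ((k : ℝ[X]) * (PT η (k - 1) l - PT η k l)) +
      C r * (((k : ℝ[X]) + 1) * (PT η (k + 1) l - PT η k l)) +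
      (C s + 1) * ((l : ℝ[X]) * (PT η k (l - 1) - PT η k l)) +
      C s * (((l : ℝ[X]) + 1) * (PT η k (l + 1) - PT η k l)) =
    (1 - X) * derivative (PT η k l) +
      (C η * C r + (1 - C η) * C s) *
        ((X - 1) * ((X - 1) * derivative (PT η k l) + PT η k l)) := by
  have hLoss := PT_loss (η := η) h0 h1 k l
  obtain ⟨hA, hB⟩ := NR_all (η := η) h0 h1 k l
  unfold NRA at hA
  unfold NRB at hB
  have eA : AA η = C η * X + (1 - C η) := rfl
  have eB : BB η = (1 - C η) * X + C η := rfl
  rw [eA] at hA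
  rw [eB] at hB
  linear_combination (C r) * hA + (C s) * hB +
    ((C η * C r + (1 - C η) * C s) * (X - 1) - 1) * hLoss

omit h0 h1 in
/-- Coefficient of `(1 - X) f'`. -/
lemma coeff_one_sub_X_mul_derivative (f : ℝ[X]) (j : ℕ) :
    ((1 - X) * derivative f).coeff j =
      ((j : ℝ) + 1) * f.coeff (j + 1) - (j : ℝ) * f.coeff j := by
  have e : (1 - X) * derivative f = derivative f - X * derivative f := by ring
  rw [e, coeff_sub, coeff_derivative]
  cases j with
  | zero => simp
  | succ j =>
    rw [coeff_X_mul, coeff_derivative]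
    push_cast
    ring

omit h0 h1 in
/-- Coefficient of `(X - 1) ((X - 1) f' + f)`. -/
lemma coeff_X_sub_one_mul (f : ℝ[X]) (j : ℕ) :
    ((X - 1) * ((X - 1) * derivative f + f)).coeff j =
      ((j : ℝ) + 1) * f.coeff (j + 1) + (j : ℝ) * f.coeff (j - 1) -
        (2 * (j : ℝ) + 1) * f.coeff j := by
  have hq : ∀ i : ℕ, ((X - 1) * derivative f + f).coeff i =
      (i : ℝ) * f.coeff i - ((i : ℝ) + 1) * f.coeff (i + 1) + f.coeff i := by
    intro i
    have e : (X - 1) * derivative f + f = X * derivative f - derivative f + f := by ring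
    rw [e, coeff_add, coeff_sub, coeff_derivative]
    cases i with
    | zero => simp
    | succ i =>
      rw [coeff_X_mul, coeff_derivative]
      push_cast
      ring
  have e : (X - 1) * ((X - 1) * derivative f + f) =
      X * ((X - 1) * derivative f + f) - ((X - 1) * derivative f + f) := by ring
  rw [e, coeff_sub]
  cases j with
  | zero =>
    rw [coeff_X_mul_zero, hq]
    simp
    ring
  | succ j =>
    rw [coeff_X_mul, hq, hq]
    simp only [Nat.add_sub_cancel]
    push_cast
    ring

/-- The intertwining identity for the transition probabilities: the thermal generators on the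
inputs correspond to the thermal generator on the output. -/
lemma trans_intertwine (r s : ℝ) (j k l : ℕ) :
    (r + 1) * ((k : ℝ) * (trans η j (k - 1) l - trans η j k l)) +
      r * (((k : ℝ) + 1) * (trans η j (k + 1) l - trans η j k l)) +
      (s + 1) * ((l : ℝ) * (trans η j k (l - 1) - trans η j k l)) +
      s * (((l : ℝ) + 1) * (trans η j k (l + 1) - trans η j k l)) =
    ((η * r + (1 - η) * s) + 1) * (((j : ℝ) + 1) * trans η (j + 1) k l - (j : ℝ) * trans η j k l) +
      (η * r + (1 - η) * s) *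
        ((j : ℝ) * trans η (j - 1) k l - ((j : ℝ) + 1) * trans η j k l) := by
  have h := congrArg (fun f => coeff f j) (PT_intertwine (η := η) h0 h1 r s k l)
  have hm : (C η * C r + (1 - C η) * C s : ℝ[X]) = C (η * r + (1 - η) * s) := by
    rw [C_add, C_mul, C_mul, C_sub, C_1]
  have e1 : (C r + 1 : ℝ[X]) = C (r + 1) := by rw [C_add, C_1]
  have e2 : (C s + 1 : ℝ[X]) = C (s + 1) := by rw [C_add, C_1]
  have e3 : ((k : ℝ[X]) + 1) = C ((k : ℝ) + 1) := by rw [C_add, C_1, C_eq_natCast]
  have e4 : ((l : ℝ[X]) + 1) = C ((l : ℝ) + 1) := by rw [C_add, C_1, C_eq_natCast]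
  have e5 : (k : ℝ[X]) = C (k : ℝ) := by rw [C_eq_natCast]
  have e6 : (l : ℝ[X]) = C (l : ℝ) := by rw [C_eq_natCast]
  rw [hm, e1, e2, e3, e4, e5, e6] at h
  simp only [coeff_add, coeff_sub, coeff_C_mul] at h
  rw [coeff_X_sub_one_mul, coeff_one_sub_X_mul_derivative] at h
  simp only [coeff_PT h0 h1] at h
  linear_combination h

end

end Vale.Agent.Lib.P369
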