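import Vale.Agent.Lib.P369.Reg
import Vale.Agent.Lib.P369.Kernel3

open Finset

namespace Vale.Agent.Lib.P369

/-- The coupling kernel on pairs. -/
noncomputable def Mt (η : ℝ) (j : ℕ) (x : ℕ × ℕ) : ℝ := Ms η j (x.1 + 1) (x.2 + 1)

lemma hasSum_shift_fst {f : ℕ × ℕ → ℝ} {a : ℝ} (h0 : ∀ l, f (0, l) = 0) (h : HasSum f a) :
    HasSum (fun x : ℕ × ℕ => f (x.1 + 1, x.2)) a := by
  have hinj : Function.Injective (fun x : ℕ × ℕ => (x.1 + 1, x.2)) := by
    rintro ⟨a, b⟩ ⟨c, d⟩ h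
    simp only [Prod.mk.injEq, Nat.add_right_cancel_iff] at h
    simp [h.1, h.2]
  have := (hinj.hasSum_iff (f := f) (a := a) ?_).mpr h
  · exact this
  · rintro ⟨k, l⟩ hx
    cases k with
    | zero => exact h0 l
    | succ k => exact absurd ⟨(k, l), rfl⟩ hx

lemma hasSum_shift_snd {f : ℕ × ℕ → ℝ} {a : ℝ} (h0 : ∀ k, f (k, 0) = 0) (h : HasSum f a) :
    HasSum (fun x : ℕ × ℕ => f (x.1, x.2 + 1)) a := by
  have hinj : Function.Injective (fun x : ℕ × ℕ => (x.1, x.2 + 1)) := by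
    rintro ⟨a, b⟩ ⟨c, d⟩ h
    simp only [Prod.mk.injEq, Nat.add_right_cancel_iff] at h
    simp [h.1, h.2]
  have := (hinj.hasSum_iff (f := f) (a := a) ?_).mpr h
  · exact this
  · rintro ⟨k, l⟩ hx
    cases l with
    | zero => exact h0 k
    | succ l => exact absurd ⟨(k, l), rfl⟩ hx

lemma summable_of_prod_bound {f : ℕ × ℕ → ℝ} {u v : ℕ → ℝ} (hu : Summable u) (hv : Summable v)
    (hu0 : ∀ k, 0 ≤ u k) (hv0 : ∀ k, 0 ≤ v k) (h : ∀ x, |f x| ≤ u x.1 * v x.2) : Summable f :=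
  Summable.of_norm_bounded (hu.mul_of_nonneg hv hu0 hv0) (fun x => by
    rw [Real.norm_eq_abs]; exact h x)

section Ident
variable {η : ℝ} (h0 : 0 ≤ η) (h1 : η ≤ 1) {p q : ℕ → ℝ}
  (hp0 : ∀ k, 0 ≤ p k) (hq0 : ∀ k, 0 ≤ q k)
  (hps : Summable (fun k : ℕ => ((k : ℝ) + 1) * p k))
  (hqs : Summable (fun k : ℕ => ((k : ℝ) + 1) * q k))

include h0 h1 in
lemma Ms_le_mul (j k l : ℕ) : Ms η j k l ≤ (k : ℝ) * l := by
  cases k with
  | zero => simp
  | succ k =>
    cases l with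
    | zero => simp
    | succ l =>
      push_cast
      exact Ms_le h0 h1 j k l

include h0 h1 hp0 hq0 hps hqs in
lemma summable_T (j : ℕ) (a b : ℕ → ℕ) (ha : ∀ k, a k ≤ k + 1) (hb : ∀ l, b l ≤ l + 1) :
    Summable (fun x : ℕ × ℕ => p x.1 * q x.2 * Ms η j (a x.1) (b x.2)) := by
  refine summable_of_prod_bound hps hqs (fun k => mul_nonneg (by positivity) (hp0 k))
    (fun k => mul_nonneg (by positivity) (hq0 k)) ?_
  intro x
  have hM := Ms_nonneg h0 h1 j (a x.1) (b x.2)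
  have hM2 := Ms_le_mul h0 h1 j (a x.1) (b x.2)
  have hn1 : ((a x.1 : ℕ) : ℝ) ≤ (x.1 : ℝ) + 1 := by exact_mod_cast ha x.1
  have hn2 : ((b x.2 : ℕ) : ℝ) ≤ (x.2 : ℝ) + 1 := by exact_mod_cast hb x.2
  have hM3 : Ms η j (a x.1) (b x.2) ≤ ((x.1 : ℝ) + 1) * ((x.2 : ℝ) + 1) :=
    hM2.trans (mul_le_mul hn1 hn2 (by positivity) (by positivity))
  have hpos : 0 ≤ p x.1 * q x.2 := mul_nonneg (hp0 _) (hq0 _)
  rw [abs_of_nonneg (mul_nonneg hpos hM)]
  calc p x.1 * q x.2 * Ms η j (a x.1) (b x.2)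
      ≤ p x.1 * q x.2 * (((x.1 : ℝ) + 1) * ((x.2 : ℝ) + 1)) :=
        mul_le_mul_of_nonneg_left hM3 hpos
    _ = _ := by ring

include h0 h1 hp0 hq0 hps hqs in
lemma summable_trans (j : ℕ) :
    Summable (fun x : ℕ × ℕ => p x.1 * q x.2 * trans η j x.1 x.2) := by
  refine summable_of_prod_bound hps hqs (fun k => mul_nonneg (by positivity) (hp0 k))
    (fun k => mul_nonneg (by positivity) (hq0 k)) ?_
  intro x
  have hT := trans_nonneg (η := η) j x.1 x.2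
  have hT2 := trans_le_one h0 h1 j x.1 x.2
  have hpos : 0 ≤ p x.1 * q x.2 := mul_nonneg (hp0 _) (hq0 _)
  rw [abs_of_nonneg (mul_nonneg hpos hT)]
  have hk : (1 : ℝ) ≤ (x.1 : ℝ) + 1 := by
    have : (0 : ℝ) ≤ x.1 := Nat.cast_nonneg _
    linarith
  have hl : (1 : ℝ) ≤ (x.2 : ℝ) + 1 := by
    have : (0 : ℝ) ≤ x.2 := Nat.cast_nonneg _
    linarith
  calc p x.1 * q x.2 * trans η j x.1 x.2 ≤ p x.1 * q x.2 * (((x.1 : ℝ) + 1) * ((x.2 : ℝ) + 1)) := by
        apply mul_le_mul_of_nonneg_left _ hpos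
        nlinarith
    _ = _ := by ring

include h0 h1 hp0 hq0 hps hqs in
lemma H_shifts (j : ℕ) : ∃ T00 T10 T01 T11 : ℝ,
    HasSum (fun x : ℕ × ℕ => p x.1 * q x.2 * Ms η j (x.1 + 1) (x.2 + 1)) T00 ∧
    HasSum (fun x : ℕ × ℕ => p x.1 * q x.2 * Ms η j x.1 (x.2 + 1)) T10 ∧
    HasSum (fun x : ℕ × ℕ => p x.1 * q x.2 * Ms η j (x.1 + 1) x.2) T01 ∧
    HasSum (fun x : ℕ × ℕ => p x.1 * q x.2 * Ms η j x.1 x.2) T11 ∧
    HasSum (fun x : ℕ × ℕ => p x.1 * q x.2 * Mt η j x) T00 ∧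
    HasSum (fun x : ℕ × ℕ => p (x.1 + 1) * q x.2 * Mt η j x) T10 ∧
    HasSum (fun x : ℕ × ℕ => p x.1 * q (x.2 + 1) * Mt η j x) T01 ∧
    HasSum (fun x : ℕ × ℕ => p (x.1 + 1) * q (x.2 + 1) * Mt η j x) T11 := by
  have S00 := (summable_T h0 h1 hp0 hq0 hps hqs j (· + 1) (· + 1) (by simp) (by simp)).hasSum
  have S10 := (summable_T h0 h1 hp0 hq0 hps hqs j id (· + 1) (by simp) (by simp)).hasSum
  have S01 := (summable_T h0 h1 hp0 hq0 hps hqs j (· + 1) id (by simp) (by simp)).hasSum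
  have S11 := (summable_T h0 h1 hp0 hq0 hps hqs j id id (by simp) (by simp)).hasSum
  simp only [id] at S00 S10 S01 S11
  refine ⟨_, _, _, _, S00, S10, S01, S11, S00, ?_, ?_, ?_⟩
  · exact hasSum_shift_fst (f := fun x : ℕ × ℕ => p x.1 * q x.2 * Ms η j x.1 (x.2 + 1))
      (by simp) S10
  · exact hasSum_shift_snd (f := fun x : ℕ × ℕ => p x.1 * q x.2 * Ms η j (x.1 + 1) x.2)
      (by simp) S01
  · exact hasSum_shift_snd (f := fun x : ℕ × ℕ => p (x.1 + 1) * q x.2 * Ms η j (x.1 + 1) x.2)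
      (by simp) (hasSum_shift_fst (f := fun x : ℕ × ℕ => p x.1 * q x.2 * Ms η j x.1 x.2)
        (by simp) S11)

include h0 h1 hp0 hq0 hps hqs in
/-- The first identity of the coupling. -/
lemma hasSum_E1 (j : ℕ) :
    HasSum (fun x : ℕ × ℕ => (p x.1 - p (x.1 + 1)) * (q x.2 - q (x.2 + 1)) * Mt η j x)
      (output η p q j - output η p q (j + 1)) := by
  obtain ⟨T00, T10, T01, T11, S00, S10, S01, S11, H00, H10, H01, H11⟩ :=
    H_shifts h0 h1 hp0 hq0 hps hqs j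
  have hj := (summable_trans h0 h1 hp0 hq0 hps hqs j).hasSum
  have hj1 := (summable_trans h0 h1 hp0 hq0 hps hqs (j + 1)).hasSum
  have h2 := ((S00.sub S10).sub S01).add S11
  have h3 := hj.sub hj1
  have e : (fun x : ℕ × ℕ => p x.1 * q x.2 * Ms η j (x.1 + 1) (x.2 + 1) -
      p x.1 * q x.2 * Ms η j x.1 (x.2 + 1) - p x.1 * q x.2 * Ms η j (x.1 + 1) x.2 +
      p x.1 * q x.2 * Ms η j x.1 x.2) =
      fun x : ℕ × ℕ => p x.1 * q x.2 * trans η j x.1 x.2 -
        p x.1 * q x.2 * trans η (j + 1) x.1 x.2 := by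
    funext x
    have := trans_sub_succ_eq h0 h1 j x.1 x.2
    linear_combination (-(p x.1 * q x.2)) * this
  rw [e] at h2
  have huniq := h2.unique h3
  have h4 := ((H00.sub H10).sub H01).add H11
  rw [huniq] at h4
  have e2 : (fun x : ℕ × ℕ => (p x.1 - p (x.1 + 1)) * (q x.2 - q (x.2 + 1)) * Mt η j x) =
      fun x : ℕ × ℕ => p x.1 * q x.2 * Mt η j x - p (x.1 + 1) * q x.2 * Mt η j x -
        p x.1 * q (x.2 + 1) * Mt η j x + p (x.1 + 1) * q (x.2 + 1) * Mt η j x := by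
    funext x
    ring
  rw [e2]
  exact h4

include h0 h1 hp0 hq0 hps hqs in
/-- The second identity of the coupling. -/
lemma hasSum_E2 (j : ℕ) :
    HasSum (fun x : ℕ × ℕ => (η * p (x.1 + 1) * (q x.2 - q (x.2 + 1)) +
        (1 - η) * (p x.1 - p (x.1 + 1)) * q (x.2 + 1)) * Mt η j x)
      (output η p q (j + 1)) := by
  obtain ⟨T00, T10, T01, T11, S00, S10, S01, S11, H00, H10, H01, H11⟩ :=
    H_shifts h0 h1 hp0 hq0 hps hqs j
  have hj1 := (summable_trans h0 h1 hp0 hq0 hps hqs (j + 1)).hasSum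
  have h2 := ((S10.mul_left η).add (S01.mul_left (1 - η))).sub S11
  have e : (fun x : ℕ × ℕ => η * (p x.1 * q x.2 * Ms η j x.1 (x.2 + 1)) +
      (1 - η) * (p x.1 * q x.2 * Ms η j (x.1 + 1) x.2) - p x.1 * q x.2 * Ms η j x.1 x.2) =
      fun x : ℕ × ℕ => p x.1 * q x.2 * trans η (j + 1) x.1 x.2 := by
    funext x
    have := trans_succ_eq h0 h1 j x.1 x.2
    linear_combination (-(p x.1 * q x.2)) * this
  rw [e] at h2
  have huniq := h2.unique hj1
  have h4 := ((H10.mul_left η).add (H01.mul_left (1 - η))).sub H11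
  rw [huniq] at h4
  have e2 : (fun x : ℕ × ℕ => (η * p (x.1 + 1) * (q x.2 - q (x.2 + 1)) +
        (1 - η) * (p x.1 - p (x.1 + 1)) * q (x.2 + 1)) * Mt η j x) =
      fun x : ℕ × ℕ => η * (p (x.1 + 1) * q x.2 * Mt η j x) +
        (1 - η) * (p x.1 * q (x.2 + 1) * Mt η j x) - p (x.1 + 1) * q (x.2 + 1) * Mt η j x := by
    funext x
    ring
  rw [e2]
  exact h4


include h0 h1 in
/-- The sum over `j` of the transition probabilities. -/
lemma hasSum_trans (k l : ℕ) : HasSum (fun j => trans η j k l) 1 := by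
  have h := sum_trans_eq_one h0 h1 (J := k + l) (k := k) (l := l) le_rfl
  have hs : HasSum (fun j => trans η j k l) (∑ j ∈ range (k + l + 1), trans η j k l) :=
    hasSum_sum_of_ne_finset_zero (fun j hj => trans_eq_zero (by simpa using hj))
  rw [h] at hs
  exact hs

end Ident

section Reg2

variable {η : ℝ} {p q : ℕ → ℝ}

lemma Reg.summable_linear {x : ℕ → ℝ} {c C z ρ : ℝ} (h : Reg x c C z ρ) :
    Summable (fun k : ℕ => ((k : ℝ) + 1) * x k) := by
  have hC := h.C_pos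
  refine Summable.of_nonneg_of_le (fun j => mul_nonneg (by positivity) (h.pos j).le)
    (fun j => ?_) ((summable_linear_geom h.ρ_pos.le h.ρ_lt).mul_left C)
  have := h.up j
  have hj : (0 : ℝ) ≤ (j : ℝ) + 1 := by positivity
  calc ((j : ℝ) + 1) * x j ≤ ((j : ℝ) + 1) * (C * ρ ^ j) := mul_le_mul_of_nonneg_left this hj
    _ = _ := by ring

/-- The output of a beam splitter on summable inputs sums to the product of the total masses. -/
lemma output_hasSum (h0 : 0 ≤ η) (h1 : η ≤ 1) (hp0 : ∀ k, 0 ≤ p k) (hq0 : ∀ k, 0 ≤ q k)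
    (hps : Summable (fun k : ℕ => ((k : ℝ) + 1) * p k))
    (hqs : Summable (fun k : ℕ => ((k : ℝ) + 1) * q k))
    (hp1 : HasSum p 1) (hq1 : HasSum q 1) : HasSum (output η p q) 1 := by
  -- the triple sum, fibers over the pair first
  set F : (ℕ × ℕ) × ℕ → ℝ := fun y => p y.1.1 * q y.1.2 * trans η y.2 y.1.1 y.1.2 with hF
  have hfib : ∀ x : ℕ × ℕ, HasSum (fun j => F (x, j)) (p x.1 * q x.2) := by
    intro x
    have := (hasSum_trans h0 h1 x.1 x.2).mul_left (p x.1 * q x.2)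
    simpa [hF] using this
  have hpq : HasSum (fun x : ℕ × ℕ => p x.1 * q x.2) 1 := by
    have hs : Summable (fun x : ℕ × ℕ => p x.1 * q x.2) :=
      hp1.summable.mul_of_nonneg hq1.summable hp0 hq0
    have := hs.hasSum
    have e := hp1.summable.tsum_mul_tsum hq1.summable hs
    rw [hp1.tsum_eq, hq1.tsum_eq, one_mul] at e
    rw [← e] at this
    exact this
  have hFn : 0 ≤ F := fun y =>
    mul_nonneg (mul_nonneg (hp0 _) (hq0 _)) (trans_nonneg _ _ _)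
  have hFs : Summable F := by
    rw [summable_prod_of_nonneg hFn]
    refine ⟨fun x => (hfib x).summable, ?_⟩
    have : (fun x => ∑' j, F (x, j)) = fun x : ℕ × ℕ => p x.1 * q x.2 := by
      funext x
      exact (hfib x).tsum_eq
    rw [this]
    exact hpq.summable
  have htot : HasSum F 1 := by
    have := hFs.hasSum.prod_fiberwise hfib
    have e := this.unique hpq
    rw [← e]
    exact hFs.hasSum
  -- swap the order
  let G : ℕ × (ℕ × ℕ) → ℝ := fun y => F (y.2, y.1)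
  have hG : HasSum G 1 := by
    have := (Equiv.prodComm ℕ (ℕ × ℕ)).hasSum_iff (f := F) (a := 1)
    exact this.mpr htot
  have hfib2 : ∀ j, HasSum (fun x => G (j, x)) (output η p q j) := by
    intro j
    exact (summable_trans h0 h1 hp0 hq0 hps hqs j).hasSum
  exact hG.prod_fiberwise hfib2

lemma output_lower (h0 : 0 ≤ η) (h1 : η ≤ 1) (hp0 : ∀ k, 0 ≤ p k) (hq0 : ∀ k, 0 ≤ q k)
    (hps : Summable (fun k : ℕ => ((k : ℝ) + 1) * p k))
    (hqs : Summable (fun k : ℕ => ((k : ℝ) + 1) * q k)) (j : ℕ) :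
    p j * q 0 * η ^ j ≤ output η p q j := by
  have hs := (summable_trans h0 h1 hp0 hq0 hps hqs j).hasSum
  have := le_hasSum hs (j, 0) (fun x _ =>
    mul_nonneg (mul_nonneg (hp0 _) (hq0 _)) (trans_nonneg _ _ _))
  simp only [trans_diag_left h0 h1] at this
  exact this

lemma output_upper (h0 : 0 ≤ η) (h1 : η ≤ 1) (hp0 : ∀ k, 0 ≤ p k) (hq0 : ∀ k, 0 ≤ q k)
    {C₁ C₂ ς : ℝ} (hς0 : 0 < ς) (hς1 : ς < 1) (hC₁ : 0 ≤ C₁) (hC₂ : 0 ≤ C₂)
    (hp : ∀ k, p k ≤ C₁ * (ς ^ 2) ^ k) (hq : ∀ k, q k ≤ C₂ * (ς ^ 2) ^ k)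
    (hps : Summable (fun k : ℕ => ((k : ℝ) + 1) * p k))
    (hqs : Summable (fun k : ℕ => ((k : ℝ) + 1) * q k)) (j : ℕ) :
    output η p q j ≤ (C₁ * C₂ / (1 - ς) ^ 2) * ς ^ j := by
  have hs := (summable_trans h0 h1 hp0 hq0 hps hqs j).hasSum
  have hgeom : HasSum (fun k : ℕ => ς ^ k) (1 - ς)⁻¹ := hasSum_geometric_of_lt_one hς0.le hς1
  have hprod : HasSum (fun x : ℕ × ℕ => ς ^ x.1 * ς ^ x.2) ((1 - ς)⁻¹ * (1 - ς)⁻¹) := by
    have hsum : Summable (fun x : ℕ × ℕ => ς ^ x.1 * ς ^ x.2) :=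
      hgeom.summable.mul_of_nonneg hgeom.summable (fun k => by positivity) (fun k => by positivity)
    have := hsum.hasSum
    have e := hgeom.summable.tsum_mul_tsum hgeom.summable hsum
    rw [hgeom.tsum_eq] at e
    rw [← e] at this
    exact this
  have hbd := hprod.mul_left (C₁ * C₂ * ς ^ j)
  have hle := hasSum_le (fun x : ℕ × ℕ => ?_) hs hbd
  · have e : C₁ * C₂ * ς ^ j * ((1 - ς)⁻¹ * (1 - ς)⁻¹) = C₁ * C₂ / (1 - ς) ^ 2 * ς ^ j := by
      have : 1 - ς ≠ 0 := by linarith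
      field_simp
    rw [e] at hle
    exact hle
  · have hT := trans_nonneg (η := η) j x.1 x.2
    have hT2 := trans_le_one h0 h1 j x.1 x.2
    by_cases hjx : x.1 + x.2 < j
    · rw [trans_eq_zero hjx, mul_zero]
      positivity
    · have hle : ς ^ (x.1 + x.2) ≤ ς ^ j :=
        pow_le_pow_of_le_one hς0.le hς1.le (by omega)
      have hpk := hp x.1
      have hql := hq x.2
      have e1 : (ς ^ 2) ^ x.1 = ς ^ x.1 * ς ^ x.1 := by rw [← pow_mul, ← pow_add]; congr 1; ring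
      have e2 : (ς ^ 2) ^ x.2 = ς ^ x.2 * ς ^ x.2 := by rw [← pow_mul, ← pow_add]; congr 1; ring
      rw [e1] at hpk
      rw [e2] at hql
      have hpow1 : 0 < ς ^ x.1 := by positivity
      have hpow2 : 0 < ς ^ x.2 := by positivity
      calc p x.1 * q x.2 * trans η j x.1 x.2 ≤ p x.1 * q x.2 * 1 :=
            mul_le_mul_of_nonneg_left hT2 (mul_nonneg (hp0 _) (hq0 _))
        _ = p x.1 * q x.2 := by ring
        _ ≤ (C₁ * (ς ^ x.1 * ς ^ x.1)) * (C₂ * (ς ^ x.2 * ς ^ x.2)) :=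
            mul_le_mul hpk hql (hq0 _) (by positivity)
        _ = C₁ * C₂ * ς ^ (x.1 + x.2) * (ς ^ x.1 * ς ^ x.2) := by rw [pow_add]; ring
        _ ≤ C₁ * C₂ * ς ^ j * (ς ^ x.1 * ς ^ x.2) := by
            apply mul_le_mul_of_nonneg_right _ (by positivity)
            exact mul_le_mul_of_nonneg_left hle (by positivity)

/-- The output of a beam splitter with regular inputs is regular. -/
lemma Reg_output {c₁ C₁ z₁ c₂ C₂ z₂ ς : ℝ} (h0 : 0 < η) (h1 : η ≤ 1)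
    (hς0 : 0 < ς) (hς1 : ς < 1)
    (hp : Reg p c₁ C₁ z₁ (ς ^ 2)) (hq : Reg q c₂ C₂ z₂ (ς ^ 2)) :
    Reg (output η p q) (c₁ * c₂) (C₁ * C₂ / (1 - ς) ^ 2) (z₁ * η) ς := by
  have hp0 : ∀ k, 0 ≤ p k := fun k => (hp.pos k).le
  have hq0 : ∀ k, 0 ≤ q k := fun k => (hq.pos k).le
  have hps := hp.summable_linear
  have hqs := hq.summable_linear
  refine ⟨mul_pos hp.c_pos hq.c_pos, mul_pos hp.z_pos h0, hς0, hς1, ?_, ?_, ?_, ?_⟩
  · intro j
    have h2 := output_lower h0.le h1 hp0 hq0 hps hqs j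
    have h3 := hp.low j
    have h4 := hq.low 0
    simp only [pow_zero, mul_one] at h4
    have hzj : 0 < z₁ ^ j := pow_pos hp.z_pos j
    have hηj : 0 < η ^ j := pow_pos h0 j
    have h5 : c₁ * z₁ ^ j * c₂ ≤ p j * q 0 :=
      mul_le_mul h3 h4 hq.c_pos.le (hp0 j)
    calc c₁ * c₂ * (z₁ * η) ^ j = (c₁ * z₁ ^ j * c₂) * η ^ j := by rw [mul_pow]; ring
      _ ≤ p j * q 0 * η ^ j := mul_le_mul_of_nonneg_right h5 hηj.le
      _ ≤ _ := h2
  · intro j
    exact output_upper h0.le h1 hp0 hq0 hς0 hς1 hp.C_pos.le hq.C_pos.le hp.up hq.up hps hqs j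
  · intro j
    have hE := hasSum_E1 h0.le h1 hp0 hq0 hps hqs j
    have hterm : ∀ x : ℕ × ℕ, 0 ≤ (p x.1 - p (x.1 + 1)) * (q x.2 - q (x.2 + 1)) * Mt η j x := by
      intro x
      exact mul_nonneg (mul_nonneg (hp.pi_pos _).le (hq.pi_pos _).le) (Ms_nonneg h0.le h1 _ _ _)
    have hle := le_hasSum hE (j, 0) (fun x _ => hterm x)
    have hM : η ^ j ≤ Mt η j (j, 0) := by
      unfold Mt
      simp only [zero_add]
      rw [Ms_succ_succ, trans_diag_left h0.le h1]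
      have h2 := Ms_nonneg (η := η) h0.le h1 j j 1
      have h3 := Ms_nonneg (η := η) h0.le h1 j (j + 1) 0
      have h4 : 0 ≤ 1 - η := by linarith
      have h5 : 0 ≤ (1 - η) * Ms η j j (0 + 1) := mul_nonneg h4 h2
      have h6 : 0 ≤ η * Ms η j (j + 1) 0 := mul_nonneg h0.le h3
      simp only [zero_add] at h5
      linarith
    have hpos : 0 < (p (j, 0).1 - p ((j, 0).1 + 1)) * (q (j, 0).2 - q ((j, 0).2 + 1)) *
        Mt η j (j, 0) :=
      mul_pos (mul_pos (hp.pi_pos _) (hq.pi_pos _)) (lt_of_lt_of_le (pow_pos h0 j) hM)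
    linarith
  · exact output_hasSum h0.le h1 hp0 hq0 hps hqs hp.sum hq.sum

end Reg2


section Main
variable {η : ℝ} {p q : ℕ → ℝ}

/-- The absolute summability of the weighted `Γ` terms. -/
lemma Reg.summable_W_abs {x : ℕ → ℝ} {c C z ρ τ : ℝ} (h : Reg x c C z ρ) (hτ : 0 < τ) :
    Summable (fun k => Wf x k * |Gam (tf x k) τ|) := by
  have hs := (h.summable_term hτ.le).abs
  have hL := Lg_pos hτ
  have := hs.mul_right (1 / Lg τ)
  refine this.congr ?_
  intro k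
  have hW : 0 ≤ Wf x k := mul_nonneg (by positivity) (h.pi_pos k).le
  have e : |Wf x k * Gam (tf x k) τ| = Wf x k * |Gam (tf x k) τ| := by
    rw [abs_mul, abs_of_nonneg hW]
  rw [← e, h.W_Gam, abs_div, abs_of_pos hL]
  ring

lemma Reg.summable_W {x : ℕ → ℝ} {c C z ρ τ : ℝ} (h : Reg x c C z ρ) (hτ : 0 < τ) :
    Summable (fun k => Wf x k * Gam (tf x k) τ) := by
  refine Summable.of_norm_bounded (h.summable_W_abs hτ) (fun k => ?_)
  have hW : 0 ≤ Wf x k := mul_nonneg (by positivity) (h.pi_pos k).le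
  rw [Real.norm_eq_abs, abs_mul, abs_of_nonneg hW]

lemma Reg.tsum_W {x : ℕ → ℝ} {c C z ρ τ : ℝ} (h : Reg x c C z ρ) (hτ : 0 < τ) :
    ∑' k, Wf x k * Gam (tf x k) τ = Df τ x / Lg τ := by
  unfold Df
  rw [← tsum_div_const]
  exact tsum_congr (fun k => h.W_Gam τ k)

/-- Summing a double series along the second coordinate first. -/
lemma hasSum_swap_fiber {α β : Type*} {F : α × β → ℝ} {S : ℝ} (hF : HasSum F S) :
    HasSum (fun b => ∑' a, F (a, b)) S ∧ ∀ b, Summable (fun a => F (a, b)) := by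
  have h1 : HasSum (fun y : β × α => F (y.2, y.1)) S :=
    ((Equiv.prodComm β α).hasSum_iff (f := F) (a := S)).mpr hF
  have h2 : ∀ b, Summable (fun a => F (a, b)) := fun b => h1.summable.prod_factor b
  exact ⟨h1.prod_fiberwise (fun b => (h2 b).hasSum), h2⟩

section Fub
variable {f : ℕ → ℕ × ℕ → ℝ} {A B G₁ G₂ : ℕ → ℝ} {a b : ℝ}

/-- The dominating function. -/
lemma fubini_dom (ha : 0 ≤ a) (hb : 0 ≤ b)
    (hfn : ∀ j x, 0 ≤ f j x) (hfj : ∀ x, HasSum (fun j => f j x) (A x.1 * B x.2))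
    (hA : HasSum A 1) (hB : HasSum B 1) (hA0 : ∀ k, 0 ≤ A k) (hB0 : ∀ k, 0 ≤ B k)
    (hS₁ : Summable (fun k => A k * |G₁ k|)) (hS₂ : Summable (fun k => B k * |G₂ k|)) :
    Summable (fun y : (ℕ × ℕ) × ℕ => f y.2 y.1 * (a * G₁ y.1.1 + b * G₂ y.1.2)) := by
  have hFbn : (0 : (ℕ × ℕ) × ℕ → ℝ) ≤ fun y => f y.2 y.1 * (a * |G₁ y.1.1| + b * |G₂ y.1.2|) :=
    fun y => mul_nonneg (hfn _ _) (by positivity)
  have hFbfib : ∀ x : ℕ × ℕ, HasSum (fun j => f j x * (a * |G₁ x.1| + b * |G₂ x.2|))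
      (A x.1 * B x.2 * (a * |G₁ x.1| + b * |G₂ x.2|)) := fun x => (hfj x).mul_right _
  have hsum1 : Summable (fun x : ℕ × ℕ => (A x.1 * |G₁ x.1|) * B x.2) :=
    hS₁.mul_of_nonneg hB.summable (fun k => mul_nonneg (hA0 k) (abs_nonneg _)) hB0
  have hsum2 : Summable (fun x : ℕ × ℕ => A x.1 * (B x.2 * |G₂ x.2|)) :=
    hA.summable.mul_of_nonneg hS₂ hA0 (fun k => mul_nonneg (hB0 k) (abs_nonneg _))
  have hFbs : Summable (fun y : (ℕ × ℕ) × ℕ => f y.2 y.1 * (a * |G₁ y.1.1| + b * |G₂ y.1.2|)) := by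
    rw [summable_prod_of_nonneg hFbn]
    refine ⟨fun x => (hFbfib x).summable, ?_⟩
    have e : (fun x : ℕ × ℕ => ∑' j, f j x * (a * |G₁ x.1| + b * |G₂ x.2|)) = fun x : ℕ × ℕ =>
        a * ((A x.1 * |G₁ x.1|) * B x.2) + b * (A x.1 * (B x.2 * |G₂ x.2|)) := by
      funext x
      rw [(hFbfib x).tsum_eq]
      ring
    simp only [e]
    exact (hsum1.mul_left a).add (hsum2.mul_left b)
  refine Summable.of_norm_bounded hFbs (fun y => ?_)
  rw [Real.norm_eq_abs, abs_mul, abs_of_nonneg (hfn _ _)]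
  apply mul_le_mul_of_nonneg_left _ (hfn _ _)
  calc |a * G₁ y.1.1 + b * G₂ y.1.2| ≤ |a * G₁ y.1.1| + |b * G₂ y.1.2| :=
        abs_add_le _ _
    _ = _ := by rw [abs_mul, abs_mul, abs_of_nonneg ha, abs_of_nonneg hb]

lemma fubini_closed
    (hA : HasSum A 1) (hB : HasSum B 1) (hA0 : ∀ k, 0 ≤ A k) (hB0 : ∀ k, 0 ≤ B k)
    (hS₁ : Summable (fun k => A k * |G₁ k|)) (hS₂ : Summable (fun k => B k * |G₂ k|)) :
    HasSum (fun x : ℕ × ℕ => A x.1 * B x.2 * (a * G₁ x.1 + b * G₂ x.2))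
      (a * (∑' k, A k * G₁ k) + b * (∑' k, B k * G₂ k)) := by
  have hs1 : Summable (fun k => A k * G₁ k) := by
    refine Summable.of_norm_bounded hS₁ (fun k => ?_)
    rw [Real.norm_eq_abs, abs_mul, abs_of_nonneg (hA0 k)]
  have hs2 : Summable (fun k => B k * G₂ k) := by
    refine Summable.of_norm_bounded hS₂ (fun k => ?_)
    rw [Real.norm_eq_abs, abs_mul, abs_of_nonneg (hB0 k)]
  have hm1 : HasSum (fun x : ℕ × ℕ => (A x.1 * G₁ x.1) * B x.2)
      ((∑' k, A k * G₁ k) * 1) := by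
    have h3 : Summable (fun x : ℕ × ℕ => (A x.1 * G₁ x.1) * B x.2) :=
      summable_mul_of_summable_norm hs1.norm hB.summable.norm
    have h4 := tsum_mul_tsum_of_summable_norm hs1.norm hB.summable.norm
    rw [hB.tsum_eq] at h4
    rw [h4]
    exact h3.hasSum
  have hm2 : HasSum (fun x : ℕ × ℕ => A x.1 * (B x.2 * G₂ x.2))
      (1 * (∑' k, B k * G₂ k)) := by
    have h3 : Summable (fun x : ℕ × ℕ => A x.1 * (B x.2 * G₂ x.2)) :=
      summable_mul_of_summable_norm hA.summable.norm hs2.norm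
    have h4 := tsum_mul_tsum_of_summable_norm hA.summable.norm hs2.norm
    rw [hA.tsum_eq] at h4
    rw [h4]
    exact h3.hasSum
  have htot2 := (hm1.mul_left a).add (hm2.mul_left b)
  have e3 : (fun x : ℕ × ℕ => A x.1 * B x.2 * (a * G₁ x.1 + b * G₂ x.2)) =
      fun x : ℕ × ℕ => a * ((A x.1 * G₁ x.1) * B x.2) + b * (A x.1 * (B x.2 * G₂ x.2)) := by
    funext x
    ring
  rw [e3]
  simp only [mul_one, one_mul] at htot2
  exact htot2

/-- The total sum in closed form. -/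
lemma fubini_total (ha : 0 ≤ a) (hb : 0 ≤ b)
    (hfn : ∀ j x, 0 ≤ f j x) (hfj : ∀ x, HasSum (fun j => f j x) (A x.1 * B x.2))
    (hA : HasSum A 1) (hB : HasSum B 1) (hA0 : ∀ k, 0 ≤ A k) (hB0 : ∀ k, 0 ≤ B k)
    (hS₁ : Summable (fun k => A k * |G₁ k|)) (hS₂ : Summable (fun k => B k * |G₂ k|)) :
    HasSum (fun y : (ℕ × ℕ) × ℕ => f y.2 y.1 * (a * G₁ y.1.1 + b * G₂ y.1.2))
      (a * (∑' k, A k * G₁ k) + b * (∑' k, B k * G₂ k)) := by
  have hFs := fubini_dom ha hb hfn hfj hA hB hA0 hB0 hS₁ hS₂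
  have hFfib : ∀ x : ℕ × ℕ, HasSum (fun j => f j x * (a * G₁ x.1 + b * G₂ x.2))
      (A x.1 * B x.2 * (a * G₁ x.1 + b * G₂ x.2)) := fun x => (hfj x).mul_right _
  have htot1 := hFs.hasSum.prod_fiberwise hFfib
  have huniq := htot1.unique (fubini_closed hA hB hA0 hB0 hS₁ hS₂)
  have h2 := hFs.hasSum
  rw [huniq] at h2
  exact h2

/-- An abstract Fubini computation for the coupling. -/
lemma fubini_sum (ha : 0 ≤ a) (hb : 0 ≤ b)
    (hfn : ∀ j x, 0 ≤ f j x) (hfj : ∀ x, HasSum (fun j => f j x) (A x.1 * B x.2))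
    (hA : HasSum A 1) (hB : HasSum B 1) (hA0 : ∀ k, 0 ≤ A k) (hB0 : ∀ k, 0 ≤ B k)
    (hS₁ : Summable (fun k => A k * |G₁ k|)) (hS₂ : Summable (fun k => B k * |G₂ k|)) :
    HasSum (fun j => ∑' x, f j x * (a * G₁ x.1 + b * G₂ x.2))
      (a * (∑' k, A k * G₁ k) + b * (∑' k, B k * G₂ k)) ∧
    ∀ j, Summable (fun x => f j x * (a * G₁ x.1 + b * G₂ x.2)) :=
  hasSum_swap_fiber (fubini_total ha hb hfn hfj hA hB hA0 hB0 hS₁ hS₂)

end Fub

/-- The weights of the coupling. -/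
noncomputable def fc (η : ℝ) (p q : ℕ → ℝ) (j : ℕ) (x : ℕ × ℕ) : ℝ :=
  ((j : ℝ) + 1) * ((p x.1 - p (x.1 + 1)) * (q x.2 - q (x.2 + 1)) * Mt η j x)

/-- The coupling inequality: the entropy production of the output dominates the convex
combination of the entropy productions of the inputs. -/
theorem coupling_ineq {c₁ C₁ z₁ ρ₁ c₂ C₂ z₂ ρ₂ c₃ C₃ z₃ ρ₃ r s : ℝ} (h0 : 0 ≤ η) (h1 : η ≤ 1)
    (hp : Reg p c₁ C₁ z₁ ρ₁) (hq : Reg q c₂ C₂ z₂ ρ₂)
    (hc : Reg (output η p q) c₃ C₃ z₃ ρ₃) (hr : 0 < r) (hs : 0 < s) :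
    η * (∑' k, Wf p k * Gam (tf p k) r) + (1 - η) * (∑' l, Wf q l * Gam (tf q l) s) ≤
      ∑' j, Wf (output η p q) j * Gam (tf (output η p q) j) (η * r + (1 - η) * s) := by
  have h1' : 0 ≤ 1 - η := by linarith
  have hmpos : 0 < η * r + (1 - η) * s := by
    rcases eq_or_lt_of_le h0 with h | h
    · rw [← h]; simpa using hs
    · have : 0 < η * r := mul_pos h hr
      have : 0 ≤ (1 - η) * s := mul_nonneg h1' hs.le
      linarith
  have hp0 : ∀ k, 0 ≤ p k := fun k => (hp.pos k).le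
  have hq0 : ∀ k, 0 ≤ q k := fun k => (hq.pos k).le
  have hps := hp.summable_linear
  have hqs := hq.summable_linear
  have hfn : ∀ j x, 0 ≤ fc η p q j x := fun j x =>
    mul_nonneg (by positivity) (mul_nonneg (mul_nonneg (hp.pi_pos _).le (hq.pi_pos _).le)
      (Ms_nonneg h0 h1 _ _ _))
  -- the sum over `j`
  have hfj : ∀ x, HasSum (fun j => fc η p q j x) (Wf p x.1 * Wf q x.2) := by
    intro x
    have := (tsum_Ms (η := η) h0 h1 x.1 x.2).mul_left
      ((p x.1 - p (x.1 + 1)) * (q x.2 - q (x.2 + 1)))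
    have e1 : (p x.1 - p (x.1 + 1)) * (q x.2 - q (x.2 + 1)) * (((x.1 : ℝ) + 1) * ((x.2 : ℝ) + 1)) =
        Wf p x.1 * Wf q x.2 := by
      unfold Wf; ring
    rw [e1] at this
    have e2 : (fun j => fc η p q j x) = fun i : ℕ => (p x.1 - p (x.1 + 1)) * (q x.2 - q (x.2 + 1)) *
        (((i : ℝ) + 1) * Ms η i (x.1 + 1) (x.2 + 1)) := by
      funext i
      simp only [fc, Mt]
      ring
    rw [e2]
    exact this
  -- the sum over pairs
  have hfx : ∀ j, HasSum (fun x => fc η p q j x) (Wf (output η p q) j) := by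
    intro j
    exact (hasSum_E1 h0 h1 hp0 hq0 hps hqs j).mul_left ((j : ℝ) + 1)
  have hfx2 : ∀ j, HasSum (fun x => fc η p q j x * (η * tf p x.1 + (1 - η) * tf q x.2))
      (((j : ℝ) + 1) * output η p q (j + 1)) := by
    intro j
    have := (hasSum_E2 h0 h1 hp0 hq0 hps hqs j).mul_left ((j : ℝ) + 1)
    have e : (fun x : ℕ × ℕ => fc η p q j x * (η * tf p x.1 + (1 - η) * tf q x.2)) =
        fun i : ℕ × ℕ => ((j : ℝ) + 1) * ((η * p (i.1 + 1) * (q i.2 - q (i.2 + 1)) +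
          (1 - η) * (p i.1 - p (i.1 + 1)) * q (i.2 + 1)) * Mt η j i) := by
      funext x
      have h3 := (hp.pi_pos x.1).ne'
      have h4 := (hq.pi_pos x.2).ne'
      simp only [fc, tf]
      field_simp
    rw [e]
    exact this
  obtain ⟨hT, hTs⟩ := fubini_sum (f := fc η p q) (G₁ := fun k => Gam (tf p k) r)
    (G₂ := fun l => Gam (tf q l) s) h0 h1' hfn hfj hp.hasSum_Wf hq.hasSum_Wf
    (fun k => mul_nonneg (by positivity) (hp.pi_pos k).le)
    (fun k => mul_nonneg (by positivity) (hq.pi_pos k).le)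
    (hp.summable_W_abs hr) (hq.summable_W_abs hs)
  have hW := (hc.summable_W hmpos).hasSum
  refine hasSum_le (fun j => ?_) hT hW
  -- the bound for fixed `j`
  set y := tf (output η p q) j with hy
  have hypos : 0 < y := hc.tf_pos j
  set m := η * r + (1 - η) * s with hm
  have hy2 : y * Wf (output η p q) j = ((j : ℝ) + 1) * output η p q (j + 1) := by
    have := (hc.pi_pos j).ne'
    rw [hy]
    unfold tf Wf
    field_simp
  have hB : HasSum (fun x : ℕ × ℕ => fc η p q j x *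
      (Gam y m + GamX y m * (η * tf p x.1 + (1 - η) * tf q x.2 - y)))
      (Wf (output η p q) j * Gam y m) := by
    have h5 := ((hfx j).mul_right (Gam y m - GamX y m * y)).add ((hfx2 j).mul_right (GamX y m))
    have e4 : Wf (output η p q) j * (Gam y m - GamX y m * y) +
        ((j : ℝ) + 1) * output η p q (j + 1) * GamX y m = Wf (output η p q) j * Gam y m := by
      rw [← hy2]; ring
    rw [e4] at h5
    have e6 : (fun x : ℕ × ℕ => fc η p q j x *
        (Gam y m + GamX y m * (η * tf p x.1 + (1 - η) * tf q x.2 - y))) =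
        fun x : ℕ × ℕ => fc η p q j x * (Gam y m - GamX y m * y) +
          fc η p q j x * (η * tf p x.1 + (1 - η) * tf q x.2) * GamX y m := by
      funext x
      ring
    rw [e6]
    exact h5
  refine hasSum_le (fun x => ?_) (hTs j).hasSum hB
  apply mul_le_mul_of_nonneg_left _ (hfn _ _)
  exact Gam_three_point h0 h1 (hp.tf_pos _) (hq.tf_pos _) hr hs hypos hmpos

end Main

end Vale.Agent.Lib.P369
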