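import Mathlib

open Polynomial

namespace Vale.Agent.Lib.P369

/-- The entropy of the thermal state of mean photon number `t`:
`g t = (t + 1) log (t + 1) - t log t`. -/
noncomputable def g (t : ℝ) : ℝ := (t + 1) * Real.log (t + 1) - t * Real.log t

/-- The entropy photon number function: the inverse of `g` on `[0, ∞)`. -/
noncomputable def gInv (y : ℝ) : ℝ := Function.invFunOn g (Set.Ici 0) y

/-- The polynomial `(√η X - √(1-η))^k (√(1-η) X + √η)^l`. Setting `X` to `c†` and the
constant to `d†` (homogenise to degree `k + l`) it is `(k! l!)^(1/2) U_η |k, l⟩` for the beam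
splitter `U_η` with `U_η a† U_η† = √η a† - √(1-η) b†` and `U_η b† U_η† = √(1-η) a† + √η b†`. -/
noncomputable def ampPoly (η : ℝ) (k l : ℕ) : ℝ[X] :=
  (C (√η) * X - C (√(1 - η))) ^ k * (C (√(1 - η)) * X + C (√η)) ^ l

/-- The transition probability `|⟨j, k+l-j| U_η |k, l⟩|²` of the beam splitter in the Fock basis:
`(j! (k+l-j)! / (k! l!))` times the square of the coefficient of `X^j` in `ampPoly η k l`. -/
noncomputable def trans (η : ℝ) (j k l : ℕ) : ℝ :=
  ((j.factorial * (k + l - j).factorial : ℝ) / (k.factorial * l.factorial)) *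
    ((ampPoly η k l).coeff j) ^ 2

/-- The Fock diagonal of the output state `ρ_C` for Fock-diagonal inputs with photon number
distributions `p`, `q`: `c j = ∑_{k,l} p k * q l * trans η j k l`. -/
noncomputable def output (η : ℝ) (p q : ℕ → ℝ) (j : ℕ) : ℝ :=
  ∑' x : ℕ × ℕ, p x.1 * q x.2 * trans η j x.1 x.2

/-- The entropy of a Fock-diagonal state with photon number distribution `p`. -/
noncomputable def entropy (p : ℕ → ℝ) : ℝ := ∑' k, Real.negMulLog (p k)

/-- The entropy photon number (one mode) of a Fock-diagonal state. -/
noncomputable def photonNumber (p : ℕ → ℝ) : ℝ := gInv (entropy p)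

/-- A passive one-mode state with finite mean photon number: Fock-diagonal with a
nonincreasing photon number distribution. -/
structure IsPassive (p : ℕ → ℝ) : Prop where
  nonneg : ∀ k, 0 ≤ p k
  antitone : Antitone p
  summable : Summable p
  sum_eq_one : ∑' k, p k = 1
  finite_mean : Summable fun k : ℕ => (k : ℝ) * p k

end Vale.Agent.Lib.P369
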