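import Vale.Agent.Lib.P369.Defs

namespace Vale.Agent.Lib.P369

/-- The `n`-mode beam splitter transition probabilities in the Fock basis, the product over the
modes of the one-mode transition probabilities `trans`. -/
noncomputable def nTrans (η : ℝ) {n : ℕ} (j k l : Fin n → ℕ) : ℝ :=
  ∏ i, trans η (j i) (k i) (l i)

/-- The Fock diagonal of the output state for `n`-mode Fock-diagonal inputs with photon number
distributions `p`, `q` on `ℕ^n`. -/
noncomputable def nOutput (η : ℝ) {n : ℕ} (p q : (Fin n → ℕ) → ℝ) (j : Fin n → ℕ) : ℝ :=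
  ∑' x : (Fin n → ℕ) × (Fin n → ℕ), p x.1 * q x.2 * nTrans η j x.1 x.2

/-- The entropy of an `n`-mode Fock-diagonal state with photon number distribution `p`. -/
noncomputable def nEntropy {n : ℕ} (p : (Fin n → ℕ) → ℝ) : ℝ :=
  ∑' k, Real.negMulLog (p k)

/-- The entropy photon number of an `n`-mode Fock-diagonal state. -/
noncomputable def nPhotonNumber {n : ℕ} (p : (Fin n → ℕ) → ℝ) : ℝ :=
  gInv (nEntropy p / n)

/-- An `n`-mode Fock-diagonal state with finite mean photon number whose photon number
distribution on `ℕ^n` is nonincreasing in each coordinate. -/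
structure NPassive {n : ℕ} (p : (Fin n → ℕ) → ℝ) : Prop where
  nonneg : ∀ k, 0 ≤ p k
  antitone : Antitone p
  summable : Summable p
  sum_eq_one : ∑' k, p k = 1
  finite_mean : Summable fun k : Fin n → ℕ => (∑ i, (k i : ℝ)) * p k

end Vale.Agent.Lib.P369
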