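import Vale.Agent.Lib.P369.OutputFlow

open Finset

namespace Vale.Agent.Lib.P369

lemma Lop_zero (t : ℝ) (x : ℕ → ℝ) : Lop t x 0 = Jc t x 0 := by
  unfold Lop Jc
  simp
  ring

lemma Lop_succ (t : ℝ) (x : ℕ → ℝ) (j : ℕ) : Lop t x (j + 1) = Jc t x (j + 1) - Jc t x j := by
  unfold Lop Jc
  simp only [Nat.add_sub_cancel]
  push_cast
  ring

section
variable {x : ℕ → ℝ} {c C z ρ t : ℝ}

/-- The constant in the logarithm bound. -/
noncomputable def Elog (c C z ρ : ℝ) : ℝ :=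
  (|Real.log c| + |Real.log C|) + (|Real.log z| + |Real.log ρ|)

lemma Elog_nonneg : 0 ≤ Elog c C z ρ := by
  unfold Elog
  positivity

lemma Reg.w_bound (h : Reg x c C z ρ) (j : ℕ) :
    |Real.log (x j) + 1| ≤ (Elog c C z ρ + 1) * ((j : ℝ) + 1) := by
  have h1 := h.log_bound' j
  have hj : (0 : ℝ) ≤ j := Nat.cast_nonneg j
  calc |Real.log (x j) + 1| ≤ |Real.log (x j)| + |1| := abs_add_le _ _
    _ ≤ Elog c C z ρ * ((j : ℝ) + 1) + 1 := by
        rw [abs_one]
        unfold Elog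
        linarith
    _ ≤ _ := by nlinarith

lemma Reg.summable_wJ (h : Reg x c C z ρ) (ht : 0 ≤ t) :
    Summable (fun j => (Real.log (x j) + 1) * Jc t x j) := by
  refine Summable.of_norm_bounded (g := fun j => ((Elog c C z ρ + 1) * ((2 * t + 1) * C)) *
    (((j : ℝ) + 1) ^ 2 * ρ ^ j)) ((summable_sq_geom h.ρ_pos.le h.ρ_lt).mul_left _) (fun j => ?_)
  rw [Real.norm_eq_abs, abs_mul]
  have h1 := h.w_bound j
  have h2 := h.Jc_bound ht j
  have hC := h.C_pos
  have hρ := h.ρ_pos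
  have hE : 0 ≤ Elog c C z ρ := Elog_nonneg
  calc _ ≤ ((Elog c C z ρ + 1) * ((j : ℝ) + 1)) * (((2 * t + 1) * C) * (((j : ℝ) + 1) * ρ ^ j)) :=
        mul_le_mul h1 h2 (abs_nonneg _) (by positivity)
    _ = _ := by ring

lemma Reg.summable_wJ' (h : Reg x c C z ρ) (ht : 0 ≤ t) :
    Summable (fun j => (Real.log (x (j + 1)) + 1) * Jc t x j) := by
  refine Summable.of_norm_bounded (g := fun j => (2 * (Elog c C z ρ + 1) * ((2 * t + 1) * C)) *
    (((j : ℝ) + 1) ^ 2 * ρ ^ j)) ((summable_sq_geom h.ρ_pos.le h.ρ_lt).mul_left _) (fun j => ?_)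
  rw [Real.norm_eq_abs, abs_mul]
  have h1 := h.w_bound (j + 1)
  have h2 := h.Jc_bound ht j
  have hC := h.C_pos
  have hρ := h.ρ_pos
  have hE : 0 ≤ Elog c C z ρ := Elog_nonneg
  have hj : (0 : ℝ) ≤ j := Nat.cast_nonneg j
  have h3 : |Real.log (x (j + 1)) + 1| ≤ 2 * (Elog c C z ρ + 1) * ((j : ℝ) + 1) := by
    push_cast at h1
    nlinarith
  calc _ ≤ (2 * (Elog c C z ρ + 1) * ((j : ℝ) + 1)) * (((2 * t + 1) * C) * (((j : ℝ) + 1) * ρ ^ j)) :=
        mul_le_mul h3 h2 (abs_nonneg _) (by positivity)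
    _ = _ := by ring

/-- Summation by parts for the entropy derivative. -/
lemma Reg.hasSum_log_Lop (h : Reg x c C z ρ) (ht : 0 ≤ t) :
    HasSum (fun j => (Real.log (x j) + 1) * Lop t x j) (Df t x) := by
  have hA := (h.summable_wJ (t := t) ht).hasSum
  have hB := (h.summable_wJ' (t := t) ht).hasSum
  set A := ∑' j, (Real.log (x j) + 1) * Jc t x j with hAdef
  set B := ∑' j, (Real.log (x (j + 1)) + 1) * Jc t x j with hBdef
  have hD : Df t x = A - B := by
    have h2 := hA.sub hB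
    have := h2.tsum_eq
    unfold Df
    rw [← this]
    apply tsum_congr
    intro j
    unfold Dt
    ring
  rw [hD]
  rw [← hasSum_nat_add_iff' 1]
  simp only [sum_range_one, Lop_zero]
  have hA2 := (hasSum_nat_add_iff' (f := fun j => (Real.log (x j) + 1) * Jc t x j) 1).mpr hA
  simp only [sum_range_one] at hA2
  have h3 := hA2.sub hB
  have e : A - (Real.log (x 0) + 1) * Jc t x 0 - B =
      A - B - (Real.log (x 0) + 1) * Jc t x 0 := by ring
  rw [e] at h3
  refine hasSum_of_eq h3 (fun j => ?_)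
  rw [Lop_succ]
  ring

end

/-- The derivative of the entropy along the thermal flow. -/
theorem hasDerivAt_entropy {x : ℝ → ℕ → ℝ} {θ₁ θ₂ t c C z ρ : ℝ} (hθ₁ : 0 < θ₁) (ht : 0 ≤ t)
    (hd : ∀ θ ∈ Set.Ioo θ₁ θ₂, ∀ j, HasDerivAt (fun θ => x θ j) (-Lop t (x θ) j / θ) θ)
    (hreg : ∀ θ ∈ Set.Ioo θ₁ θ₂, Reg (x θ) c C z ρ) {θ : ℝ} (hθ : θ ∈ Set.Ioo θ₁ θ₂) :
    HasDerivAt (fun θ => entropy (x θ)) (Df t (x θ) / θ) θ := by
  have hreg0 := hreg θ hθ
  have hρ0 := hreg0.ρ_pos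
  have hρ1 := hreg0.ρ_lt
  have hC := hreg0.C_pos
  set E := Elog c C z ρ with hE
  have hE0 : 0 ≤ E := Elog_nonneg
  set L := C * (3 * t + 2 + t / ρ) with hL
  have hL0 : 0 ≤ L := by positivity
  have hterm : ∀ (j : ℕ) (y : ℝ), y ∈ Set.Ioo θ₁ θ₂ →
      HasDerivAt (fun θ => Real.negMulLog (x θ j))
        ((-Real.log (x y j) - 1) * (-Lop t (x y) j / y)) y := by
    intro j y hy
    have hpos := (hreg y hy).pos j
    exact HasDerivAt.comp (h₂ := Real.negMulLog) y (Real.hasDerivAt_negMulLog hpos.ne') (hd y hy j)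
  have hbound : ∀ (j : ℕ) (y : ℝ), y ∈ Set.Ioo θ₁ θ₂ →
      ‖(-Real.log (x y j) - 1) * (-Lop t (x y) j / y)‖ ≤
        ((E + 1) * (L / θ₁)) * (((j : ℝ) + 1) ^ 2 * ρ ^ j) := by
    intro j y hy
    have hy0 : 0 < y := lt_trans hθ₁ hy.1
    have hR := hreg y hy
    have h1 := hR.w_bound j
    have h2 := Lop_bound ht hρ0 hρ1.le hC.le hR.abs_bound j
    have h3 : |(-Lop t (x y) j / y)| ≤ L / θ₁ * (((j : ℝ) + 1) * ρ ^ j) := by
      rw [abs_div, abs_neg, abs_of_pos hy0]
      calc |Lop t (x y) j| / y ≤ (L * (((j : ℝ) + 1) * ρ ^ j)) / y :=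
            div_le_div_of_nonneg_right h2 hy0.le
        _ ≤ (L * (((j : ℝ) + 1) * ρ ^ j)) / θ₁ :=
            div_le_div_of_nonneg_left (by positivity) hθ₁ hy.1.le
        _ = _ := by ring
    have e : |-Real.log (x y j) - 1| = |Real.log (x y j) + 1| := by
      rw [← abs_neg]
      congr 1
      ring
    rw [Real.norm_eq_abs, abs_mul, e]
    calc _ ≤ ((E + 1) * ((j : ℝ) + 1)) * (L / θ₁ * (((j : ℝ) + 1) * ρ ^ j)) :=
          mul_le_mul h1 h3 (abs_nonneg _) (by positivity)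
      _ = _ := by ring
  have hsum0 : Summable (fun j => Real.negMulLog (x θ j)) := by
    refine Summable.of_norm_bounded (g := fun j => (C * E) * (((j : ℝ) + 1) ^ 2 * ρ ^ j))
      ((summable_sq_geom hρ0.le hρ1).mul_left _) (fun j => ?_)
    have h1 := hreg0.log_bound' j
    have h2 := hreg0.abs_bound j
    unfold Real.negMulLog
    rw [Real.norm_eq_abs, abs_mul, abs_neg]
    calc _ ≤ (C * ρ ^ j) * (E * ((j : ℝ) + 1)) :=
          mul_le_mul h2 h1 (abs_nonneg _) (by positivity)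
      _ = (C * E) * (ρ ^ j * ((j : ℝ) + 1)) := by ring
      _ ≤ _ := by
          apply mul_le_mul_of_nonneg_left _ (by positivity)
          have hj : (1 : ℝ) ≤ (j : ℝ) + 1 := by
            have : (0 : ℝ) ≤ j := Nat.cast_nonneg j
            linarith
          calc ρ ^ j * ((j : ℝ) + 1) = ρ ^ j * ((j : ℝ) + 1) * 1 := by ring
            _ ≤ ρ ^ j * ((j : ℝ) + 1) * ((j : ℝ) + 1) :=
                mul_le_mul_of_nonneg_left hj (by positivity)
            _ = _ := by ring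
  have hfinal := hasDerivAt_tsum_of_isPreconnected
    ((summable_sq_geom hρ0.le hρ1).mul_left ((E + 1) * (L / θ₁))) isOpen_Ioo isPreconnected_Ioo
    hterm hbound hθ hsum0 hθ
  have hval := (hreg0.hasSum_log_Lop (t := t) ht).mul_left (1 / θ)
  have e : (∑' j, (-Real.log (x θ j) - 1) * (-Lop t (x θ) j / θ)) = Df t (x θ) / θ := by
    have : Df t (x θ) / θ = 1 / θ * Df t (x θ) := by ring
    rw [this, ← hval.tsum_eq]
    apply tsum_congr
    intro j
    ring
  rw [e] at hfinal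
  exact hfinal

/-- `negMulLog y ≤ 2 √y`. -/
lemma negMulLog_le_sqrt {y : ℝ} (h0 : 0 ≤ y) : Real.negMulLog y ≤ 2 * √y := by
  rcases eq_or_lt_of_le h0 with h | h
  · rw [← h]
    simp
  · set u := √y with hu
    have hu0 : 0 < u := Real.sqrt_pos.mpr h
    have hu2 : u ^ 2 = y := Real.sq_sqrt h0
    unfold Real.negMulLog
    rw [← hu2, Real.log_pow]
    have h2 : Real.log u⁻¹ ≤ u⁻¹ - 1 := Real.log_le_sub_one_of_pos (by positivity)
    rw [Real.log_inv] at h2
    have h3 : -(u ^ 2) * (((2 : ℕ) : ℝ) * Real.log u) = 2 * u ^ 2 * (-Real.log u) := by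
      push_cast
      ring
    rw [h3]
    calc 2 * u ^ 2 * (-Real.log u) ≤ 2 * u ^ 2 * (u⁻¹ - 1) :=
          mul_le_mul_of_nonneg_left h2 (by positivity)
      _ = 2 * u - 2 * u ^ 2 := by
          field_simp
      _ ≤ 2 * u := by nlinarith [sq_nonneg u]

lemma abs_negMulLog_le {y : ℝ} (h0 : 0 ≤ y) (h1 : y ≤ 1) : |Real.negMulLog y| ≤ 2 * √y := by
  rw [abs_of_nonneg (Real.negMulLog_nonneg h0 h1)]
  exact negMulLog_le_sqrt h0

/-- Continuity of the entropy under a uniform geometric bound. -/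
theorem continuousOn_entropy {x : ℝ → ℕ → ℝ} {s : Set ℝ} {C ρ : ℝ} (hC : 0 ≤ C) (hρ0 : 0 ≤ ρ)
    (hρ1 : ρ < 1)
    (hc : ∀ j, ContinuousOn (fun θ => x θ j) s) (h0 : ∀ θ ∈ s, ∀ j, 0 ≤ x θ j)
    (h1 : ∀ θ ∈ s, ∀ j, x θ j ≤ 1) (hu : ∀ θ ∈ s, ∀ j, x θ j ≤ C * ρ ^ j) :
    ContinuousOn (fun θ => entropy (x θ)) s := by
  unfold entropy
  have hgeo : Summable (fun j : ℕ => (2 * √C) * (√ρ) ^ j) :=
    (summable_geometric_of_lt_one (Real.sqrt_nonneg ρ)
      ((Real.sqrt_lt' one_pos).mpr (by simpa using hρ1))).mul_left _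
  refine continuousOn_tsum (fun j => ?_) hgeo (fun j θ hθ => ?_)
  · exact Real.continuous_negMulLog.comp_continuousOn (hc j)
  · rw [Real.norm_eq_abs]
    refine (abs_negMulLog_le (h0 θ hθ j) (h1 θ hθ j)).trans ?_
    have h2 : √(x θ j) ≤ √(C * ρ ^ j) := Real.sqrt_le_sqrt (hu θ hθ j)
    have e : √(ρ ^ j) = (√ρ) ^ j := by
      have h3 : ρ ^ j = ((√ρ) ^ j) ^ 2 := by
        rw [← pow_mul, mul_comm, pow_mul, Real.sq_sqrt hρ0]
      rw [h3, Real.sqrt_sq (by positivity)]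
    rw [Real.sqrt_mul hC, e] at h2
    linarith

/-- The entropy of a thermal sequence. -/
theorem entropy_thermal {t : ℝ} (ht : 0 < t) : entropy (thermal t) = g t := by
  have h1t : 0 < 1 + t := by positivity
  set r := t / (1 + t) with hr
  have hr0 : 0 ≤ r := by positivity
  have hr1 : r < 1 := thermal_ratio ht.le
  have hs0 : HasSum (thermal t) 1 := hasSum_thermal ht.le
  have hs1 : HasSum (fun j : ℕ => (j : ℝ) * thermal t j) t := by
    have h := (hasSum_coe_mul_geometric_of_norm_lt_one (𝕜 := ℝ) (r := r)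
      (by rw [Real.norm_eq_abs, abs_of_nonneg hr0]; exact hr1)).mul_left (1 / (1 + t))
    have e : 1 / (1 + t) * (r / (1 - r) ^ 2) = t := by
      have h2 : 1 - r = 1 / (1 + t) := by
        rw [hr]
        field_simp
        ring
      rw [h2, hr]
      field_simp
    rw [e] at h
    refine hasSum_of_eq h (fun j => ?_)
    unfold thermal
    ring
  have hterm : ∀ j : ℕ, Real.negMulLog (thermal t j) =
      Real.log (1 + t) * thermal t j - (Real.log t - Real.log (1 + t)) * ((j : ℝ) * thermal t j) := by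
    intro j
    have hlog : Real.log (thermal t j) = -Real.log (1 + t) +
        (j : ℝ) * (Real.log t - Real.log (1 + t)) := by
      unfold thermal
      rw [Real.log_mul (by positivity) (by positivity), Real.log_pow, Real.log_div ht.ne' h1t.ne',
        one_div, Real.log_inv]
    unfold Real.negMulLog
    rw [hlog]
    ring
  have h3 := (hs0.mul_left (Real.log (1 + t))).sub (hs1.mul_left (Real.log t - Real.log (1 + t)))
  have h4 : HasSum (fun j => Real.negMulLog (thermal t j))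
      (Real.log (1 + t) * 1 - (Real.log t - Real.log (1 + t)) * t) :=
    hasSum_of_eq h3 hterm
  unfold entropy g
  rw [h4.tsum_eq, add_comm t 1]
  ring

end Vale.Agent.Lib.P369
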