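import Vale.Agent.Lib.P369.Truncation

open Finset Filter Topology

namespace Vale.Agent.Lib.P369

lemma g_zero : g 0 = 0 := by simp [g]

lemma continuous_g : Continuous g := by
  have h := Real.continuous_mul_log
  exact (h.comp (continuous_id.add continuous_const)).sub h

lemma hasDerivAt_g {t : ℝ} (ht : 0 < t) : HasDerivAt g (Lg t) t := by
  have h1 : HasDerivAt (fun y : ℝ => y + 1) 1 t := (hasDerivAt_id t).add_const 1
  have h2 : HasDerivAt (fun y : ℝ => Real.log (y + 1)) (1 / (t + 1)) t := by
    have := h1.log (by positivity)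
    simpa using this
  have h3 := h1.fun_mul h2
  have h4 := (hasDerivAt_id t).fun_mul (Real.hasDerivAt_log ht.ne')
  have h5 := h3.fun_sub h4
  unfold g Lg
  refine h5.congr_deriv ?_
  simp only [id]
  field_simp
  ring

lemma g_strictMonoOn : StrictMonoOn g (Set.Ici 0) := by
  refine strictMonoOn_of_deriv_pos (convex_Ici 0) continuous_g.continuousOn ?_
  intro x hx
  rw [interior_Ici] at hx
  rw [(hasDerivAt_g hx).deriv]
  exact Lg_pos hx

lemma g_ge_log {t : ℝ} (ht : 0 ≤ t) : Real.log (t + 1) ≤ g t := by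
  rcases eq_or_lt_of_le ht with h | h
  · rw [← h]
    simp [g]
  · have h2 := Lg_pos h
    unfold Lg at h2
    unfold g
    nlinarith [mul_pos h h2]

lemma g_surj {y : ℝ} (hy : 0 ≤ y) : ∃ t ∈ Set.Ici (0 : ℝ), g t = y := by
  have hT : 0 ≤ Real.exp y - 1 := by
    have := Real.add_one_le_exp y
    linarith
  have h1 : y ≤ g (Real.exp y - 1) := by
    have := g_ge_log hT
    simpa using this
  have h2 : y ∈ g '' Set.Icc 0 (Real.exp y - 1) := by
    apply intermediate_value_Icc hT continuous_g.continuousOn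
    rw [g_zero]
    exact ⟨hy, h1⟩
  obtain ⟨t, ht, hty⟩ := h2
  exact ⟨t, ht.1, hty⟩

lemma gInv_nonneg {y : ℝ} (hy : 0 ≤ y) : 0 ≤ gInv y :=
  Function.invFunOn_mem (g_surj hy)

lemma g_gInv {y : ℝ} (hy : 0 ≤ y) : g (gInv y) = y :=
  Function.invFunOn_eq (g_surj hy)

lemma Lg_anti {x y : ℝ} (hx : 0 < x) (hxy : x ≤ y) : Lg y ≤ Lg x := by
  have hy : 0 < y := lt_of_lt_of_le hx hxy
  rw [Lg_eq_log_div hx, Lg_eq_log_div hy]
  apply Real.log_le_log (by positivity)
  rw [div_le_div_iff₀ hy hx]
  nlinarith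

section
variable {p q : ℕ → ℝ} {η : ℝ}

lemma IsPassive.hasSum (hp : IsPassive p) : HasSum p 1 := by
  have := hp.summable.hasSum
  rwa [hp.sum_eq_one] at this

lemma IsPassive.le_one (hp : IsPassive p) (k : ℕ) : p k ≤ 1 :=
  le_hasSum hp.hasSum k (fun i _ => hp.nonneg i)

lemma entropy_nonneg {x : ℕ → ℝ} (h0 : ∀ k, 0 ≤ x k) (h1 : ∀ k, x k ≤ 1) : 0 ≤ entropy x :=
  tsum_nonneg fun k => Real.negMulLog_nonneg (h0 k) (h1 k)

lemma output_nonneg (hp : IsPassive p) (hq : IsPassive q) (h0 : 0 ≤ η) (h1 : η ≤ 1) (j : ℕ) :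
    0 ≤ output η p q j :=
  tsum_nonneg fun x => mul_nonneg (mul_nonneg (hp.nonneg _) (hq.nonneg _)) (trans_nonneg _ _ _)

lemma output_le_one (hp : IsPassive p) (hq : IsPassive q) (h0 : 0 ≤ η) (h1 : η ≤ 1) (j : ℕ) :
    output η p q j ≤ 1 :=
  le_hasSum (output_hasSum h0 h1 hp.nonneg hq.nonneg hp.summable_linear hq.summable_linear
    hp.hasSum hq.hasSum) j (fun i _ => output_nonneg hp hq h0 h1 i)

/-- The output of a beam splitter on passive inputs is passive. -/
theorem output_isPassive (hp : IsPassive p) (hq : IsPassive q) (h0 : 0 ≤ η) (h1 : η ≤ 1) :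
    IsPassive (output η p q) := by
  have hs := output_hasSum h0 h1 hp.nonneg hq.nonneg hp.summable_linear hq.summable_linear
    hp.hasSum hq.hasSum
  refine ⟨output_nonneg hp hq h0 h1, ?_, hs.summable, hs.tsum_eq,
    output_mean h0 h1 hp.nonneg hq.nonneg hp.summable_linear hq.summable_linear⟩
  apply antitone_nat_of_succ_le
  intro j
  have hE := hasSum_E1 h0 h1 hp.nonneg hq.nonneg hp.summable_linear hq.summable_linear j
  have : 0 ≤ output η p q j - output η p q (j + 1) := by
    refine hE.nonneg (fun x => mul_nonneg (mul_nonneg ?_ ?_) (Ms_nonneg h0 h1 _ _ _))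
    · have := hp.antitone (Nat.le_succ x.1)
      linarith
    · have := hq.antitone (Nat.le_succ x.2)
      linarith
  linarith

/-- The entropy series of a passive sequence converges. -/
lemma IsPassive.summable_entropy (hp : IsPassive p) : Summable (fun k => Real.negMulLog (p k)) := by
  refine Summable.of_nonneg_of_le (fun k => Real.negMulLog_nonneg (hp.nonneg k) (hp.le_one k))
    (fun k => negMulLog_le_tangent (hp.nonneg k) k) (hp.finite_mean.add summable_exp_neg)

end

/-- An auxiliary limit. -/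
lemma tendsto_quot {N : ℝ} (hN : 0 ≤ N) :
    Tendsto (fun ε : ℝ => (g N - g (N + ε)) / Lg (N + ε)) (𝓝[>] 0) (𝓝 0) := by
  have hL : 0 < Lg (N + 1) := Lg_pos (by linarith)
  have hcont : Tendsto (fun ε : ℝ => |g N - g (N + ε)| / Lg (N + 1)) (𝓝[>] 0) (𝓝 0) := by
    have h1 : Continuous (fun ε : ℝ => |g N - g (N + ε)| / Lg (N + 1)) := by
      have := continuous_g
      fun_prop
    have h2 := h1.tendsto 0
    simp only [add_zero, sub_self, abs_zero, zero_div] at h2
    exact h2.mono_left nhdsWithin_le_nhds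
  refine squeeze_zero_norm' ?_ hcont
  have hmem : Set.Ioc (0 : ℝ) 1 ∈ 𝓝[>] (0 : ℝ) := Ioc_mem_nhdsGT one_pos
  filter_upwards [hmem] with ε hε
  have h3 : 0 < N + ε := by linarith [hε.1]
  have h4 : Lg (N + 1) ≤ Lg (N + ε) := Lg_anti h3 (by linarith [hε.2])
  rw [Real.norm_eq_abs, abs_div, abs_of_pos (Lg_pos h3)]
  exact div_le_div_of_nonneg_left (abs_nonneg _) hL h4

/-- The entropy photon number inequality for passive inputs, in terms of the entropy. -/
theorem g_le_entropy {η : ℝ} {p q : ℕ → ℝ} (h0 : 0 < η) (h1 : η < 1) (hp : IsPassive p)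
    (hq : IsPassive q) :
    g (η * photonNumber p + (1 - η) * photonNumber q) ≤ entropy (output η p q) := by
  have hc0 := entropy_nonneg (output_nonneg hp hq h0.le h1.le) (output_le_one hp hq h0.le h1.le)
  have hHp := entropy_nonneg hp.nonneg hp.le_one
  have hHq := entropy_nonneg hq.nonneg hq.le_one
  have hNp : 0 ≤ photonNumber p := gInv_nonneg hHp
  have hNq : 0 ≤ photonNumber q := gInv_nonneg hHq
  have hgp : g (photonNumber p) = entropy p := g_gInv hHp
  have hgq : g (photonNumber q) = entropy q := g_gInv hHq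
  set Np := photonNumber p
  set Nq := photonNumber q
  set m := η * Np + (1 - η) * Nq with hm
  have h1' : 0 < 1 - η := by linarith
  have hm0 : 0 ≤ m := by positivity
  rcases eq_or_lt_of_le hm0 with hz | hz
  · rw [← hz, g_zero]
    exact hc0
  -- the limit
  have hL := Lg_pos hz
  have hleft := ((tendsto_quot hNp).const_mul η).add ((tendsto_quot hNq).const_mul (1 - η))
  simp only [mul_zero, add_zero] at hleft
  have hcontm : ContinuousAt (fun ε : ℝ => (entropy (output η p q) - g (m + ε)) / Lg (m + ε)) 0 := by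
    have h2 : ContinuousAt (fun ε : ℝ => g (m + ε)) 0 := by
      have := continuous_g
      fun_prop
    have h3 : ContinuousAt (fun ε : ℝ => Lg (m + ε)) 0 := by
      have h4 : ContinuousAt Lg (m + 0) := (hasDerivAt_Lg (by simpa using hz)).continuousAt
      exact h4.comp (f := fun ε : ℝ => m + ε) (by fun_prop)
    refine ContinuousAt.div (continuousAt_const.sub h2) h3 ?_
    simpa using hL.ne'
  have hright : Tendsto (fun ε : ℝ => (entropy (output η p q) - g (m + ε)) / Lg (m + ε)) (𝓝[>] 0)
      (𝓝 ((entropy (output η p q) - g m) / Lg m)) := by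
    have := hcontm.tendsto
    simp only [add_zero] at this
    exact this.mono_left nhdsWithin_le_nhds
  have hle := le_of_tendsto_of_tendsto hleft hright ?_
  · have := (div_nonneg_iff.mp hle)
    rcases this with ⟨h5, _⟩ | ⟨_, h6⟩
    · linarith
    · linarith
  · have hmem : Set.Ioi (0 : ℝ) ∈ 𝓝[>] (0 : ℝ) := self_mem_nhdsWithin
    filter_upwards [hmem] with ε hε
    have hε' : (0 : ℝ) < ε := hε
    have hs := spade (r := Np + ε) (s := Nq + ε) hp hq h0 h1 (by linarith) (by linarith)
    have e : η * (Np + ε) + (1 - η) * (Nq + ε) = m + ε := by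
      rw [hm]; ring
    rw [e, ← hgp, ← hgq] at hs
    exact hs

lemma ampPoly_one (k l : ℕ) : ampPoly 1 k l = Polynomial.X ^ k := by
  simp [ampPoly]

lemma ampPoly_zero (k l : ℕ) : ampPoly 0 k l = (-1) ^ k * Polynomial.X ^ l := by
  simp [ampPoly]

lemma trans_one (j k l : ℕ) : trans 1 j k l = if j = k then 1 else 0 := by
  unfold trans
  rw [ampPoly_one, Polynomial.coeff_X_pow]
  split_ifs with h
  · subst h
    have h1 : (j + l - j) = l := by omega
    rw [h1]
    have h2 : (j.factorial : ℝ) ≠ 0 := by positivity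
    have h3 : (l.factorial : ℝ) ≠ 0 := by positivity
    field_simp
  · simp

lemma trans_zero (j k l : ℕ) : trans 0 j k l = if j = l then 1 else 0 := by
  unfold trans
  rw [ampPoly_zero]
  have e : ((-1 : Polynomial ℝ) ^ k * Polynomial.X ^ l) = Polynomial.C ((-1 : ℝ) ^ k) * Polynomial.X ^ l := by
    simp
  rw [e, Polynomial.coeff_C_mul, Polynomial.coeff_X_pow]
  split_ifs with h
  · subst h
    have h1 : (k + j - j) = k := by omega
    rw [h1]
    have h2 : (j.factorial : ℝ) ≠ 0 := by positivity
    have h3 : (k.factorial : ℝ) ≠ 0 := by positivity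
    have h4 : ((-1 : ℝ) ^ k) ^ 2 = 1 := by
      rw [← pow_mul, mul_comm, pow_mul]
      simp
    rw [mul_one, h4]
    field_simp
  · simp

lemma output_one {p q : ℕ → ℝ} (hq : IsPassive q) : output 1 p q = p := by
  funext j
  unfold output
  simp only [trans_one]
  have e : (fun x : ℕ × ℕ => p x.1 * q x.2 * (if j = x.1 then (1 : ℝ) else 0)) =
      fun x : ℕ × ℕ => (if x.1 = j then p x.1 else 0) * q x.2 := by
    funext x
    by_cases h : j = x.1
    · simp [h]
    · simp [h, Ne.symm h]
  rw [e]
  have hs : Summable (fun k : ℕ => if k = j then p k else 0) :=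
    summable_of_ne_finset_zero (s := {j}) (fun k hk => by simp at hk; simp [hk])
  have h2 := tsum_mul_tsum_of_summable_norm hs.norm hq.summable.norm
  rw [← h2, hq.sum_eq_one, mul_one, tsum_eq_single j (fun k hk => by simp [hk])]
  simp

lemma output_zero {p q : ℕ → ℝ} (hp : IsPassive p) : output 0 p q = q := by
  funext j
  unfold output
  simp only [trans_zero]
  have e : (fun x : ℕ × ℕ => p x.1 * q x.2 * (if j = x.2 then (1 : ℝ) else 0)) =
      fun x : ℕ × ℕ => p x.1 * (if x.2 = j then q x.2 else 0) := by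
    funext x
    by_cases h : j = x.2
    · simp [h]
    · simp [h, Ne.symm h]
  rw [e]
  have hs : Summable (fun k : ℕ => if k = j then q k else 0) :=
    summable_of_ne_finset_zero (s := {j}) (fun k hk => by simp at hk; simp [hk])
  have h2 := tsum_mul_tsum_of_summable_norm hp.summable.norm hs.norm
  rw [← h2, hp.sum_eq_one, one_mul, tsum_eq_single j (fun k hk => by simp [hk])]
  simp

/-- The entropy photon number inequality for one-mode passive inputs. -/
theorem epni_passive {η : ℝ} (h0 : 0 ≤ η) (h1 : η ≤ 1) {p q : ℕ → ℝ} (hp : IsPassive p)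
    (hq : IsPassive q) :
    η * photonNumber p + (1 - η) * photonNumber q ≤ photonNumber (output η p q) := by
  rcases eq_or_lt_of_le h0 with h | h0'
  · rw [← h, output_zero hp]
    simp
  rcases eq_or_lt_of_le h1 with h | h1'
  · rw [h, output_one hq]
    simp
  have hle := g_le_entropy h0' h1' hp hq
  have hc0 := entropy_nonneg (output_nonneg hp hq h0 h1) (output_le_one hp hq h0 h1)
  have hHp := entropy_nonneg hp.nonneg hp.le_one
  have hHq := entropy_nonneg hq.nonneg hq.le_one
  have hNp : 0 ≤ photonNumber p := gInv_nonneg hHp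
  have hNq : 0 ≤ photonNumber q := gInv_nonneg hHq
  have hNc : 0 ≤ photonNumber (output η p q) := gInv_nonneg hc0
  have hgc : g (photonNumber (output η p q)) = entropy (output η p q) := g_gInv hc0
  rw [← hgc] at hle
  have h1'' : 0 < 1 - η := by linarith
  exact (g_strictMonoOn.le_iff_le (Set.mem_Ici.mpr (by positivity)) (Set.mem_Ici.mpr hNc)).mp hle

end Vale.Agent.Lib.P369
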