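import Vale.Agent.Lib.P369.TensorN

open Finset Filter Topology

namespace Vale.Agent.Lib.P369

/-- From the linearised inequality to the concave form. -/
theorem numeric_epni {η a b c : ℝ} (h0 : 0 < η) (h1 : η < 1) (ha : 0 ≤ a) (hb : 0 ≤ b) (hc0 : 0 ≤ c)
    (h : ∀ r s : ℝ, 0 < r → 0 < s →
      η * ((a - g r) / Lg r) + (1 - η) * ((b - g s) / Lg s) ≤
        (c - g (η * r + (1 - η) * s)) / Lg (η * r + (1 - η) * s)) :
    η * gInv a + (1 - η) * gInv b ≤ gInv c := by
  have hNp : 0 ≤ gInv a := gInv_nonneg ha
  have hNq : 0 ≤ gInv b := gInv_nonneg hb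
  have hgp : g (gInv a) = a := g_gInv ha
  have hgq : g (gInv b) = b := g_gInv hb
  have h1' : 0 < 1 - η := by linarith
  have hmain : g (η * gInv a + (1 - η) * gInv b) ≤ c := by
    set Np := gInv a
    set Nq := gInv b
    set m := η * Np + (1 - η) * Nq with hm
    have hm0 : 0 ≤ m := by positivity
    rcases eq_or_lt_of_le hm0 with hz | hz
    · rw [← hz, g_zero]
      exact hc0
    have hL := Lg_pos hz
    have hleft := ((tendsto_quot hNp).const_mul η).add ((tendsto_quot hNq).const_mul (1 - η))
    simp only [mul_zero, add_zero] at hleft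
    have hcontm : ContinuousAt (fun ε : ℝ => (c - g (m + ε)) / Lg (m + ε)) 0 := by
      have h2 : ContinuousAt (fun ε : ℝ => g (m + ε)) 0 := by
        have := continuous_g
        fun_prop
      have h3 : ContinuousAt (fun ε : ℝ => Lg (m + ε)) 0 := by
        have h4 : ContinuousAt Lg (m + 0) := (hasDerivAt_Lg (by simpa using hz)).continuousAt
        exact h4.comp (f := fun ε : ℝ => m + ε) (by fun_prop)
      refine ContinuousAt.div (continuousAt_const.sub h2) h3 ?_
      simpa using hL.ne'
    have hright : Tendsto (fun ε : ℝ => (c - g (m + ε)) / Lg (m + ε)) (𝓝[>] 0)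
        (𝓝 ((c - g m) / Lg m)) := by
      have := hcontm.tendsto
      simp only [add_zero] at this
      exact this.mono_left nhdsWithin_le_nhds
    have hle := le_of_tendsto_of_tendsto hleft hright ?_
    · have := (div_nonneg_iff.mp hle)
      rcases this with ⟨h5, _⟩ | ⟨_, h6⟩
      · linarith
      · linarith
    · have hmem : Set.Ioi (0 : ℝ) ∈ 𝓝[>] (0 : ℝ) := self_mem_nhdsWithin
      filter_upwards [hmem] with ε hε
      have hε' : (0 : ℝ) < ε := hε
      have hs := h (Np + ε) (Nq + ε) (by linarith) (by linarith)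
      have e : η * (Np + ε) + (1 - η) * (Nq + ε) = m + ε := by
        rw [hm]; ring
      rw [e] at hs
      rw [← hgp, ← hgq] at hs
      exact hs
  have hNc : 0 ≤ gInv c := gInv_nonneg hc0
  have hgc : g (gInv c) = c := g_gInv hc0
  rw [← hgc] at hmain
  exact (g_strictMonoOn.le_iff_le (Set.mem_Ici.mpr (by positivity)) (Set.mem_Ici.mpr hNc)).mp hmain

section Boundary
variable {n : ℕ}

lemma nTrans_one (j k l : Fin n → ℕ) : nTrans 1 j k l = if j = k then 1 else 0 := by
  unfold nTrans
  simp only [trans_one]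
  rw [Finset.prod_ite_zero]
  simp [funext_iff]

lemma nTrans_zero (j k l : Fin n → ℕ) : nTrans 0 j k l = if j = l then 1 else 0 := by
  unfold nTrans
  simp only [trans_zero]
  rw [Finset.prod_ite_zero]
  simp [funext_iff]

lemma nOutput_one {p q : (Fin n → ℕ) → ℝ} (hq : NPassive q) : nOutput 1 p q = p := by
  funext j
  unfold nOutput
  simp only [nTrans_one]
  have e : (fun x : (Fin n → ℕ) × (Fin n → ℕ) => p x.1 * q x.2 * (if j = x.1 then (1 : ℝ) else 0)) =
      fun x => (if x.1 = j then p x.1 else 0) * q x.2 := by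
    funext x
    by_cases h : j = x.1
    · simp [h]
    · simp [h, Ne.symm h]
  rw [e]
  have hs : Summable (fun k : Fin n → ℕ => if k = j then p k else 0) :=
    summable_of_ne_finset_zero (s := {j}) (fun k hk => by simp at hk; simp [hk])
  have h2 := tsum_mul_tsum_of_summable_norm hs.norm hq.summable.norm
  rw [← h2, hq.sum_eq_one, mul_one, tsum_eq_single j (fun k hk => by simp [hk])]
  simp

lemma nOutput_zero {p q : (Fin n → ℕ) → ℝ} (hp : NPassive p) : nOutput 0 p q = q := by
  funext j
  unfold nOutput
  simp only [nTrans_zero]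
  have e : (fun x : (Fin n → ℕ) × (Fin n → ℕ) => p x.1 * q x.2 * (if j = x.2 then (1 : ℝ) else 0)) =
      fun x => p x.1 * (if x.2 = j then q x.2 else 0) := by
    funext x
    by_cases h : j = x.2
    · simp [h]
    · simp [h, Ne.symm h]
  rw [e]
  have hs : Summable (fun k : Fin n → ℕ => if k = j then q k else 0) :=
    summable_of_ne_finset_zero (s := {j}) (fun k hk => by simp at hk; simp [hk])
  have h2 := tsum_mul_tsum_of_summable_norm hp.summable.norm hs.norm
  rw [← h2, hp.sum_eq_one, one_mul, tsum_eq_single j (fun k hk => by simp [hk])]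
  simp

end Boundary

/-- The entropy photon number inequality for `n`-mode Fock-diagonal inputs whose photon number
distributions are nonincreasing in each coordinate. -/
theorem epni_nmode {η : ℝ} (h0 : 0 ≤ η) (h1 : η ≤ 1) {n : ℕ} (hn : 1 ≤ n)
    {p q : (Fin n → ℕ) → ℝ} (hp : NPassive p) (hq : NPassive q) :
    η * nPhotonNumber p + (1 - η) * nPhotonNumber q ≤ nPhotonNumber (nOutput η p q) := by
  rcases eq_or_lt_of_le h0 with h | h0'
  · rw [← h, nOutput_zero hp]
    simp
  rcases eq_or_lt_of_le h1 with h | h1'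
  · rw [h, nOutput_one hq]
    simp
  have hn0 : (0 : ℝ) < n := by exact_mod_cast hn
  have hD := Ker.dist_outK szN_nonneg (ker_nTrans h0 h1 n) hp.toDist hq.toDist
  have hHp : 0 ≤ nEntropy p := hp.toDist.ent_nonneg
  have hHq : 0 ≤ nEntropy q := hq.toDist.ent_nonneg
  have hHc : 0 ≤ nEntropy (nOutput η p q) := hD.ent_nonneg
  refine numeric_epni h0' h1' (by positivity) (by positivity) (by positivity) ?_
  intro r s hr hs
  have h1'' : 0 < 1 - η := by linarith
  have hm : 0 < η * r + (1 - η) * s := by positivity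
  have hLr := Lg_pos hr
  have hLs := Lg_pos hs
  have hLm := Lg_pos hm
  have key := spade_n h0' h1' hr hs n hp hq
  have e1 : (η / Lg r) * (nEntropy p - n * g r) + ((1 - η) / Lg s) * (nEntropy q - n * g s) =
      n * (η * ((nEntropy p / n - g r) / Lg r) + (1 - η) * ((nEntropy q / n - g s) / Lg s)) := by
    field_simp
  have e2 : (1 / Lg (η * r + (1 - η) * s)) *
      (nEntropy (nOutput η p q) - n * g (η * r + (1 - η) * s)) =
      n * ((nEntropy (nOutput η p q) / n - g (η * r + (1 - η) * s)) / Lg (η * r + (1 - η) * s)) := by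
    field_simp
  rw [e1, e2] at key
  exact le_of_mul_le_mul_left key hn0

end Vale.Agent.Lib.P369
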