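import Mathlib

open Finset

namespace Vale.Agent.Lib.P369

/-- The binomial thinning kernel. -/
noncomputable def Lt (lam : ℝ) (i k : ℕ) : ℝ := (k.choose i : ℝ) * lam ^ i * (1 - lam) ^ (k - i)

lemma Lt_zero_zero (lam : ℝ) : Lt lam 0 0 = 1 := by simp [Lt]

lemma Lt_succ_zero (lam : ℝ) (i : ℕ) : Lt lam (i + 1) 0 = 0 := by simp [Lt]

lemma Lt_zero_succ (lam : ℝ) (k : ℕ) : Lt lam 0 (k + 1) = (1 - lam) * Lt lam 0 k := by
  simp [Lt, pow_succ]; ring

lemma Lt_eq_zero (lam : ℝ) {i k : ℕ} (h : k < i) : Lt lam i k = 0 := by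
  simp [Lt, Nat.choose_eq_zero_of_lt h]

lemma Lt_succ_succ (lam : ℝ) (i k : ℕ) :
    Lt lam (i + 1) (k + 1) = (1 - lam) * Lt lam (i + 1) k + lam * Lt lam i k := by
  rcases lt_trichotomy i k with h | h | h
  · obtain ⟨n, rfl⟩ : ∃ n, k = i + 1 + n := ⟨k - (i + 1), by omega⟩
    have e1 : i + 1 + n + 1 - (i + 1) = n + 1 := by omega
    have e2 : i + 1 + n - (i + 1) = n := by omega
    have e3 : i + 1 + n - i = n + 1 := by omega
    simp only [Lt, Nat.choose_succ_succ (i + 1 + n) i, e1, e2, e3]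
    push_cast
    ring
  · subst h
    simp [Lt, Nat.choose_succ_succ]
    ring
  · simp only [Lt]
    have e1 : (k + 1).choose (i + 1) = 0 := Nat.choose_eq_zero_of_lt (by omega)
    have e2 : k.choose (i + 1) = 0 := Nat.choose_eq_zero_of_lt (by omega)
    have e3 : k.choose i = 0 := Nat.choose_eq_zero_of_lt (by omega)
    simp [e1, e2, e3]

lemma Lt_nonneg {lam : ℝ} (h0 : 0 ≤ lam) (h1 : lam ≤ 1) (i k : ℕ) : 0 ≤ Lt lam i k := by
  have : 0 ≤ 1 - lam := by linarith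
  unfold Lt
  positivity

lemma Lt_sum {lam : ℝ} (k : ℕ) : ∑ i ∈ range (k + 1), Lt lam i k = 1 := by
  have := add_pow lam (1 - lam) k
  simp only [add_sub_cancel, one_pow] at this
  rw [this]
  apply sum_congr rfl
  intro i _
  unfold Lt
  ring

lemma Lt_le_one {lam : ℝ} (h0 : 0 ≤ lam) (h1 : lam ≤ 1) (i k : ℕ) : Lt lam i k ≤ 1 := by
  by_cases h : i ≤ k
  · rw [← Lt_sum (lam := lam) k]
    exact single_le_sum (f := fun i => Lt lam i k) (fun j _ => Lt_nonneg h0 h1 j k)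
      (mem_range.mpr (by omega))
  · rw [Lt_eq_zero lam (by omega)]
    exact zero_le_one

/-- Multiplication by `k`. -/
lemma Lt_mul_k (lam : ℝ) (i k : ℕ) :
    lam * k * Lt lam i k = lam * i * Lt lam i k + (1 - lam) * (i + 1) * Lt lam (i + 1) k := by
  induction k generalizing i with
  | zero =>
    cases i with
    | zero => simp [Lt_succ_zero]
    | succ i => simp [Lt_succ_zero]
  | succ k ih =>
    cases i with
    | zero =>
      have h := ih 0
      rw [Lt_succ_succ, Lt_zero_succ]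
      push_cast
      simp only [Nat.cast_zero, mul_zero, zero_mul, zero_add] at h ⊢
      linear_combination (1 - lam) * h
    | succ i =>
      have h1 := ih i
      have h2 := ih (i + 1)
      rw [Lt_succ_succ lam (i + 1) k, Lt_succ_succ lam i k]
      push_cast at h1 h2 ⊢
      linear_combination (1 - lam) * h2 + lam * h1

/-- Shifting both indices. -/
lemma Lt_shift (lam : ℝ) (i k : ℕ) :
    lam * (k + 1) * Lt lam i k = (i + 1) * Lt lam (i + 1) (k + 1) := by
  have h := Lt_mul_k lam i k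
  rw [Lt_succ_succ]
  linear_combination h

/-- The derivative of the thinning kernel in `lam`. -/
lemma hasDerivAt_Lt {lam : ℝ} (hl : lam ≠ 0) (i k : ℕ) :
    HasDerivAt (fun x => Lt x i k) (((i : ℝ) * Lt lam i k - (i + 1) * Lt lam (i + 1) k) / lam) lam := by
  induction k generalizing i with
  | zero =>
    cases i with
    | zero =>
      simp only [Lt_zero_zero, Lt_succ_zero]
      simpa using hasDerivAt_const lam (1 : ℝ)
    | succ i =>
      simp only [Lt_succ_zero]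
      simpa using hasDerivAt_const lam (0 : ℝ)
  | succ k ih =>
    cases i with
    | zero =>
      have h := (((hasDerivAt_id lam).const_sub 1).fun_mul (ih 0))
      have : (fun x => Lt x 0 (k + 1)) = fun x => (1 - id x) * Lt x 0 k := by
        funext x; simp [Lt_zero_succ]
      rw [this]
      refine h.congr_deriv ?_
      rw [Lt_succ_succ lam 0 k, Lt_zero_succ]
      have hm := Lt_mul_k lam 0 k
      simp only [id, Nat.cast_zero, mul_zero, zero_mul, zero_add] at hm ⊢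
      field_simp
      ring
    | succ i =>
      have h1 := ((hasDerivAt_id lam).const_sub 1).fun_mul (ih (i + 1))
      have h2 := (hasDerivAt_id lam).fun_mul (ih i)
      have : (fun x => Lt x (i + 1) (k + 1)) =
          fun x => (1 - id x) * Lt x (i + 1) k + id x * Lt x i k := by
        funext x; simp [Lt_succ_succ]
      rw [this]
      refine (h1.fun_add h2).congr_deriv ?_
      rw [Lt_succ_succ lam (i + 1) k, Lt_succ_succ lam i k]
      simp only [id]
      push_cast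
      field_simp
      ring

/-- The thermal generator acting on sequences. -/
noncomputable def Lop (t : ℝ) (σ : ℕ → ℝ) (j : ℕ) : ℝ :=
  (t + 1) * (((j : ℝ) + 1) * σ (j + 1) - (j : ℝ) * σ j) +
    t * ((j : ℝ) * σ (j - 1) - ((j : ℝ) + 1) * σ j)

section Rsum
variable (g lam : ℝ) (j k : ℕ)

/-- The bilinear pairing of thinning kernels. -/
noncomputable def Rs (j k : ℕ) : ℝ := ∑ i ∈ range (k + 1), Lt g i j * Lt lam i k

/-- Auxiliary sum. -/
noncomputable def Qs (j k : ℕ) : ℝ := ∑ i ∈ range (k + 1), Lt g i j * Lt lam (i + 1) k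

/-- Auxiliary sum. -/
noncomputable def S1s (j k : ℕ) : ℝ := ∑ i ∈ range (k + 1), (i : ℝ) * (Lt g i j * Lt lam i k)

/-- Auxiliary sum. -/
noncomputable def Sps (j k : ℕ) : ℝ :=
  ∑ i ∈ range (k + 1), ((i : ℝ) + 1) * (Lt g (i + 1) j * Lt lam i k)

/-- Auxiliary sum. -/
noncomputable def Sms (j k : ℕ) : ℝ :=
  ∑ i ∈ range (k + 1), ((i : ℝ) + 1) * (Lt g i j * Lt lam (i + 1) k)

lemma Rs_succ : Rs g lam (j + 1) k = (1 - g) * Rs g lam j k + g * Qs g lam j k := by
  unfold Rs Qs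
  rw [sum_range_succ' (fun i => Lt g i (j + 1) * Lt lam i k),
    sum_range_succ' (fun i => Lt g i j * Lt lam i k),
    sum_range_succ (fun i => Lt g i j * Lt lam (i + 1) k),
    Lt_eq_zero lam (show k < k + 1 by omega)]
  simp only [Lt_succ_succ, Lt_zero_succ, mul_zero, add_zero]
  have : ∑ i ∈ range k, ((1 - g) * Lt g (i + 1) j + g * Lt g i j) * Lt lam (i + 1) k =
      (1 - g) * ∑ i ∈ range k, Lt g (i + 1) j * Lt lam (i + 1) k +
        g * ∑ i ∈ range k, Lt g i j * Lt lam (i + 1) k := by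
    rw [mul_sum, mul_sum, ← sum_add_distrib]
    apply sum_congr rfl
    intro i _
    ring
  rw [this]
  ring

lemma S1s_shift :
    ∑ i ∈ range (k + 1), ((i : ℝ) + 1) * (Lt g (i + 1) j * Lt lam (i + 1) k) = S1s g lam j k := by
  unfold S1s
  rw [sum_range_succ' (fun i => (i : ℝ) * (Lt g i j * Lt lam i k)),
    sum_range_succ (fun i => ((i : ℝ) + 1) * (Lt g (i + 1) j * Lt lam (i + 1) k)),
    Lt_eq_zero lam (show k < k + 1 by omega)]
  simp

lemma Rs_mul_j : g * j * Rs g lam j k = g * S1s g lam j k + (1 - g) * Sps g lam j k := by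
  unfold Rs S1s Sps
  rw [mul_sum, mul_sum, mul_sum, ← sum_add_distrib]
  apply sum_congr rfl
  intro i _
  have := Lt_mul_k g i j
  linear_combination (Lt lam i k) * this

lemma Qs_mul_j : g * j * Qs g lam j k =
    g * (Sms g lam j k - Qs g lam j k) + (1 - g) * S1s g lam j k := by
  rw [← S1s_shift]
  unfold Qs Sms
  rw [← sum_sub_distrib, mul_sum, mul_sum, mul_sum, ← sum_add_distrib]
  apply sum_congr rfl
  intro i _
  have := Lt_mul_k g i j
  linear_combination (Lt lam (i + 1) k) * this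

lemma Rs_pred (j : ℕ) : g * j * Rs g lam (j - 1) k = Sps g lam j k := by
  cases j with
  | zero => simp [Sps, Lt_succ_zero]
  | succ j =>
    unfold Rs Sps
    simp only [Nat.add_sub_cancel]
    rw [mul_sum]
    apply sum_congr rfl
    intro i _
    have := Lt_shift g i j
    push_cast
    linear_combination (Lt lam i k) * this

end Rsum

/-- The inverse gain. -/
noncomputable def gf (t θ : ℝ) : ℝ := 1 / (1 + (1 - θ) * t)

/-- The transmissivity of the thinning step. -/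
noncomputable def lf (t θ : ℝ) : ℝ := θ * gf t θ

/-- The kernel of the thermal flow. -/
noncomputable def Fk (t θ : ℝ) (j k : ℕ) : ℝ := gf t θ * Rs (gf t θ) (lf t θ) j k

lemma gden_pos {t θ : ℝ} (ht : 0 ≤ t) (h1 : θ ≤ 1) : 0 < 1 + (1 - θ) * t := by
  have : 0 ≤ (1 - θ) * t := mul_nonneg (by linarith) ht
  linarith

lemma gf_pos {t θ : ℝ} (ht : 0 ≤ t) (h1 : θ ≤ 1) : 0 < gf t θ :=
  one_div_pos.mpr (gden_pos ht h1)

lemma gf_le_one {t θ : ℝ} (ht : 0 ≤ t) (h1 : θ ≤ 1) : gf t θ ≤ 1 := by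
  unfold gf
  rw [div_le_one (gden_pos ht h1)]
  have : 0 ≤ (1 - θ) * t := mul_nonneg (by linarith) ht
  linarith

lemma hasDerivAt_gf {t θ : ℝ} (ht : 0 ≤ t) (h1 : θ ≤ 1) :
    HasDerivAt (gf t) (t * gf t θ ^ 2) θ := by
  have hd : HasDerivAt (fun θ : ℝ => 1 + (1 - θ) * t) (-t) θ := by
    have := (((hasDerivAt_id θ).const_sub 1).mul_const t).const_add 1
    simpa using this
  have h := (hasDerivAt_const θ (1 : ℝ)).fun_div hd (gden_pos ht h1).ne'
  unfold gf
  refine h.congr_deriv ?_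
  have := (gden_pos ht h1).ne'
  field_simp
  ring

lemma hasDerivAt_lf {t θ : ℝ} (ht : 0 ≤ t) (h1 : θ ≤ 1) :
    HasDerivAt (lf t) ((1 + t) * gf t θ ^ 2) θ := by
  have h := (hasDerivAt_id θ).fun_mul (hasDerivAt_gf ht h1)
  unfold lf
  refine h.congr_deriv ?_
  have hg : gf t θ * (1 + (1 - θ) * t) = 1 := by
    unfold gf; field_simp [(gden_pos ht h1).ne']
  simp only [id]
  linear_combination (-gf t θ) * hg

/-- The first order differential equation of the flow kernel. -/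
lemma hasDerivAt_Fk {t θ : ℝ} (ht : 0 ≤ t) (h0 : 0 < θ) (h1 : θ ≤ 1) (j k : ℕ) :
    HasDerivAt (fun θ => Fk t θ j k) (-Lop t (fun j => Fk t θ j k) j / θ) θ := by
  set g := gf t θ with hg
  set lam := lf t θ with hlam
  have hgpos : 0 < g := gf_pos ht h1
  have hlpos : 0 < lam := mul_pos h0 hgpos
  have hdg := hasDerivAt_gf ht h1
  have hdl := hasDerivAt_lf ht h1
  have hterm : ∀ i ∈ range (k + 1), HasDerivAt
      (fun θ => Lt (gf t θ) i j * Lt (lf t θ) i k)
      (((i : ℝ) * Lt g i j - (i + 1) * Lt g (i + 1) j) / g * (t * g ^ 2) * Lt lam i k +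
        Lt g i j * (((i : ℝ) * Lt lam i k - (i + 1) * Lt lam (i + 1) k) / lam *
          ((1 + t) * g ^ 2))) θ := by
    intro i _
    have h1 : HasDerivAt (fun θ => Lt (gf t θ) i j) _ θ :=
      HasDerivAt.comp (h₂ := fun x => Lt x i j) θ (hasDerivAt_Lt hgpos.ne' i j) hdg
    have h2 : HasDerivAt (fun θ => Lt (lf t θ) i k) _ θ :=
      HasDerivAt.comp (h₂ := fun x => Lt x i k) θ (hasDerivAt_Lt hlpos.ne' i k) hdl
    exact h1.fun_mul h2
  have hsum := HasDerivAt.fun_sum hterm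
  have hF := hdg.fun_mul hsum
  have hform : (fun θ => Fk t θ j k) =
      fun θ => gf t θ * ∑ i ∈ range (k + 1), Lt (gf t θ) i j * Lt (lf t θ) i k := rfl
  rw [hform]
  refine hF.congr_deriv ?_
  -- the sums
  have e1 : ∑ i ∈ range (k + 1),
      (((i : ℝ) * Lt g i j - (i + 1) * Lt g (i + 1) j) / g * (t * g ^ 2) * Lt lam i k +
        Lt g i j * (((i : ℝ) * Lt lam i k - (i + 1) * Lt lam (i + 1) k) / lam *
          ((1 + t) * g ^ 2))) =
      (S1s g lam j k - Sps g lam j k) / g * (t * g ^ 2) +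
        (S1s g lam j k - Sms g lam j k) / lam * ((1 + t) * g ^ 2) := by
    unfold S1s Sps Sms
    rw [← sum_sub_distrib, ← sum_sub_distrib, sum_div, sum_div, sum_mul, sum_mul,
      ← sum_add_distrib]
    apply sum_congr rfl
    intro i _
    ring
  rw [e1]
  have eR : (∑ i ∈ range (k + 1), Lt g i j * Lt lam i k) = Rs g lam j k := rfl
  rw [eR]
  have hr1 := Rs_mul_j g lam j k
  have hr2 := Qs_mul_j g lam j k
  have hr3 := Rs_pred g lam k j
  have hr4 := Rs_succ g lam j k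
  have hL : Lop t (fun j => Fk t θ j k) j =
      (t + 1) * (((j : ℝ) + 1) * (g * Rs g lam (j + 1) k) - (j : ℝ) * (g * Rs g lam j k)) +
      t * ((j : ℝ) * (g * Rs g lam (j - 1) k) - ((j : ℝ) + 1) * (g * Rs g lam j k)) := rfl
  rw [hL, hr4]
  have hL2 : (j : ℝ) * (g * Rs g lam (j - 1) k) = Sps g lam j k := by
    rw [← hr3]; ring
  rw [hL2]
  have hlam' : lam = θ * g := rfl
  have hG : g * (1 + (1 - θ) * t) = 1 := by
    rw [hg]; unfold gf; field_simp [(gden_pos ht h1).ne']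
  have hθ : θ * t * g = (1 + t) * g - 1 := by linear_combination (-1 : ℝ) * hG
  set R0 := Rs g lam j k
  set Q0 := Qs g lam j k
  set S1 := S1s g lam j k
  set Sp := Sps g lam j k
  set Sm := Sms g lam j k
  rw [hlam']
  have hθne : θ ≠ 0 := h0.ne'
  have hgne : g ≠ 0 := hgpos.ne'
  have hJ1 : (j : ℝ) * (g * R0) = g * S1 + (1 - g) * Sp := by rw [← hr1]; ring
  have hJ2 : (j : ℝ) * (g * Q0) = g * (Sm - Q0) + (1 - g) * S1 := by rw [← hr2]; ring
  have e1 : (S1 - Sp) / g * (t * g ^ 2) = (S1 - Sp) * (t * g) := by field_simp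
  have e2 : (S1 - Sm) / (θ * g) * ((1 + t) * g ^ 2) = (S1 - Sm) * ((1 + t) * g) / θ := by
    field_simp
  rw [e1, e2, eq_div_iff hθne]
  have hW : (S1 - Sm) * ((1 + t) * g) / θ * θ = (S1 - Sm) * ((1 + t) * g) := by field_simp
  set W := (S1 - Sm) * ((1 + t) * g) / θ
  linear_combination (g * (R0 + S1 - Sp)) * hθ - ((t + 1) * g + t) * hJ1 + ((t + 1) * g) * hJ2
    + g * hW

lemma gf_mul {t θ : ℝ} (ht : 0 ≤ t) (h1 : θ ≤ 1) : gf t θ * (1 + (1 - θ) * t) = 1 := by
  unfold gf; field_simp [(gden_pos ht h1).ne']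

lemma one_sub_gf {t θ : ℝ} (ht : 0 ≤ t) (h1 : θ ≤ 1) : 1 - gf t θ = (1 - θ) * t * gf t θ := by
  have := gf_mul ht h1
  linear_combination (-1 : ℝ) * this

lemma one_sub_gf_nonneg {t θ : ℝ} (ht : 0 ≤ t) (h1 : θ ≤ 1) : 0 ≤ 1 - gf t θ := by
  have := gf_le_one ht h1
  linarith

lemma gf_ge {t θ : ℝ} (ht : 0 ≤ t) (h0 : 0 ≤ θ) (h1 : θ ≤ 1) : 1 / (1 + t) ≤ gf t θ := by
  unfold gf
  apply one_div_le_one_div_of_le (gden_pos ht h1)
  have : (1 - θ) * t ≤ 1 * t := mul_le_mul_of_nonneg_right (by linarith) ht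
  linarith

lemma one_sub_gf_le {t θ : ℝ} (ht : 0 ≤ t) (h0 : 0 ≤ θ) (h1 : θ ≤ 1) :
    1 - gf t θ ≤ t / (1 + t) := by
  have := gf_ge ht h0 h1
  have e : t / (1 + t) = 1 - 1 / (1 + t) := by
    have : (1 + t) ≠ 0 := by positivity
    field_simp
    ring
  rw [e]
  linarith

lemma one_sub_gf_ge {t θ θ₂ : ℝ} (ht : 0 ≤ t) (h : θ ≤ θ₂) (h1 : θ₂ ≤ 1) :
    1 - gf t θ₂ ≤ 1 - gf t θ := by
  have : gf t θ ≤ gf t θ₂ := by
    unfold gf
    apply one_div_le_one_div_of_le (gden_pos ht h1)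
    have : (1 - θ₂) * t ≤ (1 - θ) * t := mul_le_mul_of_nonneg_right (by linarith) ht
    linarith
  linarith

lemma one_sub_gf_pos {t θ : ℝ} (ht : 0 < t) (h1 : θ < 1) : 0 < 1 - gf t θ := by
  rw [one_sub_gf ht.le h1.le]
  have := gf_pos ht.le h1.le
  have : 0 < 1 - θ := by linarith
  positivity

lemma lf_nonneg {t θ : ℝ} (ht : 0 ≤ t) (h0 : 0 ≤ θ) (h1 : θ ≤ 1) : 0 ≤ lf t θ :=
  mul_nonneg h0 (gf_pos ht h1).le

lemma lf_le_one {t θ : ℝ} (ht : 0 ≤ t) (h0 : 0 ≤ θ) (h1 : θ ≤ 1) : lf t θ ≤ 1 := by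
  have := gf_le_one ht h1
  unfold lf
  nlinarith [gf_pos ht h1]

lemma lf_lt_one {t θ : ℝ} (ht : 0 ≤ t) (h0 : 0 ≤ θ) (h1 : θ < 1) : lf t θ < 1 := by
  have := gf_le_one ht h1.le
  unfold lf
  nlinarith [gf_pos ht h1.le]

lemma Fk_nonneg {t θ : ℝ} (ht : 0 ≤ t) (h0 : 0 ≤ θ) (h1 : θ ≤ 1) (j k : ℕ) : 0 ≤ Fk t θ j k := by
  unfold Fk Rs
  apply mul_nonneg (gf_pos ht h1).le
  apply sum_nonneg
  intro i _
  exact mul_nonneg (Lt_nonneg (gf_pos ht h1).le (gf_le_one ht h1) _ _)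
    (Lt_nonneg (lf_nonneg ht h0 h1) (lf_le_one ht h0 h1) _ _)

lemma Lt_zero_left (g : ℝ) (j : ℕ) : Lt g 0 j = (1 - g) ^ j := by
  simp [Lt]

lemma Fk_zero {t θ : ℝ} (j : ℕ) : Fk t θ j 0 = gf t θ * (1 - gf t θ) ^ j := by
  simp [Fk, Rs, Lt_zero_left]

/-- A bound for binomials against a geometric sequence. -/
noncomputable def Dc (z ρ : ℝ) (i : ℕ) : ℝ := (1 / (1 - z / ρ) ^ (i + 1)) / ρ ^ i

lemma choose_le_geom {z ρ : ℝ} (hz : 0 ≤ z) (hzρ : z < ρ) (i j : ℕ) :
    (j.choose i : ℝ) * z ^ (j - i) ≤ Dc z ρ i * ρ ^ j := by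
  have hρ : 0 < ρ := lt_of_le_of_lt hz hzρ
  have hr0 : 0 ≤ z / ρ := div_nonneg hz hρ.le
  have hr1 : z / ρ < 1 := (div_lt_one hρ).mpr hzρ
  have hD : 0 ≤ Dc z ρ i := by
    unfold Dc
    have : 0 < 1 - z / ρ := by linarith
    positivity
  by_cases hij : i ≤ j
  · obtain ⟨n, rfl⟩ : ∃ n, j = n + i := ⟨j - i, by omega⟩
    have hs := hasSum_choose_mul_geometric_of_norm_lt_one (𝕜 := ℝ) i (r := z / ρ)
      (by rw [Real.norm_eq_abs, abs_of_nonneg hr0]; exact hr1)
    have hle := le_hasSum hs n (fun b _ => by positivity)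
    simp only [Nat.add_sub_cancel]
    have e : (z / ρ) ^ n * ρ ^ n = z ^ n := by
      rw [div_pow]; field_simp
    calc ((n + i).choose i : ℝ) * z ^ n = (((n + i).choose i : ℝ) * (z / ρ) ^ n) * ρ ^ n := by
          rw [mul_assoc, e]
      _ ≤ (1 / (1 - z / ρ) ^ (i + 1)) * ρ ^ n := by
          apply mul_le_mul_of_nonneg_right hle (by positivity)
      _ = Dc z ρ i * ρ ^ (n + i) := by
          unfold Dc
          have hρi : ρ ^ i ≠ 0 := (pow_pos hρ i).ne'
          rw [pow_add ρ n i]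
          field_simp
  · rw [Nat.choose_eq_zero_of_lt (by omega)]
    simp only [Nat.cast_zero, zero_mul]
    positivity

lemma Lt_le_choose {g z : ℝ} (h0 : 0 ≤ g) (h1 : g ≤ 1) (hz : 1 - g ≤ z) (i j : ℕ) :
    Lt g i j ≤ (j.choose i : ℝ) * z ^ (j - i) := by
  unfold Lt
  have h2 : 0 ≤ 1 - g := by linarith
  have h3 : g ^ i ≤ 1 := pow_le_one₀ h0 h1
  have h4 : (1 - g) ^ (j - i) ≤ z ^ (j - i) := pow_le_pow_left₀ h2 hz _
  have h5 : 0 ≤ (1 - g) ^ (j - i) := by positivity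
  calc (j.choose i : ℝ) * g ^ i * (1 - g) ^ (j - i)
      = (j.choose i : ℝ) * (g ^ i * (1 - g) ^ (j - i)) := by ring
    _ ≤ (j.choose i : ℝ) * (1 * z ^ (j - i)) := by
        apply mul_le_mul_of_nonneg_left _ (by positivity)
        exact mul_le_mul h3 h4 h5 zero_le_one
    _ = _ := by ring

/-- The uniform bound for the kernel. -/
noncomputable def DF (z ρ : ℝ) (k : ℕ) : ℝ := ∑ i ∈ range (k + 1), Dc z ρ i

lemma Fk_le {t θ ρ : ℝ} (ht : 0 ≤ t) (h0 : 0 ≤ θ) (h1 : θ ≤ 1) (hρ : t / (1 + t) < ρ)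
    (j k : ℕ) : Fk t θ j k ≤ DF (t / (1 + t)) ρ k * ρ ^ j := by
  have hz0 : 0 ≤ t / (1 + t) := by positivity
  have hρ0 : 0 < ρ := lt_of_le_of_lt hz0 hρ
  have hg0 := gf_pos ht h1
  have hg1 := gf_le_one ht h1
  have hR : 0 ≤ Rs (gf t θ) (lf t θ) j k := by
    unfold Rs
    apply sum_nonneg
    intro i _
    exact mul_nonneg (Lt_nonneg hg0.le hg1 _ _)
      (Lt_nonneg (lf_nonneg ht h0 h1) (lf_le_one ht h0 h1) _ _)
  have h2 : Rs (gf t θ) (lf t θ) j k ≤ DF (t / (1 + t)) ρ k * ρ ^ j := by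
    unfold Rs DF
    rw [sum_mul]
    apply sum_le_sum
    intro i _
    have h3 := Lt_le_choose hg0.le hg1 (one_sub_gf_le ht h0 h1) i j
    have h4 := choose_le_geom hz0 hρ i j
    have h5 := Lt_le_one (lf_nonneg ht h0 h1) (lf_le_one ht h0 h1) i k
    have h6 := Lt_nonneg (lf_nonneg ht h0 h1) (lf_le_one ht h0 h1) i k
    have h7 := Lt_nonneg hg0.le hg1 i j
    calc Lt (gf t θ) i j * Lt (lf t θ) i k ≤ Lt (gf t θ) i j * 1 :=
          mul_le_mul_of_nonneg_left h5 h7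
      _ ≤ _ := by rw [mul_one]; linarith
  unfold Fk
  calc gf t θ * Rs (gf t θ) (lf t θ) j k ≤ 1 * Rs (gf t θ) (lf t θ) j k :=
        mul_le_mul_of_nonneg_right hg1 hR
    _ ≤ _ := by rw [one_mul]; exact h2

lemma hasSum_Lt {g : ℝ} (h0 : 0 < g) (h1 : g ≤ 1) (i : ℕ) : HasSum (fun j => Lt g i j) (1 / g) := by
  have hr : ‖1 - g‖ < 1 := by
    rw [Real.norm_eq_abs, abs_of_nonneg (by linarith)]
    linarith
  have hs := hasSum_choose_mul_geometric_of_norm_lt_one (𝕜 := ℝ) i hr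
  have hinj : Function.Injective (fun n : ℕ => n + i) := fun a b h => by simpa using h
  rw [← hinj.hasSum_iff]
  · have e : (fun j => Lt g i j) ∘ (fun n : ℕ => n + i) =
        fun n => g ^ i * (((n + i).choose i : ℝ) * (1 - g) ^ n) := by
      funext n
      simp only [Function.comp, Lt, Nat.add_sub_cancel]
      ring
    rw [e]
    have := hs.mul_left (g ^ i)
    have e2 : g ^ i * (1 / (1 - (1 - g)) ^ (i + 1)) = 1 / g := by
      have e3 : 1 - (1 - g) = g := by ring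
      rw [e3, pow_succ]
      field_simp
    rw [e2] at this
    exact this
  · intro x hx
    have : x < i := by
      by_contra h
      exact hx ⟨x - i, by simp; omega⟩
    exact Lt_eq_zero g this

lemma hasSum_Fk {t θ : ℝ} (ht : 0 ≤ t) (h1 : θ ≤ 1) (k : ℕ) :
    HasSum (fun j => Fk t θ j k) 1 := by
  have hg0 := gf_pos ht h1
  have hg1 := gf_le_one ht h1
  have h := hasSum_sum (s := range (k + 1))
    (f := fun i j => Lt (gf t θ) i j * Lt (lf t θ) i k)
    (a := fun i => 1 / gf t θ * Lt (lf t θ) i k)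
    (fun i _ => (hasSum_Lt hg0 hg1 i).mul_right _)
  have h2 := h.mul_left (gf t θ)
  have e : gf t θ * ∑ i ∈ range (k + 1), 1 / gf t θ * Lt (lf t θ) i k = 1 := by
    have e2 := Lt_sum (lam := lf t θ) k
    rw [← mul_sum, e2]
    field_simp
  rw [e] at h2
  exact h2

/-- The thermal sequence with mean `t`. -/
noncomputable def thermal (t : ℝ) (j : ℕ) : ℝ := 1 / (1 + t) * (t / (1 + t)) ^ j

/-- The thermal flow of a finitely supported sequence. -/
noncomputable def flow (t θ : ℝ) (N : ℕ) (σ : ℕ → ℝ) (j : ℕ) : ℝ :=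
  ∑ k ∈ range (N + 1), σ k * Fk t θ j k

lemma Lop_sum {ι : Type*} (t : ℝ) (s : Finset ι) (a : ι → ℝ) (f : ι → ℕ → ℝ) (j : ℕ) :
    Lop t (fun j => ∑ k ∈ s, a k * f k j) j = ∑ k ∈ s, a k * Lop t (f k) j := by
  unfold Lop
  simp only [mul_sum, ← sum_sub_distrib, ← sum_add_distrib]
  apply sum_congr rfl
  intro k _
  ring

lemma hasDerivAt_flow {t θ : ℝ} (ht : 0 ≤ t) (h0 : 0 < θ) (h1 : θ ≤ 1) (N : ℕ) (σ : ℕ → ℝ)
    (j : ℕ) :
    HasDerivAt (fun θ => flow t θ N σ j) (-Lop t (flow t θ N σ) j / θ) θ := by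
  have h := HasDerivAt.fun_sum (u := range (N + 1)) (A := fun k θ => σ k * Fk t θ j k)
    (A' := fun k => σ k * (-Lop t (fun j => Fk t θ j k) j / θ))
    (fun k _ => (hasDerivAt_Fk ht h0 h1 j k).const_mul (σ k))
  refine h.congr_deriv ?_
  have : flow t θ N σ = fun j => ∑ k ∈ range (N + 1), σ k * (fun k j => Fk t θ j k) k j := rfl
  rw [this, Lop_sum, neg_div, sum_div, ← sum_neg_distrib]
  apply sum_congr rfl
  intro k _
  ring

/-- A finitely supported nonincreasing probability sequence. -/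
structure FinPassive (σ : ℕ → ℝ) (N : ℕ) : Prop where
  nonneg : ∀ k, 0 ≤ σ k
  anti : Antitone σ
  supp : ∀ k, N < k → σ k = 0
  sum : ∑ k ∈ range (N + 1), σ k = 1

section FlowProps
variable {σ : ℕ → ℝ} {N : ℕ}

lemma FinPassive.zero_pos (h : FinPassive σ N) : 0 < σ 0 := by
  by_contra hne
  have h0 : σ 0 = 0 := le_antisymm (not_lt.mp hne) (h.nonneg 0)
  have : ∑ k ∈ range (N + 1), σ k = 0 := by
    apply sum_eq_zero
    intro k _
    exact le_antisymm (by rw [← h0]; exact h.anti (Nat.zero_le k)) (h.nonneg k)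
  rw [h.sum] at this
  exact one_ne_zero this

lemma flow_nonneg (h : FinPassive σ N) {t θ : ℝ} (ht : 0 ≤ t) (h0 : 0 ≤ θ) (h1 : θ ≤ 1) (j : ℕ) :
    0 ≤ flow t θ N σ j :=
  sum_nonneg fun k _ => mul_nonneg (h.nonneg k) (Fk_nonneg ht h0 h1 j k)

lemma flow_lower (h : FinPassive σ N) {t θ : ℝ} (ht : 0 ≤ t) (h0 : 0 ≤ θ) (h1 : θ ≤ 1) (j : ℕ) :
    σ 0 * (gf t θ * (1 - gf t θ) ^ j) ≤ flow t θ N σ j := by
  have := single_le_sum (f := fun k => σ k * Fk t θ j k) (s := range (N + 1))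
    (fun k _ => mul_nonneg (h.nonneg k) (Fk_nonneg ht h0 h1 j k)) (mem_range.mpr (Nat.succ_pos N))
  simp only [Fk_zero] at this
  exact this

/-- The constant of the uniform upper bound. -/
noncomputable def Cflow (t ρ : ℝ) (N : ℕ) (σ : ℕ → ℝ) : ℝ :=
  ∑ k ∈ range (N + 1), σ k * DF (t / (1 + t)) ρ k

lemma flow_upper (h : FinPassive σ N) {t θ ρ : ℝ} (ht : 0 ≤ t) (h0 : 0 ≤ θ) (h1 : θ ≤ 1)
    (hρ : t / (1 + t) < ρ) (j : ℕ) : flow t θ N σ j ≤ Cflow t ρ N σ * ρ ^ j := by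
  unfold flow Cflow
  rw [sum_mul]
  apply sum_le_sum
  intro k _
  rw [mul_assoc]
  exact mul_le_mul_of_nonneg_left (Fk_le ht h0 h1 hρ j k) (h.nonneg k)

lemma flow_hasSum (h : FinPassive σ N) {t θ : ℝ} (ht : 0 ≤ t) (h1 : θ ≤ 1) :
    HasSum (flow t θ N σ) 1 := by
  have h2 := hasSum_sum (s := range (N + 1)) (f := fun k j => σ k * Fk t θ j k)
    (a := fun k => σ k * 1) (fun k _ => (hasSum_Fk ht h1 k).mul_left (σ k))
  simp only [mul_one, h.sum] at h2
  exact h2

/-- Summation by parts for the thinning kernel. -/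
lemma abel_thin (lam : ℝ) (σ : ℕ → ℝ) (i N : ℕ) :
    ∑ k ∈ range (N + 1), (σ k - σ (k + 1)) * Lt lam (i + 1) (k + 1) +
      σ (N + 1) * Lt lam (i + 1) (N + 1) =
    lam * ∑ k ∈ range (N + 1), σ k * (Lt lam i k - Lt lam (i + 1) k) := by
  induction N with
  | zero =>
    simp only [zero_add, sum_range_one, Lt_succ_succ lam i 0, Lt_succ_zero]
    ring
  | succ N ih =>
    rw [sum_range_succ, sum_range_succ (fun k => σ k * (Lt lam i k - Lt lam (i + 1) k)),
      mul_add, ← ih, Lt_succ_succ lam i (N + 1)]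
    ring

/-- The thinned sequence. -/
noncomputable def Xs (lam : ℝ) (N : ℕ) (σ : ℕ → ℝ) (i : ℕ) : ℝ :=
  ∑ k ∈ range (N + 1), σ k * (Lt lam i k - Lt lam (i + 1) k)

lemma Xs_eq (h : FinPassive σ N) (lam : ℝ) (i : ℕ) :
    lam * Xs lam N σ i = ∑ k ∈ range (N + 1), (σ k - σ (k + 1)) * Lt lam (i + 1) (k + 1) := by
  unfold Xs
  rw [← abel_thin, h.supp (N + 1) (by omega)]
  ring

lemma Xs_nonneg (h : FinPassive σ N) {lam : ℝ} (h0 : 0 < lam) (h1 : lam ≤ 1) (i : ℕ) :
    0 ≤ Xs lam N σ i := by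
  have h2 := Xs_eq h lam i
  have h3 : 0 ≤ lam * Xs lam N σ i := by
    rw [h2]
    apply sum_nonneg
    intro k _
    have := h.anti (Nat.le_succ k)
    exact mul_nonneg (by linarith) (Lt_nonneg h0.le h1 _ _)
  exact nonneg_of_mul_nonneg_right h3 h0

lemma Xs_zero_pos (h : FinPassive σ N) {lam : ℝ} (h0 : 0 < lam) (h1 : lam < 1) :
    0 < Xs lam N σ 0 := by
  have h2 := Xs_eq h lam 0
  have hLt : ∀ k, 0 < Lt lam 1 (k + 1) := by
    intro k
    have hk : 0 < ((k + 1).choose 1 : ℝ) := by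
      rw [Nat.choose_one_right]; positivity
    have h3 : 0 < 1 - lam := by linarith
    unfold Lt
    positivity
  have hex : ∃ k ∈ range (N + 1), 0 < σ k - σ (k + 1) := by
    by_contra hne
    push Not at hne
    have hs : ∑ k ∈ range (N + 1), (σ k - σ (k + 1)) ≤ 0 := sum_nonpos hne
    rw [sum_range_sub', h.supp (N + 1) (by omega)] at hs
    linarith [h.zero_pos]
  have h3 : 0 < lam * Xs lam N σ 0 := by
    rw [h2]
    apply sum_pos'
    · intro k _
      have := h.anti (Nat.le_succ k)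
      exact mul_nonneg (by linarith) (hLt k).le
    · obtain ⟨k, hk, hk2⟩ := hex
      exact ⟨k, hk, mul_pos hk2 (hLt k)⟩
  exact (mul_pos_iff_of_pos_left h0).mp h3

lemma Fk_sub_succ {t θ : ℝ} (j k : ℕ) :
    Fk t θ j k - Fk t θ (j + 1) k = gf t θ ^ 2 *
      (Rs (gf t θ) (lf t θ) j k - Qs (gf t θ) (lf t θ) j k) := by
  unfold Fk
  rw [Rs_succ]
  ring

lemma Rs_sub_Qs (g lam : ℝ) {j k M : ℕ} (hk : k ≤ M) :
    Rs g lam j k - Qs g lam j k =
      ∑ i ∈ range (M + 1), Lt g i j * (Lt lam i k - Lt lam (i + 1) k) := by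
  unfold Rs Qs
  rw [← sum_sub_distrib]
  have hsub : range (k + 1) ⊆ range (M + 1) := range_subset_range.mpr (by omega)
  rw [← sum_subset hsub]
  · apply sum_congr rfl
    intro i _
    ring
  · intro i _ hi
    have hi' : k < i := by
      simp only [mem_range, not_lt] at hi
      omega
    rw [Lt_eq_zero lam hi', Lt_eq_zero lam (show k < i + 1 by omega)]
    ring

lemma flow_sub_succ {t θ : ℝ} (j : ℕ) :
    flow t θ N σ j - flow t θ N σ (j + 1) = gf t θ ^ 2 *
      ∑ i ∈ range (N + 1), Lt (gf t θ) i j * Xs (lf t θ) N σ i := by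
  unfold flow Xs
  rw [← sum_sub_distrib]
  have e1 : ∀ k ∈ range (N + 1), σ k * Fk t θ j k - σ k * Fk t θ (j + 1) k =
      gf t θ ^ 2 * ∑ i ∈ range (N + 1), σ k * (Lt (gf t θ) i j *
        (Lt (lf t θ) i k - Lt (lf t θ) (i + 1) k)) := by
    intro k hk
    have hk' : k ≤ N := by
      simp only [mem_range] at hk
      omega
    rw [← mul_sub, Fk_sub_succ, Rs_sub_Qs _ _ hk', ← mul_sum]
    ring
  rw [sum_congr rfl e1, ← mul_sum, sum_comm]
  congr 1
  apply sum_congr rfl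
  intro i _
  rw [mul_sum]
  apply sum_congr rfl
  intro k _
  ring

lemma flow_anti (h : FinPassive σ N) {t θ : ℝ} (ht : 0 < t) (h0 : 0 < θ) (h1 : θ < 1) (j : ℕ) :
    flow t θ N σ (j + 1) < flow t θ N σ j := by
  have hg0 := gf_pos ht.le h1.le
  have hg1 := gf_le_one ht.le h1.le
  have hl0 : 0 < lf t θ := mul_pos h0 hg0
  have hl1 := lf_lt_one ht.le h0.le h1
  have hs : 0 < ∑ i ∈ range (N + 1), Lt (gf t θ) i j * Xs (lf t θ) N σ i := by
    apply sum_pos'
    · intro i _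
      exact mul_nonneg (Lt_nonneg hg0.le hg1 _ _) (Xs_nonneg h hl0 hl1.le i)
    · refine ⟨0, mem_range.mpr (Nat.succ_pos N), mul_pos ?_ (Xs_zero_pos h hl0 hl1)⟩
      rw [Lt_zero_left]
      exact pow_pos (one_sub_gf_pos ht h1) j
  have := flow_sub_succ (N := N) (σ := σ) (t := t) (θ := θ) j
  have h2 : 0 < gf t θ ^ 2 * ∑ i ∈ range (N + 1), Lt (gf t θ) i j * Xs (lf t θ) N σ i := by
    positivity
  linarith

lemma gf_one (t : ℝ) : gf t 1 = 1 := by simp [gf]

lemma lf_one (t : ℝ) : lf t 1 = 1 := by simp [lf, gf]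

lemma lf_zero (t : ℝ) : lf t 0 = 0 := by simp [lf]

lemma gf_zero (t : ℝ) : gf t 0 = 1 / (1 + t) := by simp [gf]

lemma Lt_one_eq (i j : ℕ) : Lt 1 i j = if i = j then 1 else 0 := by
  unfold Lt
  rcases lt_trichotomy i j with h | h | h
  · have : j - i ≠ 0 := by omega
    simp [h.ne, this]
  · subst h
    simp
  · simp [h.ne', Nat.choose_eq_zero_of_lt h]

lemma Lt_zero_eq (i k : ℕ) : Lt 0 i k = if i = 0 then 1 else 0 := by
  unfold Lt
  cases i with
  | zero => simp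
  | succ i => simp

lemma Fk_one (t : ℝ) (j k : ℕ) : Fk t 1 j k = if j = k then 1 else 0 := by
  unfold Fk Rs
  rw [gf_one, lf_one, one_mul]
  simp only [Lt_one_eq]
  rw [sum_eq_single k]
  · simp [eq_comm]
  · intro i hi hik
    simp [hik]
  · simp

lemma Fk_zero_θ {t : ℝ} (ht : 0 ≤ t) (j k : ℕ) : Fk t 0 j k = thermal t j := by
  unfold Fk Rs thermal
  rw [lf_zero, gf_zero]
  simp only [Lt_zero_eq]
  rw [sum_eq_single 0]
  · simp only [if_true, mul_one, Lt_zero_left]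
    have : (1 + t) ≠ 0 := by positivity
    congr 2
    field_simp
    ring
  · intro i _ hi
    simp [hi]
  · simp

lemma flow_one (h : FinPassive σ N) (t : ℝ) (j : ℕ) : flow t 1 N σ j = σ j := by
  unfold flow
  simp only [Fk_one]
  by_cases hj : j ≤ N
  · rw [sum_eq_single j]
    · simp
    · intro k _ hk
      simp [hk.symm]
    · intro hj2
      simp only [mem_range, not_lt] at hj2
      omega
  · rw [h.supp j (by omega)]
    apply sum_eq_zero
    intro k hk
    have : j ≠ k := by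
      simp only [mem_range] at hk
      omega
    simp [this]

lemma flow_zero (h : FinPassive σ N) {t : ℝ} (ht : 0 ≤ t) (j : ℕ) :
    flow t 0 N σ j = thermal t j := by
  unfold flow
  simp only [Fk_zero_θ ht]
  rw [← sum_mul, h.sum, one_mul]

lemma continuous_Lt (i k : ℕ) : Continuous (fun x => Lt x i k) := by
  unfold Lt
  fun_prop

lemma continuousAt_Fk {t θ : ℝ} (ht : 0 ≤ t) (h1 : θ ≤ 1) (j k : ℕ) :
    ContinuousAt (fun θ => Fk t θ j k) θ := by
  have hg : ContinuousAt (gf t) θ := (hasDerivAt_gf ht h1).continuousAt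
  have hl : ContinuousAt (lf t) θ := (hasDerivAt_lf ht h1).continuousAt
  unfold Fk Rs
  refine hg.mul ?_
  refine tendsto_finsetSum _ fun i _ => ?_
  exact ((continuous_Lt i j).continuousAt.comp hg).mul ((continuous_Lt i k).continuousAt.comp hl)

lemma continuousAt_flow {t θ : ℝ} (ht : 0 ≤ t) (h1 : θ ≤ 1) (N : ℕ) (σ : ℕ → ℝ) (j : ℕ) :
    ContinuousAt (fun θ => flow t θ N σ j) θ := by
  unfold flow
  refine tendsto_finsetSum _ fun k _ => ?_
  exact continuousAt_const.mul (continuousAt_Fk ht h1 j k)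

end FlowProps

end Vale.Agent.Lib.P369
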