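import Vale.Agent.Lib.P369.Riesz

open Finset

namespace Vale.Agent.Lib.P369

/-- A finitely supported nonnegative sequence has a nonincreasing rearrangement. -/
lemma exists_sort {p : ℕ → ℝ} (N : ℕ) (h0 : ∀ i, 0 ≤ p i) (hN : ∀ i, N ≤ i → p i = 0) :
    ∃ σ : Equiv.Perm ℕ, Antitone (p ∘ σ) ∧ ∀ i, N ≤ i → σ i = i := by
  let f : Fin N → ℝ := fun i => -p i
  let π : Equiv.Perm (Fin N) := Tuple.sort f
  have hmono : Monotone (f ∘ π) := Tuple.monotone_sort f
  let e : Fin N ≃ {i // i < N} := Fin.equivSubtype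
  let σ : Equiv.Perm ℕ := π.extendDomain e
  have hin : ∀ i (h : i < N), σ i = (π ⟨i, h⟩ : ℕ) := by
    intro i h
    exact Equiv.Perm.extendDomain_apply_image π e ⟨i, h⟩
  have hout : ∀ i, N ≤ i → σ i = i := by
    intro i hi
    exact Equiv.Perm.extendDomain_apply_not_subtype π e (by simpa using hi)
  refine ⟨σ, ?_, hout⟩
  intro a b hab
  simp only [Function.comp]
  by_cases hb : b < N
  · have ha : a < N := lt_of_le_of_lt hab hb
    rw [hin a ha, hin b hb]
    have h3 := hmono (show (⟨a, ha⟩ : Fin N) ≤ ⟨b, hb⟩ from hab)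
    simp only [Function.comp, f] at h3
    linarith
  · rw [hout b (not_lt.mp hb), hN b (not_lt.mp hb)]
    exact h0 _

/-- Abel summation with a vanishing last value. -/
lemma abel_sum (u F : ℕ → ℝ) (N : ℕ) :
    ∑ k ∈ range N, u k * F k =
      ∑ r ∈ range N, (u r - u (r + 1)) * ∑ k ∈ range (r + 1), F k +
        u N * ∑ k ∈ range N, F k := by
  induction N with
  | zero => simp
  | succ n ih =>
    rw [sum_range_succ, ih, sum_range_succ (fun r => (u r - u (r + 1)) * ∑ k ∈ range (r + 1), F k)]
    rw [sum_range_succ F n]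
    ring

/-- Double Abel summation. -/
lemma abel_double (u v : ℕ → ℝ) (F : ℕ → ℕ → ℝ) (N : ℕ) (hu : u N = 0) (hv : v N = 0) :
    ∑ k ∈ range N, ∑ l ∈ range N, u k * v l * F k l =
      ∑ r ∈ range N, ∑ s ∈ range N, (u r - u (r + 1)) * (v s - v (s + 1)) *
        ∑ k ∈ range (r + 1), ∑ l ∈ range (s + 1), F k l := by
  have e1 : ∀ k, ∑ l ∈ range N, u k * v l * F k l =
      u k * ∑ s ∈ range N, (v s - v (s + 1)) * ∑ l ∈ range (s + 1), F k l := by
    intro k
    have := abel_sum v (F k) N
    rw [hv, zero_mul, add_zero] at this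
    rw [← this, mul_sum]
    exact sum_congr rfl fun l _ => by ring
  simp only [e1]
  have := abel_sum u (fun k => ∑ s ∈ range N, (v s - v (s + 1)) * ∑ l ∈ range (s + 1), F k l) N
  rw [hu, zero_mul, add_zero] at this
  rw [this]
  refine sum_congr rfl fun r _ => ?_
  rw [mul_sum]
  simp only [mul_sum]
  rw [sum_comm]
  refine sum_congr rfl fun s _ => ?_
  refine sum_congr rfl fun k _ => sum_congr rfl fun l _ => ?_
  ring

section Major
variable {η : ℝ} (h0 : 0 ≤ η) (h1 : η ≤ 1)
include h0 h1

/-- **Output majorization for finitely supported inputs.** The weight of the output of `p, q` on any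
finite set `J` is at most the weight on an initial segment of the same size of the output of the
rearranged inputs. -/
theorem major_fin {p q : ℕ → ℝ} (N : ℕ) {σ τ : Equiv.Perm ℕ}
    (hpa : Antitone (p ∘ σ)) (hqa : Antitone (q ∘ τ))
    (hpN : ∀ i, N ≤ i → p i = 0) (hqN : ∀ i, N ≤ i → q i = 0)
    (hσ : ∀ i, N ≤ i → σ i = i) (hτ : ∀ i, N ≤ i → τ i = i) (J : Finset ℕ) :
    ∑ j ∈ J, ∑ k ∈ range N, ∑ l ∈ range N, p k * q l * trans η j k l ≤
      ∑ j ∈ range J.card, ∑ k ∈ range N, ∑ l ∈ range N, p (σ k) * q (τ l) * trans η j k l := by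
  have hs1 : {a | σ a ≠ a} ⊆ (range N : Finset ℕ) := by
    intro a ha
    simp only [Set.mem_ofPred_eq] at ha
    simp only [coe_range, Set.mem_Iio]
    by_contra h
    exact ha (hσ a (not_lt.mp h))
  have hs2 : {a | τ a ≠ a} ⊆ (range N : Finset ℕ) := by
    intro a ha
    simp only [Set.mem_ofPred_eq] at ha
    simp only [coe_range, Set.mem_Iio]
    by_contra h
    exact ha (hτ a (not_lt.mp h))
  set F : ℕ → ℕ → ℝ := fun k l => ∑ j ∈ J, trans η j (σ k) (τ l) with hF
  set F' : ℕ → ℕ → ℝ := fun k l => ∑ j ∈ range J.card, trans η j k l with hF'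
  have eL : ∑ j ∈ J, ∑ k ∈ range N, ∑ l ∈ range N, p k * q l * trans η j k l =
      ∑ k ∈ range N, ∑ l ∈ range N, (p ∘ σ) k * (q ∘ τ) l * F k l := by
    have e1 : ∀ j, ∑ k ∈ range N, ∑ l ∈ range N, p k * q l * trans η j k l =
        ∑ k ∈ range N, ∑ l ∈ range N, p (σ k) * q (τ l) * trans η j (σ k) (τ l) := by
      intro j
      rw [← Equiv.Perm.sum_comp σ (range N) _ hs1]
      refine sum_congr rfl fun k _ => ?_
      rw [← Equiv.Perm.sum_comp τ (range N) _ hs2]
    simp only [e1]
    rw [sum_comm]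
    refine sum_congr rfl fun k _ => ?_
    rw [sum_comm]
    refine sum_congr rfl fun l _ => ?_
    simp only [hF, mul_sum, Function.comp]
  have eR : ∑ j ∈ range J.card, ∑ k ∈ range N, ∑ l ∈ range N, p (σ k) * q (τ l) * trans η j k l =
      ∑ k ∈ range N, ∑ l ∈ range N, (p ∘ σ) k * (q ∘ τ) l * F' k l := by
    rw [sum_comm]
    refine sum_congr rfl fun k _ => ?_
    rw [sum_comm]
    refine sum_congr rfl fun l _ => ?_
    simp only [hF', mul_sum, Function.comp]
  rw [eL, eR]
  have hu : (p ∘ σ) N = 0 := by simp [hσ N le_rfl, hpN N le_rfl]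
  have hv : (q ∘ τ) N = 0 := by simp [hτ N le_rfl, hqN N le_rfl]
  rw [abel_double _ _ F N hu hv, abel_double _ _ F' N hu hv]
  refine sum_le_sum fun r _ => sum_le_sum fun s _ => ?_
  refine mul_le_mul_of_nonneg_left ?_ (mul_nonneg (sub_nonneg.mpr (hpa (Nat.le_succ r)))
    (sub_nonneg.mpr (hqa (Nat.le_succ s))))
  have hR := riesz_finset h0 h1 J ((range (r + 1)).map σ.toEmbedding) ((range (s + 1)).map τ.toEmbedding)
  simp only [card_map, card_range, sum_map, Equiv.coe_toEmbedding] at hR
  calc ∑ k ∈ range (r + 1), ∑ l ∈ range (s + 1), F k l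
      = ∑ j ∈ J, ∑ k ∈ range (r + 1), ∑ l ∈ range (s + 1), trans η j (σ k) (τ l) := by
        simp only [hF]
        have e : ∀ k, ∑ l ∈ range (s + 1), ∑ j ∈ J, trans η j (σ k) (τ l) =
            ∑ j ∈ J, ∑ l ∈ range (s + 1), trans η j (σ k) (τ l) := fun k => sum_comm
        simp only [e]
        exact sum_comm
    _ ≤ Vb η (r + 1) (s + 1) J.card := hR
    _ = ∑ k ∈ range (r + 1), ∑ l ∈ range (s + 1), F' k l := by
        simp only [hF', Vb, Sb]
        have e : ∀ k, ∑ l ∈ range (s + 1), ∑ j ∈ range J.card, trans η j k l =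
            ∑ j ∈ range J.card, ∑ l ∈ range (s + 1), trans η j k l := fun k => sum_comm
        simp only [e]
        exact sum_comm

end Major

/-- `-x log x ≤ a x + exp(-a-1)`. -/
lemma negMulLog_le_tangent' {x : ℝ} (hx : 0 ≤ x) (a : ℝ) :
    Real.negMulLog x ≤ a * x + Real.exp (-a - 1) := by
  rcases eq_or_lt_of_le hx with h | h
  · rw [← h]
    simp only [Real.negMulLog_zero, mul_zero, zero_add]
    exact (Real.exp_pos _).le
  · have h1 : 0 < Real.exp (-a - 1) / x := div_pos (Real.exp_pos _) h
    have h2 := Real.log_le_sub_one_of_pos h1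
    rw [Real.log_div (Real.exp_pos _).ne' h.ne', Real.log_exp] at h2
    unfold Real.negMulLog
    have h3 : x * (-a - 1 - Real.log x) ≤ x * (Real.exp (-a - 1) / x - 1) :=
      mul_le_mul_of_nonneg_left h2 hx
    have h4 : x * (Real.exp (-a - 1) / x - 1) = Real.exp (-a - 1) - x := by
      field_simp
    rw [h4] at h3
    nlinarith

/-- The weighted Abel inequality used for the entropy. -/
lemma abel_weights (w x : ℕ → ℝ) (D : ℕ) (hw : ∀ i, i + 1 ≤ D → w i ≤ w (i + 1))
    (hX : ∀ m, m ≤ D + 1 → 0 ≤ ∑ i ∈ range m, x i) (hT : ∑ i ∈ range (D + 1), x i = 0) :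
    ∑ i ∈ range (D + 1), w i * x i ≤ 0 := by
  have key : ∀ n, n ≤ D → ∑ i ∈ range n, w i * x i ≤ w n * ∑ i ∈ range n, x i := by
    intro n
    induction n with
    | zero => simp
    | succ n ih =>
      intro hn
      rw [sum_range_succ, sum_range_succ x]
      have h1 := ih (by omega)
      have h2 : w n * (∑ i ∈ range n, x i + x n) ≤ w (n + 1) * (∑ i ∈ range n, x i + x n) := by
        have := hX (n + 1) (by omega)
        rw [sum_range_succ] at this
        exact mul_le_mul_of_nonneg_right (hw n hn) this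
      nlinarith
  have h1 := key D le_rfl
  rw [sum_range_succ]
  rw [sum_range_succ] at hT
  have : w D * ∑ i ∈ range D, x i + w D * x D = 0 := by
    rw [← mul_add, hT, mul_zero]
  linarith

/-- Entropy comparison for nonincreasing sequences (Karamata for `-x log x`). -/
lemma entropy_karamata : ∀ (D : ℕ) (a b : ℕ → ℝ), (∀ i, 0 ≤ a i) → (∀ i, 0 ≤ b i) →
    Antitone a → (∀ m, m ≤ D → ∑ i ∈ range m, a i ≤ ∑ i ∈ range m, b i) →
    ∑ i ∈ range D, a i = ∑ i ∈ range D, b i →
    ∑ i ∈ range D, Real.negMulLog (b i) ≤ ∑ i ∈ range D, Real.negMulLog (a i) := by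
  intro D
  induction D with
  | zero => simp
  | succ D ih =>
    intro a b ha hb hanti hm hT
    by_cases hlast : a D = 0
    · have h1 := hm D (by omega)
      have h2 := hT
      rw [sum_range_succ, sum_range_succ b, hlast, add_zero] at h2
      have hbD : b D = 0 := by
        have := hb D
        linarith
      have h3 : ∑ i ∈ range D, a i = ∑ i ∈ range D, b i := by
        rw [hbD, add_zero] at h2
        exact h2
      rw [sum_range_succ, sum_range_succ _ D, hlast, hbD]
      simpa using ih a b ha hb hanti (fun m hm' => hm m (by omega)) h3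
    · have hpos : ∀ i, i ≤ D → 0 < a i := fun i hi =>
        lt_of_lt_of_le (lt_of_le_of_ne (ha D) (Ne.symm hlast)) (hanti hi)
      set w : ℕ → ℝ := fun i => -Real.log (a i) with hw
      have hwm : ∀ i, i + 1 ≤ D → w i ≤ w (i + 1) := by
        intro i hi
        simp only [hw]
        have := Real.log_le_log (hpos (i + 1) hi) (hanti (Nat.le_succ i))
        linarith
      have hA := abel_weights w (fun i => b i - a i) D hwm
        (fun m hm' => by
          rw [sum_sub_distrib]
          linarith [hm m hm'])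
        (by rw [sum_sub_distrib]; linarith)
      have hb1 : ∀ i ∈ range (D + 1), Real.negMulLog (b i) ≤ w i * b i + a i - b i := by
        intro i hi
        have hi' : i ≤ D := by simp only [mem_range] at hi; omega
        have h1 := negMulLog_le_tangent' (hb i) (w i - 1)
        have h2 : Real.exp (-(w i - 1) - 1) = a i := by
          have : -(w i - 1) - 1 = Real.log (a i) := by simp only [hw]; ring
          rw [this, Real.exp_log (hpos i hi')]
        rw [h2] at h1
        linarith
      have ha1 : ∀ i ∈ range (D + 1), w i * a i = Real.negMulLog (a i) := by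
        intro i _
        simp only [hw, Real.negMulLog]
        ring
      calc ∑ i ∈ range (D + 1), Real.negMulLog (b i)
          ≤ ∑ i ∈ range (D + 1), (w i * b i + a i - b i) := sum_le_sum hb1
        _ = ∑ i ∈ range (D + 1), w i * b i := by
            rw [sum_sub_distrib, sum_add_distrib, hT]
            ring
        _ ≤ ∑ i ∈ range (D + 1), w i * a i := by
            have e : ∑ i ∈ range (D + 1), w i * (b i - a i) =
                ∑ i ∈ range (D + 1), w i * b i - ∑ i ∈ range (D + 1), w i * a i := by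
              rw [← sum_sub_distrib]
              exact sum_congr rfl fun i _ => by ring
            rw [e] at hA
            linarith
        _ = _ := sum_congr rfl ha1

/-- Entropy comparison from majorization by a nonincreasing sequence. -/
theorem entropy_le_of_major {r b : ℕ → ℝ} (D : ℕ) (hr0 : ∀ i, 0 ≤ r i) (hb0 : ∀ i, 0 ≤ b i)
    (hrD : ∀ i, D ≤ i → r i = 0)
    (hT : ∑ i ∈ range D, r i = ∑ i ∈ range D, b i)
    (hmaj : ∀ J : Finset ℕ, ∑ j ∈ J, r j ≤ ∑ j ∈ range J.card, b j) :
    ∑ i ∈ range D, Real.negMulLog (b i) ≤ ∑ i ∈ range D, Real.negMulLog (r i) := by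
  obtain ⟨ρ, hanti, hρ⟩ := exists_sort D hr0 hrD
  have hs1 : {a | ρ a ≠ a} ⊆ (range D : Finset ℕ) := by
    intro a ha
    simp only [Set.mem_ofPred_eq] at ha
    simp only [coe_range, Set.mem_Iio]
    by_contra h
    exact ha (hρ a (not_lt.mp h))
  have e1 : ∑ i ∈ range D, r (ρ i) = ∑ i ∈ range D, r i := Equiv.Perm.sum_comp ρ (range D) r hs1
  have e2 : ∑ i ∈ range D, Real.negMulLog (r (ρ i)) = ∑ i ∈ range D, Real.negMulLog (r i) :=
    Equiv.Perm.sum_comp ρ (range D) (fun i => Real.negMulLog (r i)) hs1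
  rw [← e2]
  refine entropy_karamata D (r ∘ ρ) b (fun i => hr0 _) hb0 hanti (fun m _ => ?_) (by
    simp only [Function.comp]; rw [e1, hT])
  have h := hmaj ((range m).map ρ.toEmbedding)
  simpa using h

end Vale.Agent.Lib.P369
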