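import Vale.Agent.Lib.P369.FinalN
import Vale.Agent.Lib.P369.RieszMajor

open Finset Filter Topology

namespace Vale.Agent.Lib.P369

section Fin
variable {η : ℝ} {p q : ℕ → ℝ}

lemma output_eq_sum (N : ℕ) (hpN : ∀ i, N ≤ i → p i = 0) (hqN : ∀ i, N ≤ i → q i = 0) (j : ℕ) :
    output η p q j = ∑ k ∈ range N, ∑ l ∈ range N, p k * q l * trans η j k l := by
  unfold output
  rw [tsum_eq_sum (s := range N ×ˢ range N), sum_product]
  rintro ⟨k, l⟩ hx
  simp only [mem_product, mem_range, not_and_or, not_lt] at hx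
  rcases hx with h | h
  · simp [hpN k h]
  · simp [hqN l h]

/-- The linearised inequality for arbitrary finitely supported inputs. -/
theorem spade_fin_any {r s : ℝ} (N : ℕ) (hp0 : ∀ i, 0 ≤ p i) (hq0 : ∀ i, 0 ≤ q i)
    (hpN : ∀ i, N ≤ i → p i = 0) (hqN : ∀ i, N ≤ i → q i = 0)
    (hpS : ∑ i ∈ range N, p i = 1) (hqS : ∑ i ∈ range N, q i = 1)
    (h0 : 0 < η) (h1 : η < 1) (hr : 0 < r) (hs : 0 < s) :
    η * ((entropy p - g r) / Lg r) + (1 - η) * ((entropy q - g s) / Lg s) ≤
      (entropy (output η p q) - g (η * r + (1 - η) * s)) / Lg (η * r + (1 - η) * s) := by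
  obtain ⟨σ, hσa, hσ⟩ := exists_sort N hp0 hpN
  obtain ⟨τ', hτa, hτ⟩ := exists_sort N hq0 hqN
  have hs1 : {a | σ a ≠ a} ⊆ (range N : Finset ℕ) := by
    intro a ha
    simp only [Set.mem_ofPred_eq] at ha
    simp only [coe_range, Set.mem_Iio]
    by_contra h
    exact ha (hσ a (not_lt.mp h))
  have hs2 : {a | τ' a ≠ a} ⊆ (range N : Finset ℕ) := by
    intro a ha
    simp only [Set.mem_ofPred_eq] at ha
    simp only [coe_range, Set.mem_Iio]
    by_contra h
    exact ha (hτ a (not_lt.mp h))
  have hPz : ∀ k, N ≤ k → (p ∘ σ) k = 0 := fun k hk => by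
    simp only [Function.comp, hσ k hk, hpN k hk]
  have hQz : ∀ k, N ≤ k → (q ∘ τ') k = 0 := fun k hk => by
    simp only [Function.comp, hτ k hk, hqN k hk]
  have hPS : ∑ i ∈ range N, (p ∘ σ) i = 1 := by
    rw [← hpS]
    exact Equiv.Perm.sum_comp σ (range N) p hs1
  have hQS : ∑ i ∈ range N, (q ∘ τ') i = 1 := by
    rw [← hqS]
    exact Equiv.Perm.sum_comp τ' (range N) q hs2
  have hfin : ∀ {x : ℕ → ℝ} {c : ℕ → ℝ}, (∀ k, N ≤ k → x k = 0) →
      Summable (fun k => c k * x k) := by
    intro x c hx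
    refine summable_of_ne_finset_zero (s := range N) (fun k hk => ?_)
    rw [hx k (by simpa using hk), mul_zero]
  have hP : IsPassive (p ∘ σ) := by
    refine ⟨fun k => hp0 _, hσa, ?_, ?_, hfin hPz⟩
    · exact summable_of_ne_finset_zero (s := range N) (fun k hk => hPz k (by simpa using hk))
    · rw [tsum_eq_sum (s := range N) (fun k hk => hPz k (by simpa using hk))]
      exact hPS
  have hQ : IsPassive (q ∘ τ') := by
    refine ⟨fun k => hq0 _, hτa, ?_, ?_, hfin hQz⟩
    · exact summable_of_ne_finset_zero (s := range N) (fun k hk => hQz k (by simpa using hk))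
    · rw [tsum_eq_sum (s := range N) (fun k hk => hQz k (by simpa using hk))]
      exact hQS
  have key := spade hP hQ h0 h1 hr hs
  have eP : entropy (p ∘ σ) = entropy p := σ.tsum_eq (fun k => Real.negMulLog (p k))
  have eQ : entropy (q ∘ τ') = entropy q := τ'.tsum_eq (fun k => Real.negMulLog (q k))
  rw [eP, eQ] at key
  refine key.trans ?_
  have hm : 0 < η * r + (1 - η) * s := by
    have : 0 < 1 - η := by linarith
    positivity
  refine div_le_div_of_nonneg_right (sub_le_sub_right ?_ _) (Lg_pos hm).le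
  -- now the entropy comparison
  set D := 2 * N + 1 with hD
  have hvan : ∀ {x y : ℕ → ℝ}, (∀ i, N ≤ i → x i = 0) → (∀ i, N ≤ i → y i = 0) → ∀ j, D ≤ j →
      output η x y j = 0 := by
    intro x y hx hy j hj
    rw [output_eq_sum N hx hy]
    refine sum_eq_zero fun k hk => sum_eq_zero fun l hl => ?_
    simp only [mem_range] at hk hl
    rw [trans_eq_zero (η := η) (by omega), mul_zero]
  have htot : ∀ {x y : ℕ → ℝ}, (∀ i, N ≤ i → x i = 0) → (∀ i, N ≤ i → y i = 0) →
      ∑ i ∈ range N, x i = 1 → ∑ i ∈ range N, y i = 1 →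
      ∑ j ∈ range D, output η x y j = 1 := by
    intro x y hx hy hxS hyS
    simp only [output_eq_sum N hx hy]
    have e : ∑ j ∈ range D, ∑ k ∈ range N, ∑ l ∈ range N, x k * y l * trans η j k l =
        ∑ k ∈ range N, ∑ l ∈ range N, x k * y l := by
      rw [sum_comm]
      refine sum_congr rfl fun k hk => ?_
      rw [sum_comm]
      refine sum_congr rfl fun l hl => ?_
      simp only [mem_range] at hk hl
      rw [← mul_sum, sum_trans_eq_one h0.le h1.le (J := 2 * N) (by omega), mul_one]
    rw [e, ← sum_mul_sum, hxS, hyS, one_mul]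
  have hr0 : ∀ j, 0 ≤ output η p q j := fun j => tsum_nonneg fun x =>
    mul_nonneg (mul_nonneg (hp0 _) (hq0 _)) (trans_nonneg _ _ _)
  have hb0 : ∀ j, 0 ≤ output η (p ∘ σ) (q ∘ τ') j := fun j => tsum_nonneg fun x =>
    mul_nonneg (mul_nonneg (hp0 _) (hq0 _)) (trans_nonneg _ _ _)
  have hmaj : ∀ J : Finset ℕ, ∑ j ∈ J, output η p q j ≤
      ∑ j ∈ range J.card, output η (p ∘ σ) (q ∘ τ') j := by
    intro J
    simp only [output_eq_sum N hpN hqN, output_eq_sum N hPz hQz]
    exact major_fin h0.le h1.le N hσa hτa hpN hqN hσ hτ J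
  have hle := entropy_le_of_major D hr0 hb0 (hvan hpN hqN)
    (by rw [htot hpN hqN hpS hqS, htot hPz hQz hPS hQS]) hmaj
  unfold entropy
  rw [tsum_eq_sum (s := range D) (fun j hj => by
      rw [hvan hPz hQz j (by simpa using hj), Real.negMulLog_zero]),
    tsum_eq_sum (s := range D) (fun j hj => by
      rw [hvan hpN hqN j (by simpa using hj), Real.negMulLog_zero])]
  exact hle

end Fin

/-- The truncation of a sequence to its first `M` terms, renormalised. -/
noncomputable def cut (p : ℕ → ℝ) (M i : ℕ) : ℝ :=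
  if i < M then p i / ∑ t ∈ range M, p t else 0

abbrev sz1 : ℕ → ℝ := fun k => (k : ℝ)

section Limit
variable {η r s : ℝ} {p q : ℕ → ℝ}

lemma Dist.tendsto_Z (hp : Dist sz1 p) : Tendsto (fun M => ∑ t ∈ range M, p t) atTop (𝓝 1) :=
  hp.hasSum.tendsto_sum_nat

lemma Dist.eventually_Z (hp : Dist sz1 p) : ∀ᶠ M in atTop, 1 / 2 ≤ ∑ t ∈ range M, p t :=
  hp.tendsto_Z.eventually (lt_mem_nhds (by norm_num)) |>.mono fun _ h => h.le

lemma Dist.tendsto_cut (hp : Dist sz1 p) (i : ℕ) :
    Tendsto (fun M => cut p M i) atTop (𝓝 (p i)) := by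
  have h := (tendsto_const_nhds (x := p i)).div hp.tendsto_Z (by norm_num)
  rw [div_one] at h
  refine h.congr' ?_
  filter_upwards [eventually_gt_atTop i] with M hM
  simp [cut, hM]

lemma cut_nonneg (hp0 : ∀ i, 0 ≤ p i) (M i : ℕ) : 0 ≤ cut p M i := by
  unfold cut
  split_ifs
  · exact div_nonneg (hp0 _) (sum_nonneg fun t _ => hp0 t)
  · exact le_rfl

lemma cut_le (hp0 : ∀ i, 0 ≤ p i) {M : ℕ} (hZ : 1 / 2 ≤ ∑ t ∈ range M, p t) (i : ℕ) :
    cut p M i ≤ 2 * p i := by
  unfold cut
  split_ifs
  · have hZ' : 0 < ∑ t ∈ range M, p t := by linarith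
    rw [div_le_iff₀ hZ']
    nlinarith [hp0 i]
  · have := hp0 i
    linarith

lemma cut_zero {M i : ℕ} (h : M ≤ i) : cut p M i = 0 := by
  simp [cut, not_lt.mpr h]

lemma cut_sum (hp0 : ∀ i, 0 ≤ p i) {M : ℕ} (hZ : 1 / 2 ≤ ∑ t ∈ range M, p t) :
    ∑ i ∈ range M, cut p M i = 1 := by
  have hZ' : 0 < ∑ t ∈ range M, p t := by linarith
  have e : ∀ i ∈ range M, cut p M i = p i / ∑ t ∈ range M, p t := fun i hi => by
    simp [cut, mem_range.mp hi]
  rw [sum_congr rfl e, ← sum_div, div_self hZ'.ne']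

lemma cut_linear (M : ℕ) : Summable (fun k : ℕ => ((k : ℝ) + 1) * cut p M k) :=
  summable_of_ne_finset_zero (s := range M) (fun k hk => by
    rw [cut_zero (by simpa using hk), mul_zero])

lemma cut_hasSum (hp0 : ∀ i, 0 ≤ p i) {M : ℕ} (hZ : 1 / 2 ≤ ∑ t ∈ range M, p t) :
    HasSum (cut p M) 1 := by
  rw [← cut_sum hp0 hZ]
  exact hasSum_sum_of_ne_finset_zero (fun k hk => cut_zero (by simpa using hk))

lemma cut_le_one (hp0 : ∀ i, 0 ≤ p i) {M : ℕ} (hZ : 1 / 2 ≤ ∑ t ∈ range M, p t) (i : ℕ) :
    cut p M i ≤ 1 :=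
  le_hasSum (cut_hasSum hp0 hZ) i (fun j _ => cut_nonneg hp0 M j)

lemma Dist.summable_linear (hp : Dist sz1 p) : Summable (fun k : ℕ => ((k : ℝ) + 1) * p k) :=
  (hp.mean.add hp.hasSum.summable).congr fun k => by simp only [sz1]; ring

lemma output_cut_tendsto (hp : Dist sz1 p) (hq : Dist sz1 q) (h0 : 0 ≤ η) (h1 : η ≤ 1) (j : ℕ) :
    Tendsto (fun M => output η (cut p M) (cut q M) j) atTop (𝓝 (output η p q j)) := by
  unfold output
  have hsum : Summable (fun x : ℕ × ℕ => (2 * p x.1) * (2 * q x.2)) :=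
    (hp.hasSum.summable.mul_left 2).mul_of_nonneg (hq.hasSum.summable.mul_left 2)
      (fun k => mul_nonneg (by norm_num) (hp.nonneg k))
      (fun k => mul_nonneg (by norm_num) (hq.nonneg k))
  refine tendsto_tsum_of_dominated_convergence hsum (fun x => ?_) ?_
  · exact ((hp.tendsto_cut x.1).mul (hq.tendsto_cut x.2)).mul_const _
  · filter_upwards [hp.eventually_Z, hq.eventually_Z] with M hZp hZq x
    have h2 := cut_nonneg hp.nonneg M x.1
    have h3 := cut_nonneg hq.nonneg M x.2
    have h4 := cut_le hp.nonneg hZp x.1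
    have h5 := cut_le hq.nonneg hZq x.2
    have h6 := trans_nonneg (η := η) j x.1 x.2
    have h7 := trans_le_one h0 h1 j x.1 x.2
    rw [Real.norm_eq_abs, abs_of_nonneg (by positivity)]
    calc _ ≤ cut p M x.1 * cut q M x.2 * 1 := mul_le_mul_of_nonneg_left h7 (by positivity)
      _ = cut p M x.1 * cut q M x.2 := by ring
      _ ≤ _ := mul_le_mul h4 h5 h3 (by have := hp.nonneg x.1; positivity)

lemma output_cut_bounds (hp : Dist sz1 p) (hq : Dist sz1 q) (h0 : 0 ≤ η) (h1 : η ≤ 1) :
    ∀ᶠ M in atTop, ∀ j, 0 ≤ output η (cut p M) (cut q M) j ∧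
      output η (cut p M) (cut q M) j ≤ 1 ∧
      output η (cut p M) (cut q M) j ≤ 4 * output η p q j := by
  filter_upwards [hp.eventually_Z, hq.eventually_Z] with M hZp hZq j
  have hp0 := cut_nonneg (M := M) hp.nonneg
  have hq0 := cut_nonneg (M := M) hq.nonneg
  have hS1 := summable_trans h0 h1 hp0 hq0 (cut_linear M) (cut_linear M) j
  have hS2 := summable_trans h0 h1 hp.nonneg hq.nonneg hp.summable_linear hq.summable_linear j
  have hnn : ∀ j, 0 ≤ output η (cut p M) (cut q M) j := fun j =>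
    tsum_nonneg fun x => mul_nonneg (mul_nonneg (hp0 _) (hq0 _)) (trans_nonneg _ _ _)
  refine ⟨hnn j, ?_, ?_⟩
  · exact le_hasSum (output_hasSum h0 h1 hp0 hq0 (cut_linear M) (cut_linear M)
      (cut_hasSum hp.nonneg hZp) (cut_hasSum hq.nonneg hZq)) j (fun i _ => hnn i)
  · unfold output
    rw [← tsum_mul_left]
    refine hS1.tsum_le_tsum (fun x => ?_) (hS2.mul_left 4)
    have h2 := hp0 x.1
    have h3 := hq0 x.2
    have h4 := cut_le hp.nonneg hZp x.1
    have h5 := cut_le hq.nonneg hZq x.2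
    have h6 := trans_nonneg (η := η) j x.1 x.2
    have h7 : cut p M x.1 * cut q M x.2 ≤ (2 * p x.1) * (2 * q x.2) :=
      mul_le_mul h4 h5 h3 (by have := hp.nonneg x.1; positivity)
    calc _ ≤ ((2 * p x.1) * (2 * q x.2)) * trans η j x.1 x.2 :=
          mul_le_mul_of_nonneg_right h7 h6
      _ = _ := by ring

/-- The linearised inequality for all one-mode Fock-diagonal inputs with finite mean. -/
theorem spade_all (hp : Dist sz1 p) (hq : Dist sz1 q) (h0 : 0 < η) (h1 : η < 1)
    (hr : 0 < r) (hs : 0 < s) :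
    η * ((entropy p - g r) / Lg r) + (1 - η) * ((entropy q - g s) / Lg s) ≤
      (entropy (output η p q) - g (η * r + (1 - η) * s)) / Lg (η * r + (1 - η) * s) := by
  have hE1 : Tendsto (fun M => entropy (cut p M)) atTop (𝓝 (entropy p)) := by
    refine tendsto_entropy (A := 2) (by norm_num) hp.tendsto_cut ?_ hp.mean
    filter_upwards [hp.eventually_Z] with M hZ i
    exact ⟨cut_nonneg hp.nonneg M i, cut_le_one hp.nonneg hZ i, cut_le hp.nonneg hZ i⟩
  have hE2 : Tendsto (fun M => entropy (cut q M)) atTop (𝓝 (entropy q)) := by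
    refine tendsto_entropy (A := 2) (by norm_num) hq.tendsto_cut ?_ hq.mean
    filter_upwards [hq.eventually_Z] with M hZ i
    exact ⟨cut_nonneg hq.nonneg M i, cut_le_one hq.nonneg hZ i, cut_le hq.nonneg hZ i⟩
  have hE3 : Tendsto (fun M => entropy (output η (cut p M) (cut q M))) atTop
      (𝓝 (entropy (output η p q))) :=
    tendsto_entropy (A := 4) (by norm_num) (output_cut_tendsto hp hq h0.le h1.le)
      (output_cut_bounds hp hq h0.le h1.le)
      (output_mean h0.le h1.le hp.nonneg hq.nonneg hp.summable_linear hq.summable_linear)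
  refine le_of_tendsto_of_tendsto
    ((((hE1.sub_const _).div_const _).const_mul η).add
      (((hE2.sub_const _).div_const _).const_mul (1 - η)))
    ((hE3.sub_const _).div_const _) ?_
  filter_upwards [hp.eventually_Z, hq.eventually_Z] with M hZp hZq
  exact spade_fin_any M (cut_nonneg hp.nonneg M) (cut_nonneg hq.nonneg M)
    (fun i hi => cut_zero hi) (fun i hi => cut_zero hi) (cut_sum hp.nonneg hZp)
    (cut_sum hq.nonneg hZq) h0 h1 hr hs

end Limit

/-- The linearised inequality for `n` modes and arbitrary Fock-diagonal inputs, by induction on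
`n`. -/
theorem spade_n_all {η r s : ℝ} (h0 : 0 < η) (h1 : η < 1) (hr : 0 < r) (hs : 0 < s) :
    ∀ (n : ℕ) {p q : (Fin n → ℕ) → ℝ}, Dist szN p → Dist szN q →
      (η / Lg r) * (nEntropy p - n * g r) + ((1 - η) / Lg s) * (nEntropy q - n * g s) ≤
        (1 / Lg (η * r + (1 - η) * s)) *
          (nEntropy (nOutput η p q) - n * g (η * r + (1 - η) * s)) := by
  intro n
  have h1' : 0 < 1 - η := by linarith
  have hm : 0 < η * r + (1 - η) * s := by positivity
  have hLr := Lg_pos hr
  have hLs := Lg_pos hs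
  have hLm := Lg_pos hm
  induction n with
  | zero =>
    intro p q hp hq
    have hone : ∀ (u : (Fin 0 → ℕ) → ℝ), HasSum u 1 → ∀ x, u x = 1 := by
      intro u hu x
      have h := (hasSum_unique u).unique hu
      exact (congrArg u (Subsingleton.elim _ _)).trans h
    have hD := Ker.dist_outK szN_nonneg (ker_nTrans h0.le h1.le 0) hp hq
    have hpe : nEntropy p = 0 := by
      unfold nEntropy
      simp [hone p hp.hasSum]
    have hqe : nEntropy q = 0 := by
      unfold nEntropy
      simp [hone q hq.hasSum]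
    have hce : nEntropy (nOutput η p q) = 0 := by
      unfold nEntropy
      have : ∀ k, nOutput η p q k = 1 := hone _ hD.hasSum
      simp [this]
    simp [hpe, hqe, hce]
  | succ n ih =>
    intro p q hp hq
    have hP := hp.comp_consE
    have hQ := hq.comp_consE
    have key := step (szI := fun k : ℕ => (k : ℝ)) (sz := szN (n := n)) (T := trans η)
      (R := nTrans η) (fun k => Nat.cast_nonneg k) szN_nonneg (ker_trans h0.le h1.le)
      (ker_nTrans h0.le h1.le n) summable_exp_neg (summable_expN n) hP hQ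
      (a := η / Lg r) (b := (1 - η) / Lg s) (d := 1 / Lg (η * r + (1 - η) * s))
      (A := n * g r) (B := n * g s) (D := n * g (η * r + (1 - η) * s))
      (A₀ := g r) (B₀ := g s) (D₀ := g (η * r + (1 - η) * s))
      (by positivity) (by positivity) (by positivity) ?_ ?_
    · rw [ent_comp_consE, ent_comp_consE, outK_comp_consE, ent_comp_consE] at key
      have e1 : (((n + 1 : ℕ) : ℝ)) * g r = n * g r + g r := by push_cast; ring
      have e2 : (((n + 1 : ℕ) : ℝ)) * g s = n * g s + g s := by push_cast; ring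
      have e3 : (((n + 1 : ℕ) : ℝ)) * g (η * r + (1 - η) * s) =
          n * g (η * r + (1 - η) * s) + g (η * r + (1 - η) * s) := by push_cast; ring
      rw [e1, e2, e3]
      exact key
    · have hmP := hP.dist_marg (szI := fun k : ℕ => (k : ℝ)) (fun k => Nat.cast_nonneg k) szN_nonneg
      have hmQ := hQ.dist_marg (szI := fun k : ℕ => (k : ℝ)) (fun k => Nat.cast_nonneg k) szN_nonneg
      have := spade_all hmP hmQ h0 h1 hr hs
      calc _ = η * ((entropy (marg (p ∘ consE n)) - g r) / Lg r) +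
            (1 - η) * ((entropy (marg (q ∘ consE n)) - g s) / Lg s) := by
              simp only [ent, entropy]
              ring
        _ ≤ _ := this
        _ = _ := by
              simp only [ent, entropy]
              rw [div_eq_mul_inv, one_div, mul_comm]
              rfl
    · intro k l hk hl
      exact ih (hP.dist_cond (szI := fun k : ℕ => (k : ℝ)) (fun k => Nat.cast_nonneg k) szN_nonneg hk)
        (hQ.dist_cond (szI := fun k : ℕ => (k : ℝ)) (fun k => Nat.cast_nonneg k) szN_nonneg hl)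

/-- An `n`-mode Fock-diagonal state with finite mean photon number, given by its photon number
distribution on `ℕ^n`. -/
structure NFock {n : ℕ} (p : (Fin n → ℕ) → ℝ) : Prop where
  nonneg : ∀ k, 0 ≤ p k
  summable : Summable p
  sum_eq_one : ∑' k, p k = 1
  finite_mean : Summable fun k : Fin n → ℕ => (∑ i, (k i : ℝ)) * p k

lemma NFock.toDist {n : ℕ} {p : (Fin n → ℕ) → ℝ} (hp : NFock p) : Dist szN p :=
  ⟨hp.nonneg, by
    have := hp.summable.hasSum
    rwa [hp.sum_eq_one] at this, hp.finite_mean⟩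

section Boundary
variable {n : ℕ}

lemma nOutput_one' {p q : (Fin n → ℕ) → ℝ} (hq : NFock q) : nOutput 1 p q = p := by
  funext j
  unfold nOutput
  simp only [nTrans_one]
  have e : (fun x : (Fin n → ℕ) × (Fin n → ℕ) => p x.1 * q x.2 * (if j = x.1 then (1 : ℝ) else 0)) =
      fun x => (if x.1 = j then p x.1 else 0) * q x.2 := by
    funext x
    by_cases h : j = x.1
    · simp [h]
    · simp [h, Ne.symm h]
  rw [e]
  have hs : Summable (fun k : Fin n → ℕ => if k = j then p k else 0) :=
    summable_of_ne_finset_zero (s := {j}) (fun k hk => by simp at hk; simp [hk])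
  have h2 := tsum_mul_tsum_of_summable_norm hs.norm hq.summable.norm
  rw [← h2, hq.sum_eq_one, mul_one, tsum_eq_single j (fun k hk => by simp [hk])]
  simp

lemma nOutput_zero' {p q : (Fin n → ℕ) → ℝ} (hp : NFock p) : nOutput 0 p q = q := by
  funext j
  unfold nOutput
  simp only [nTrans_zero]
  have e : (fun x : (Fin n → ℕ) × (Fin n → ℕ) => p x.1 * q x.2 * (if j = x.2 then (1 : ℝ) else 0)) =
      fun x => p x.1 * (if x.2 = j then q x.2 else 0) := by
    funext x
    by_cases h : j = x.2
    · simp [h]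
    · simp [h, Ne.symm h]
  rw [e]
  have hs : Summable (fun k : Fin n → ℕ => if k = j then q k else 0) :=
    summable_of_ne_finset_zero (s := {j}) (fun k hk => by simp at hk; simp [hk])
  have h2 := tsum_mul_tsum_of_summable_norm hp.summable.norm hs.norm
  rw [← h2, hp.sum_eq_one, one_mul, tsum_eq_single j (fun k hk => by simp [hk])]
  simp

end Boundary

/-- **The entropy photon number inequality for all Fock-diagonal inputs**, for every number of
modes. -/
theorem epni_fock {η : ℝ} (h0 : 0 ≤ η) (h1 : η ≤ 1) {n : ℕ} (hn : 1 ≤ n)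
    {p q : (Fin n → ℕ) → ℝ} (hp : NFock p) (hq : NFock q) :
    η * nPhotonNumber p + (1 - η) * nPhotonNumber q ≤ nPhotonNumber (nOutput η p q) := by
  rcases eq_or_lt_of_le h0 with h | h0'
  · rw [← h, nOutput_zero' hp]
    simp
  rcases eq_or_lt_of_le h1 with h | h1'
  · rw [h, nOutput_one' hq]
    simp
  have hn0 : (0 : ℝ) < n := by exact_mod_cast hn
  have hD := Ker.dist_outK szN_nonneg (ker_nTrans h0 h1 n) hp.toDist hq.toDist
  have hHp : 0 ≤ nEntropy p := hp.toDist.ent_nonneg
  have hHq : 0 ≤ nEntropy q := hq.toDist.ent_nonneg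
  have hHc : 0 ≤ nEntropy (nOutput η p q) := hD.ent_nonneg
  refine numeric_epni h0' h1' (by positivity) (by positivity) (by positivity) ?_
  intro r s hr hs
  have h1'' : 0 < 1 - η := by linarith
  have hm : 0 < η * r + (1 - η) * s := by positivity
  have hLr := Lg_pos hr
  have hLs := Lg_pos hs
  have hLm := Lg_pos hm
  have key := spade_n_all h0' h1' hr hs n hp.toDist hq.toDist
  have e1 : (η / Lg r) * (nEntropy p - n * g r) + ((1 - η) / Lg s) * (nEntropy q - n * g s) =
      n * (η * ((nEntropy p / n - g r) / Lg r) + (1 - η) * ((nEntropy q / n - g s) / Lg s)) := by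
    field_simp
  have e2 : (1 / Lg (η * r + (1 - η) * s)) *
      (nEntropy (nOutput η p q) - n * g (η * r + (1 - η) * s)) =
      n * ((nEntropy (nOutput η p q) / n - g (η * r + (1 - η) * s)) / Lg (η * r + (1 - η) * s)) := by
    field_simp
  rw [e1, e2] at key
  exact le_of_mul_le_mul_left key hn0

end Vale.Agent.Lib.P369
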