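import Vale.Agent.Lib.P369.Defs

open Polynomial Finset

namespace Vale.Agent.Lib.P369

/-- The amplitude polynomial with general coefficients. -/
noncomputable def amp (t r : ℝ) (k l : ℕ) : ℝ[X] :=
  (C t * X - C r) ^ k * (C r * X + C t) ^ l

lemma amp_succ_left (t r : ℝ) (k l : ℕ) :
    amp t r (k + 1) l = (C t * X + C (-r)) * amp t r k l := by
  simp only [amp, pow_succ, C_neg]; ring

lemma amp_succ_right (t r : ℝ) (k l : ℕ) :
    amp t r k (l + 1) = (C r * X + C t) * amp t r k l := by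
  simp only [amp, pow_succ]; ring

lemma amp_zero_zero (t r : ℝ) : amp t r 0 0 = 1 := by simp [amp]

lemma natDegree_amp_le (t r : ℝ) (k l : ℕ) : (amp t r k l).natDegree ≤ k + l := by
  induction k with
  | zero =>
    induction l with
    | zero => simp [amp]
    | succ l ih =>
      rw [amp_succ_right]
      refine (natDegree_mul_le).trans ?_
      have : (C r * X + C t : ℝ[X]).natDegree ≤ 1 := natDegree_linear_le
      omega
  | succ k ih =>
    rw [amp_succ_left]
    refine (natDegree_mul_le).trans ?_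
    have : (C t * X + C (-r) : ℝ[X]).natDegree ≤ 1 := natDegree_linear_le
    omega

lemma coeff_amp_eq_zero (t r : ℝ) {k l j : ℕ} (h : k + l < j) : (amp t r k l).coeff j = 0 :=
  coeff_eq_zero_of_natDegree_lt (lt_of_le_of_lt (natDegree_amp_le t r k l) h)

lemma derivative_amp (t r : ℝ) (k l : ℕ) :
    derivative (amp t r k l) =
      C ((k : ℝ) * t) * amp t r (k - 1) l + C ((l : ℝ) * r) * amp t r k (l - 1) := by
  unfold amp
  rw [derivative_mul, derivative_pow, derivative_pow]
  have h1 : derivative (C t * X - C r : ℝ[X]) = C t := by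
    simp [derivative_sub, derivative_mul]
  have h2 : derivative (C r * X + C t : ℝ[X]) = C r := by
    simp [derivative_add, derivative_mul]
  rw [h1, h2, C_mul, C_mul]
  simp only [C_eq_natCast]
  ring

/-- The peeling identities with factor `k`. -/
lemma natCast_mul_amp_left (t r : ℝ) (k l : ℕ) :
    C (k : ℝ) * amp t r k l = C (k : ℝ) * ((C t * X + C (-r)) * amp t r (k - 1) l) := by
  cases k with
  | zero => simp
  | succ k => rw [amp_succ_left]; simp

lemma natCast_mul_amp_right (t r : ℝ) (k l : ℕ) :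
    C (l : ℝ) * amp t r k l = C (l : ℝ) * ((C r * X + C t) * amp t r k (l - 1)) := by
  cases l with
  | zero => simp
  | succ l => rw [amp_succ_right]; simp

/-- The Euler homogeneity partner of the derivative: `∂_Y` in dehomogenised form. -/
lemma euler_amp (t r : ℝ) (k l : ℕ) (h : t ^ 2 + r ^ 2 = 1) :
    C ((k : ℝ) + l) * amp t r k l - X * derivative (amp t r k l) =
      C (-((k : ℝ) * r)) * amp t r (k - 1) l + C ((l : ℝ) * t) * amp t r k (l - 1) := by
  rw [derivative_amp]
  have h1 := natCast_mul_amp_left t r k l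
  have h2 := natCast_mul_amp_right t r k l
  have : C ((k : ℝ) + l) * amp t r k l = C (k : ℝ) * amp t r k l + C (l : ℝ) * amp t r k l := by
    rw [C_add]; ring
  rw [this, h1, h2]
  simp only [C_mul, C_neg]
  ring

/-- Fischer pairing polynomial of degree-`≤ N` polynomials. -/
noncomputable def Pair (N : ℕ) (f g : ℝ[X]) : ℝ[X] :=
  ∑ j ∈ range (N + 1),
    monomial j ((j.factorial : ℝ) * (N - j).factorial * f.coeff j * g.coeff j)

lemma coeff_Pair (N : ℕ) (f g : ℝ[X]) (j : ℕ) :
    (Pair N f g).coeff j =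
      if j ≤ N then (j.factorial : ℝ) * (N - j).factorial * f.coeff j * g.coeff j else 0 := by
  unfold Pair
  rw [finsetSum_coeff]
  simp only [coeff_monomial]
  rw [Finset.sum_ite_eq' (range (N + 1)) j]
  simp only [mem_range, Nat.lt_succ_iff]

lemma Pair_add_right (N : ℕ) (f g h : ℝ[X]) : Pair N f (g + h) = Pair N f g + Pair N f h := by
  ext j
  simp only [coeff_add, coeff_Pair]
  split_ifs <;> ring

lemma Pair_C_mul_right (N : ℕ) (f g : ℝ[X]) (a : ℝ) :
    Pair N f (C a * g) = C a * Pair N f g := by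
  ext j
  simp only [coeff_C_mul, coeff_Pair]
  split_ifs <;> ring

/-- Adjoint relation for the pairing. -/
lemma Pair_adjoint (N : ℕ) (α β : ℝ) (f g : ℝ[X]) (hf : f.natDegree ≤ N) :
    Pair (N + 1) ((C α * X + C β) * f) g =
      C α * X * Pair N f (derivative g) +
        C β * Pair N f (C ((N : ℝ) + 1) * g - X * derivative g) := by
  ext j
  have hz : ∀ {i : ℕ}, N < i → f.coeff i = 0 := fun {i} hi =>
    coeff_eq_zero_of_natDegree_lt (lt_of_le_of_lt hf hi)
  simp only [coeff_add]
  rw [coeff_Pair]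
  rcases j with _ | j
  · -- j = 0
    have h0 : ((C α * X + C β) * f).coeff 0 = β * f.coeff 0 := by
      simp [mul_coeff_zero]
    have h1 : (C α * X * Pair N f (derivative g)).coeff 0 = 0 := by
      rw [mul_assoc]; simp
    have h2 : (C ((N : ℝ) + 1) * g - X * derivative g).coeff 0 = ((N : ℝ) + 1) * g.coeff 0 := by
      simp [mul_coeff_zero]
    rw [coeff_C_mul, coeff_Pair, h1, h2, h0]
    simp only [Nat.zero_le, if_true, Nat.factorial_zero, Nat.sub_zero, Nat.cast_one, one_mul,
      zero_add, Nat.factorial_succ]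
    push_cast
    ring
  · -- j + 1
    have h0 : ((C α * X + C β) * f).coeff (j + 1) = α * f.coeff j + β * f.coeff (j + 1) := by
      rw [add_mul, coeff_add, mul_assoc, coeff_C_mul, coeff_X_mul, coeff_C_mul]
    have h1 : (C α * X * Pair N f (derivative g)).coeff (j + 1) =
        α * (Pair N f (derivative g)).coeff j := by
      rw [mul_assoc, coeff_C_mul, coeff_X_mul]
    have hd : (derivative g).coeff j = g.coeff (j + 1) * ((j : ℝ) + 1) := by
      rw [coeff_derivative]
    have h2 : (C ((N : ℝ) + 1) * g - X * derivative g).coeff (j + 1) =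
        ((N : ℝ) + 1 - ((j : ℝ) + 1)) * g.coeff (j + 1) := by
      rw [coeff_sub, coeff_C_mul, coeff_X_mul, hd]; ring
    rw [coeff_C_mul, h1, coeff_Pair, coeff_Pair, h0, h2, hd]
    rcases lt_trichotomy j N with hj | hj | hj
    · obtain ⟨n, rfl⟩ : ∃ n, N = j + 1 + n := ⟨N - (j + 1), by omega⟩
      have e1 : j + 1 + n + 1 - (j + 1) = n + 1 := by omega
      have e2 : j + 1 + n - j = n + 1 := by omega
      have e3 : j + 1 + n - (j + 1) = n := by omega
      rw [if_pos (by omega), if_pos (by omega), if_pos (by omega), e1, e2, e3,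
        Nat.factorial_succ n, Nat.factorial_succ j]
      push_cast
      ring
    · subst hj
      rw [if_pos (le_refl _), if_pos (le_refl _), if_neg (by omega), hz (Nat.lt_succ_self _)]
      simp [Nat.factorial_succ]
      ring
    · rw [if_neg (by omega), if_neg (by omega), if_neg (by omega)]
      ring


/-- Peeling the factor `√η X - √(1-η)` from the left argument. -/
lemma Pair_peel_left (t r : ℝ) (h : t ^ 2 + r ^ 2 = 1) {k l k' l' N : ℕ} (hN : k + l = N)
    (hN' : k' + l' = N + 1) :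
    Pair (N + 1) (amp t r (k + 1) l) (amp t r k' l') =
      C (k' : ℝ) * (C (t ^ 2) * X + C (r ^ 2)) * Pair N (amp t r k l) (amp t r (k' - 1) l') +
      C (l' : ℝ) * (C (t * r) * (X - 1)) * Pair N (amp t r k l) (amp t r k' (l' - 1)) := by
  have hdeg : (amp t r k l).natDegree ≤ N := hN ▸ natDegree_amp_le t r k l
  rw [amp_succ_left, Pair_adjoint N t (-r) _ _ hdeg]
  have he := euler_amp t r k' l' h
  have hcast : ((N : ℝ) + 1) = (k' : ℝ) + l' := by
    have : ((k' + l' : ℕ) : ℝ) = ((N + 1 : ℕ) : ℝ) := by rw [hN']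
    push_cast at this
    linarith
  rw [hcast, he, derivative_amp, Pair_add_right, Pair_add_right, Pair_C_mul_right,
    Pair_C_mul_right, Pair_C_mul_right, Pair_C_mul_right]
  simp only [C_mul, C_neg, C_pow]
  ring

/-- Peeling the factor `√(1-η) X + √η` from the left argument. -/
lemma Pair_peel_right (t r : ℝ) (h : t ^ 2 + r ^ 2 = 1) {k l k' l' N : ℕ} (hN : k + l = N)
    (hN' : k' + l' = N + 1) :
    Pair (N + 1) (amp t r k (l + 1)) (amp t r k' l') =
      C (k' : ℝ) * (C (t * r) * (X - 1)) * Pair N (amp t r k l) (amp t r (k' - 1) l') +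
      C (l' : ℝ) * (C (r ^ 2) * X + C (t ^ 2)) * Pair N (amp t r k l) (amp t r k' (l' - 1)) := by
  have hdeg : (amp t r k l).natDegree ≤ N := hN ▸ natDegree_amp_le t r k l
  rw [amp_succ_right, Pair_adjoint N r t _ _ hdeg]
  have he := euler_amp t r k' l' h
  have hcast : ((N : ℝ) + 1) = (k' : ℝ) + l' := by
    have : ((k' + l' : ℕ) : ℝ) = ((N + 1 : ℕ) : ℝ) := by rw [hN']
    push_cast at this
    linarith
  rw [hcast, he, derivative_amp, Pair_add_right, Pair_add_right, Pair_C_mul_right,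
    Pair_C_mul_right, Pair_C_mul_right, Pair_C_mul_right]
  simp only [C_mul, C_neg, C_pow]
  ring

/-- The generating polynomial of the transition probabilities. -/
noncomputable def PK (t r : ℝ) (k l : ℕ) : ℝ[X] :=
  C (1 / ((k.factorial : ℝ) * l.factorial)) * Pair (k + l) (amp t r k l) (amp t r k l)

/-- The auxiliary off-diagonal generating polynomial. -/
noncomputable def EE (t r : ℝ) (k l : ℕ) : ℝ[X] :=
  C (1 / (((k + 1).factorial : ℝ) * l.factorial)) *
    Pair (k + l + 1) (amp t r k (l + 1)) (amp t r (k + 1) l)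

lemma PK_zero_zero (t r : ℝ) : PK t r 0 0 = 1 := by
  ext j
  simp only [PK, coeff_C_mul, coeff_Pair, amp_zero_zero, coeff_one]
  by_cases hj : j = 0
  · subst hj; simp
  · simp [hj]

private lemma fact_ne (n : ℕ) : (n.factorial : ℝ) ≠ 0 :=
  Nat.cast_ne_zero.mpr (Nat.factorial_ne_zero n)

private lemma succ_ne (n : ℕ) : ((n : ℝ) + 1) ≠ 0 := by positivity

lemma C_scale1 (k l : ℕ) :
    C (1 / (((k + 1).factorial : ℝ) * (l.factorial : ℝ))) * C ((k + 1 : ℕ) : ℝ) =
      (C (1 / ((k.factorial : ℝ) * (l.factorial : ℝ))) : ℝ[X]) := by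
  rw [← C_mul]
  congr 1
  rw [Nat.factorial_succ]
  have := fact_ne k
  have := fact_ne l
  have := succ_ne k
  push_cast
  field_simp

lemma C_scale2 (k l : ℕ) :
    C (1 / ((k.factorial : ℝ) * ((l + 1).factorial : ℝ))) * C ((l + 1 : ℕ) : ℝ) =
      (C (1 / ((k.factorial : ℝ) * (l.factorial : ℝ))) : ℝ[X]) := by
  rw [← C_mul]
  congr 1
  rw [Nat.factorial_succ]
  have := fact_ne k
  have := fact_ne l
  have := succ_ne l
  push_cast
  field_simp

lemma PK_succ_zero (t r : ℝ) (h : t ^ 2 + r ^ 2 = 1) (k : ℕ) :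
    PK t r (k + 1) 0 = (C (t ^ 2) * X + C (r ^ 2)) * PK t r k 0 := by
  unfold PK
  have := Pair_peel_left t r h (k := k) (l := 0) (k' := k + 1) (l' := 0) (N := k) (by simp)
    (by simp)
  simp only [add_zero, Nat.add_sub_cancel] at this ⊢
  rw [this]
  have hs := C_scale1 k 0
  simp only [Nat.cast_zero, map_zero, zero_mul, add_zero]
  calc _ = (C (1 / (((k + 1).factorial : ℝ) * ((0 : ℕ).factorial : ℝ))) * C ((k + 1 : ℕ) : ℝ)) *
        ((C (t ^ 2) * X + C (r ^ 2)) * Pair k (amp t r k 0) (amp t r k 0)) := by ring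
    _ = _ := by rw [hs]; ring

lemma PK_zero_succ (t r : ℝ) (h : t ^ 2 + r ^ 2 = 1) (l : ℕ) :
    PK t r 0 (l + 1) = (C (r ^ 2) * X + C (t ^ 2)) * PK t r 0 l := by
  unfold PK
  have := Pair_peel_right t r h (k := 0) (l := l) (k' := 0) (l' := l + 1) (N := l) (by simp)
    (by simp)
  simp only [zero_add, Nat.add_sub_cancel] at this ⊢
  rw [this]
  have hs := C_scale2 0 l
  simp only [Nat.cast_zero, map_zero, zero_mul, zero_add]
  calc _ = (C (1 / (((0 : ℕ).factorial : ℝ) * ((l + 1).factorial : ℝ))) * C ((l + 1 : ℕ) : ℝ)) *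
        ((C (r ^ 2) * X + C (t ^ 2)) * Pair l (amp t r 0 l) (amp t r 0 l)) := by ring
    _ = _ := by rw [hs]; ring

lemma PK_succ_succ_aux (t r : ℝ) (h : t ^ 2 + r ^ 2 = 1) (k l : ℕ) :
    PK t r (k + 1) (l + 1) =
      (C (t ^ 2) * X + C (r ^ 2)) * PK t r k (l + 1) + (C (t * r) * (X - 1)) * EE t r k l := by
  unfold PK EE
  have := Pair_peel_left t r h (k := k) (l := l + 1) (k' := k + 1) (l' := l + 1)
    (N := k + l + 1) (by omega) (by omega)
  simp only [Nat.add_sub_cancel] at this
  have e1 : k + 1 + (l + 1) = k + l + 1 + 1 := by omega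
  have e2 : k + (l + 1) = k + l + 1 := by omega
  rw [e1, e2, this]
  have hs1 := C_scale1 k (l + 1)
  have hs2 := C_scale2 (k + 1) l
  calc _ = (C (1 / (((k + 1).factorial : ℝ) * ((l + 1).factorial : ℝ))) * C ((k + 1 : ℕ) : ℝ)) *
          ((C (t ^ 2) * X + C (r ^ 2)) *
            Pair (k + l + 1) (amp t r k (l + 1)) (amp t r k (l + 1))) +
        (C (1 / (((k + 1).factorial : ℝ) * ((l + 1).factorial : ℝ))) * C ((l + 1 : ℕ) : ℝ)) *
          ((C (t * r) * (X - 1)) *
            Pair (k + l + 1) (amp t r k (l + 1)) (amp t r (k + 1) l)) := by ring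
    _ = _ := by rw [hs1, hs2]; ring

lemma EE_zero (t r : ℝ) (h : t ^ 2 + r ^ 2 = 1) (k : ℕ) :
    EE t r k 0 = (C (t * r) * (X - 1)) * PK t r k 0 := by
  unfold PK EE
  have := Pair_peel_right t r h (k := k) (l := 0) (k' := k + 1) (l' := 0)
    (N := k) (by simp) (by simp)
  simp only [Nat.add_sub_cancel, add_zero] at this ⊢
  rw [this]
  have hs1 := C_scale1 k 0
  simp only [Nat.cast_zero, map_zero, zero_mul, add_zero]
  calc _ = (C (1 / (((k + 1).factorial : ℝ) * ((0 : ℕ).factorial : ℝ))) * C ((k + 1 : ℕ) : ℝ)) *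
        ((C (t * r) * (X - 1)) * Pair k (amp t r k 0) (amp t r k 0)) := by ring
    _ = _ := by rw [hs1]; ring

lemma EE_succ (t r : ℝ) (h : t ^ 2 + r ^ 2 = 1) (k l : ℕ) :
    EE t r k (l + 1) =
      (C (t * r) * (X - 1)) * PK t r k (l + 1) + (C (r ^ 2) * X + C (t ^ 2)) * EE t r k l := by
  unfold PK EE
  have := Pair_peel_right t r h (k := k) (l := l + 1) (k' := k + 1) (l' := l + 1)
    (N := k + l + 1) (by omega) (by omega)
  simp only [Nat.add_sub_cancel] at this
  have e1 : k + (l + 1) + 1 = k + l + 1 + 1 := by omega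
  have e2 : k + (l + 1) = k + l + 1 := by omega
  rw [e1, e2, this]
  have hs1 := C_scale1 k (l + 1)
  have hs2 := C_scale2 (k + 1) l
  calc _ = (C (1 / (((k + 1).factorial : ℝ) * ((l + 1).factorial : ℝ))) * C ((k + 1 : ℕ) : ℝ)) *
          ((C (t * r) * (X - 1)) *
            Pair (k + l + 1) (amp t r k (l + 1)) (amp t r k (l + 1))) +
        (C (1 / (((k + 1).factorial : ℝ) * ((l + 1).factorial : ℝ))) * C ((l + 1 : ℕ) : ℝ)) *
          ((C (r ^ 2) * X + C (t ^ 2)) *
            Pair (k + l + 1) (amp t r k (l + 1)) (amp t r (k + 1) l)) := by ring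
    _ = _ := by rw [hs1, hs2]; ring

/-- The three-term recursion for the generating polynomials. -/
lemma PK_rec (t r : ℝ) (h : t ^ 2 + r ^ 2 = 1) (k l : ℕ) :
    PK t r (k + 1) (l + 1) =
      (C (t ^ 2) * X + C (r ^ 2)) * PK t r k (l + 1) +
      (C (r ^ 2) * X + C (t ^ 2)) * PK t r (k + 1) l - X * PK t r k l := by
  have key : (C (t * r) * (X - 1)) * (C (t * r) * (X - 1)) -
      (C (t ^ 2) * X + C (r ^ 2)) * (C (r ^ 2) * X + C (t ^ 2)) = - (X : ℝ[X]) := by
    have h1 : (C (t ^ 2) : ℝ[X]) + C (r ^ 2) = 1 := by rw [← C_add, h, C_1]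
    have h2 : (C (t * r) : ℝ[X]) * C (t * r) = C (t ^ 2) * C (r ^ 2) := by
      rw [← C_mul, ← C_mul]; congr 1; ring
    have : (C (t * r) * (X - 1)) * (C (t * r) * (X - 1)) -
      (C (t ^ 2) * X + C (r ^ 2)) * (C (r ^ 2) * X + C (t ^ 2)) =
      - X * (C (t ^ 2) + C (r ^ 2)) ^ 2 + (C (t * r) * C (t * r) - C (t ^ 2) * C (r ^ 2)) * (X - 1) ^ 2 := by
      ring
    rw [this, h1, h2]; ring
  cases l with
  | zero =>
    rw [PK_succ_succ_aux t r h, EE_zero t r h, PK_succ_zero t r h]
    linear_combination (PK t r k 0) * key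
  | succ l =>
    rw [PK_succ_succ_aux t r h, EE_succ t r h, PK_succ_succ_aux t r h k l]
    linear_combination (PK t r k (l + 1)) * key

end Vale.Agent.Lib.P369
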