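import Vale.Agent.Lib.P369.Kernel1

open Polynomial Finset

namespace Vale.Agent.Lib.P369

/-- The generating polynomial of the transition probabilities of the beam splitter. -/
noncomputable def PT (η : ℝ) (k l : ℕ) : ℝ[X] := PK (√η) (√(1 - η)) k l

/-- Abbreviations for the linear factors. -/
noncomputable def AA (η : ℝ) : ℝ[X] := C η * X + (1 - C η)
noncomputable def BB (η : ℝ) : ℝ[X] := (1 - C η) * X + C η

section
variable {η : ℝ} (h0 : 0 ≤ η) (h1 : η ≤ 1)
include h0 h1

lemma sq_sqrt_eta : (√η) ^ 2 = η := Real.sq_sqrt h0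
lemma sq_sqrt_one_sub : (√(1 - η)) ^ 2 = 1 - η := Real.sq_sqrt (by linarith)
lemma sq_add_sq : (√η) ^ 2 + (√(1 - η)) ^ 2 = 1 := by
  rw [sq_sqrt_eta h0 h1, sq_sqrt_one_sub h0 h1]; ring

lemma PT_zero_zero : PT η 0 0 = 1 := PK_zero_zero _ _

lemma PT_succ_zero (k : ℕ) : PT η (k + 1) 0 = AA η * PT η k 0 := by
  unfold PT AA
  rw [PK_succ_zero _ _ (sq_add_sq h0 h1), sq_sqrt_eta h0 h1, sq_sqrt_one_sub h0 h1, C_sub, C_1]

lemma PT_zero_succ (l : ℕ) : PT η 0 (l + 1) = BB η * PT η 0 l := by
  unfold PT BB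
  rw [PK_zero_succ _ _ (sq_add_sq h0 h1), sq_sqrt_eta h0 h1, sq_sqrt_one_sub h0 h1, C_sub, C_1]

lemma PT_rec (k l : ℕ) :
    PT η (k + 1) (l + 1) = AA η * PT η k (l + 1) + BB η * PT η (k + 1) l - X * PT η k l := by
  unfold PT AA BB
  rw [PK_rec _ _ (sq_add_sq h0 h1), sq_sqrt_eta h0 h1, sq_sqrt_one_sub h0 h1, C_sub, C_1]

lemma PT_k_zero (k : ℕ) : PT η k 0 = AA η ^ k := by
  induction k with
  | zero => simpa using PT_zero_zero h0 h1
  | succ k ih => rw [PT_succ_zero h0 h1, ih, pow_succ]; ring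

lemma PT_zero_l (l : ℕ) : PT η 0 l = BB η ^ l := by
  induction l with
  | zero => simpa using PT_zero_zero h0 h1
  | succ l ih => rw [PT_zero_succ h0 h1, ih, pow_succ]; ring

/-- Protected recursion, left version. -/
lemma PT_rec_left (k l : ℕ) :
    (k : ℝ[X]) * PT η k (l + 1) =
      (k : ℝ[X]) * (AA η * PT η (k - 1) (l + 1) + BB η * PT η k l - X * PT η (k - 1) l) := by
  cases k with
  | zero => simp
  | succ k => rw [PT_rec h0 h1]; simp

/-- Protected recursion, right version. -/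
lemma PT_rec_right (k l : ℕ) :
    (l : ℝ[X]) * PT η (k + 1) l =
      (l : ℝ[X]) * (AA η * PT η k l + BB η * PT η (k + 1) (l - 1) - X * PT η k (l - 1)) := by
  cases l with
  | zero => simp
  | succ l => rw [PT_rec h0 h1]; simp

/-- Protected peeling. -/
lemma PT_peel_A (k : ℕ) : (k : ℝ[X]) * AA η ^ k = (k : ℝ[X]) * (AA η * AA η ^ (k - 1)) := by
  cases k with
  | zero => simp
  | succ k => simp only [Nat.add_sub_cancel, pow_succ]; ring

lemma PT_peel_B (k : ℕ) : (k : ℝ[X]) * BB η ^ k = (k : ℝ[X]) * (BB η * BB η ^ (k - 1)) := by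
  cases k with
  | zero => simp
  | succ k => simp only [Nat.add_sub_cancel, pow_succ]; ring

lemma derivative_AA : derivative (AA η) = C η := by
  simp [AA, derivative_mul]

lemma derivative_BB : derivative (BB η) = 1 - C η := by
  simp [BB, derivative_mul]

/-- The loss identity: the generator of pure loss intertwines. -/
lemma PT_loss (k l : ℕ) :
    (1 - X) * derivative (PT η k l) =
      (k : ℝ[X]) * (PT η (k - 1) l - PT η k l) + (l : ℝ[X]) * (PT η k (l - 1) - PT η k l) := by
  induction k generalizing l with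
  | zero =>
    simp only [CharP.cast_eq_zero, zero_mul, zero_add, Nat.zero_sub]
    rw [PT_zero_l h0 h1, PT_zero_l h0 h1, derivative_pow, derivative_BB h0 h1]
    have := PT_peel_B (η := η) h0 h1 l
    simp only [C_eq_natCast] at *
    have e : BB η = (1 - C η) * X + C η := rfl
    have e2 : (l : ℝ[X]) * (BB η ^ (l - 1) - BB η ^ l) =
        (l : ℝ[X]) * BB η ^ (l - 1) - (l : ℝ[X]) * BB η ^ l := by ring
    rw [e2, this, e]
    ring
  | succ k ihk =>
    induction l with
    | zero =>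
      simp only [CharP.cast_eq_zero, zero_mul, add_zero, Nat.zero_sub, Nat.add_sub_cancel]
      rw [PT_k_zero h0 h1, PT_k_zero h0 h1, derivative_pow, derivative_AA h0 h1]
      have := PT_peel_A (η := η) h0 h1 (k + 1)
      simp only [Nat.add_sub_cancel, C_eq_natCast] at *
      have e : AA η = C η * X + (1 - C η) := rfl
      have e2 : ((k + 1 : ℕ) : ℝ[X]) * (AA η ^ k - AA η ^ (k + 1)) =
          ((k + 1 : ℕ) : ℝ[X]) * AA η ^ k - ((k + 1 : ℕ) : ℝ[X]) * AA η ^ (k + 1) := by ring
      rw [e2, this, e]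
      ring
    | succ l ihl =>
      have hrec := PT_rec (η := η) h0 h1 k l
      have h3 := ihk (l + 1)
      have h4 := ihk l
      have hL := PT_rec_left (η := η) h0 h1 k l
      have hR := PT_rec_right (η := η) h0 h1 k l
      have hd : derivative (PT η (k + 1) (l + 1)) =
          C η * PT η k (l + 1) + AA η * derivative (PT η k (l + 1)) +
          ((1 - C η) * PT η (k + 1) l + BB η * derivative (PT η (k + 1) l)) -
          (PT η k l + X * derivative (PT η k l)) := by
        rw [hrec]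
        simp only [derivative_sub, derivative_add, derivative_mul, derivative_X, one_mul,
          derivative_AA h0 h1, derivative_BB h0 h1]
      simp only [Nat.add_sub_cancel, Nat.cast_add, Nat.cast_one] at *
      rw [hd, hrec]
      have eA : AA η = C η * X + (1 - C η) := rfl
      have eB : BB η = (1 - C η) * X + C η := rfl
      rw [eA, eB] at hL hR ⊢
      linear_combination (C η * X + (1 - C η)) * h3 + ((1 - C η) * X + C η) * ihl - X * h4 - hL - hR

/-- Linear relation raising the first index. -/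
def NRA (η : ℝ) (k l : ℕ) : Prop :=
  ((k : ℝ[X]) + 1) * PT η (k + 1) l =
    (2 * (k : ℝ[X]) + 1 + C η * (X - 1) * ((k : ℝ[X]) + (l : ℝ[X]) + 1)) * PT η k l -
      (k : ℝ[X]) * (AA η * PT η (k - 1) l) - C η * (X - 1) * ((l : ℝ[X]) * PT η k (l - 1))

/-- Linear relation raising the second index. -/
def NRB (η : ℝ) (k l : ℕ) : Prop :=
  ((l : ℝ[X]) + 1) * PT η k (l + 1) =
    (2 * (l : ℝ[X]) + 1 + (1 - C η) * (X - 1) * ((k : ℝ[X]) + (l : ℝ[X]) + 1)) * PT η k l -
      (l : ℝ[X]) * (BB η * PT η k (l - 1)) - (1 - C η) * (X - 1) * ((k : ℝ[X]) * PT η (k - 1) l)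

lemma NRA_base (k : ℕ) : NRA η k 0 := by
  unfold NRA
  simp only [CharP.cast_eq_zero, zero_mul, mul_zero, sub_zero, Nat.zero_sub, add_zero]
  rw [PT_k_zero h0 h1, PT_k_zero h0 h1, PT_k_zero h0 h1]
  have := PT_peel_A (η := η) h0 h1 k
  have e : AA η = C η * X + (1 - C η) := rfl
  rw [e] at this ⊢
  linear_combination (-1 : ℝ[X]) * this

lemma NRB_base (l : ℕ) : NRB η 0 l := by
  unfold NRB
  simp only [CharP.cast_eq_zero, zero_mul, mul_zero, sub_zero, Nat.zero_sub, zero_add]
  rw [PT_zero_l h0 h1, PT_zero_l h0 h1, PT_zero_l h0 h1]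
  have := PT_peel_B (η := η) h0 h1 l
  have e : BB η = (1 - C η) * X + C η := rfl
  rw [e] at this ⊢
  linear_combination (-1 : ℝ[X]) * this

lemma NRA_step (k l : ℕ) (hA : NRA η k l) (hB : NRB η k l) : NRA η k (l + 1) := by
  unfold NRA NRB at *
  have hrec := PT_rec (η := η) h0 h1 k l
  have hL := PT_rec_left (η := η) h0 h1 k l
  simp only [Nat.add_sub_cancel, Nat.cast_add, Nat.cast_one] at *
  have eA : AA η = C η * X + (1 - C η) := rfl
  have eB : BB η = (1 - C η) * X + C η := rfl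
  rw [eA] at hrec hL hA ⊢
  rw [eB] at hrec hL hB
  linear_combination ((k : ℝ[X]) + 1) * hrec - hL + ((1 - C η) * X + C η) * hA -
    C η * (X - 1) * hB

lemma NRB_step (k l : ℕ) (hA : NRA η k l) (hB : NRB η k l) : NRB η (k + 1) l := by
  unfold NRA NRB at *
  have hrec := PT_rec (η := η) h0 h1 k l
  have hR := PT_rec_right (η := η) h0 h1 k l
  simp only [Nat.add_sub_cancel, Nat.cast_add, Nat.cast_one] at *
  have eA : AA η = C η * X + (1 - C η) := rfl
  have eB : BB η = (1 - C η) * X + C η := rfl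
  rw [eB] at hrec hR hB ⊢
  rw [eA] at hrec hR hA
  linear_combination ((l : ℝ[X]) + 1) * hrec - hR + (C η * X + (1 - C η)) * hB -
    (1 - C η) * (X - 1) * hA

lemma NR_all (k l : ℕ) : NRA η k l ∧ NRB η k l := by
  induction k generalizing l with
  | zero =>
    induction l with
    | zero => exact ⟨NRA_base h0 h1 0, NRB_base h0 h1 0⟩
    | succ l ih => exact ⟨NRA_step h0 h1 0 l ih.1 ih.2, NRB_base h0 h1 _⟩
  | succ k ihk =>
    induction l with
    | zero => exact ⟨NRA_base h0 h1 _, NRB_step h0 h1 k 0 (ihk 0).1 (ihk 0).2⟩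
    | succ l ih =>
      exact ⟨NRA_step h0 h1 (k + 1) l ih.1 ih.2, NRB_step h0 h1 k (l + 1) (ihk _).1 (ihk _).2⟩

/-- Coefficients of the generating polynomial are the transition probabilities. -/
lemma coeff_PT (j k l : ℕ) : (PT η k l).coeff j = trans η j k l := by
  have ha : ampPoly η k l = amp (√η) (√(1 - η)) k l := rfl
  unfold PT PK trans
  rw [coeff_C_mul, coeff_Pair, ha]
  by_cases hj : j ≤ k + l
  · rw [if_pos hj]
    have h3 : (k.factorial : ℝ) ≠ 0 := Nat.cast_ne_zero.mpr (Nat.factorial_ne_zero k)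
    have h4 : (l.factorial : ℝ) ≠ 0 := Nat.cast_ne_zero.mpr (Nat.factorial_ne_zero l)
    field_simp
  · rw [if_neg hj, coeff_amp_eq_zero _ _ (by omega : k + l < j)]
    simp

omit h0 h1 in
lemma trans_nonneg (j k l : ℕ) : 0 ≤ trans η j k l := by
  unfold trans
  positivity

omit h0 h1 in
lemma trans_eq_zero {j k l : ℕ} (hj : k + l < j) : trans η j k l = 0 := by
  have ha : ampPoly η k l = amp (√η) (√(1 - η)) k l := rfl
  unfold trans
  rw [ha, coeff_amp_eq_zero _ _ hj]
  simp

lemma coeff_AA_mul_succ (f : ℝ[X]) (j : ℕ) :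
    (AA η * f).coeff (j + 1) = η * f.coeff j + (1 - η) * f.coeff (j + 1) := by
  have e : AA η * f = C η * (X * f) + C (1 - η) * f := by
    unfold AA; rw [C_sub, C_1]; ring
  rw [e, coeff_add, coeff_C_mul, coeff_C_mul, coeff_X_mul]

lemma coeff_AA_mul_zero (f : ℝ[X]) : (AA η * f).coeff 0 = (1 - η) * f.coeff 0 := by
  have e : AA η * f = C η * (X * f) + C (1 - η) * f := by
    unfold AA; rw [C_sub, C_1]; ring
  rw [e, coeff_add, coeff_C_mul, coeff_C_mul, coeff_X_mul_zero]; ring

lemma coeff_BB_mul_succ (f : ℝ[X]) (j : ℕ) :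
    (BB η * f).coeff (j + 1) = (1 - η) * f.coeff j + η * f.coeff (j + 1) := by
  have e : BB η * f = C (1 - η) * (X * f) + C η * f := by
    unfold BB; rw [C_sub, C_1]; ring
  rw [e, coeff_add, coeff_C_mul, coeff_C_mul, coeff_X_mul]

lemma coeff_BB_mul_zero (f : ℝ[X]) : (BB η * f).coeff 0 = η * f.coeff 0 := by
  have e : BB η * f = C (1 - η) * (X * f) + C η * f := by
    unfold BB; rw [C_sub, C_1]; ring
  rw [e, coeff_add, coeff_C_mul, coeff_C_mul, coeff_X_mul_zero]; ring

/-- Coefficient form of the recursion. -/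
lemma trans_rec_succ (j k l : ℕ) :
    trans η (j + 1) (k + 1) (l + 1) =
      η * trans η j k (l + 1) + (1 - η) * trans η (j + 1) k (l + 1) +
      ((1 - η) * trans η j (k + 1) l + η * trans η (j + 1) (k + 1) l) - trans η j k l := by
  rw [← coeff_PT h0 h1, PT_rec h0 h1, coeff_sub, coeff_add, coeff_AA_mul_succ h0 h1,
    coeff_BB_mul_succ h0 h1, coeff_X_mul]
  simp only [coeff_PT h0 h1]

lemma trans_rec_zero (k l : ℕ) :
    trans η 0 (k + 1) (l + 1) =
      (1 - η) * trans η 0 k (l + 1) + η * trans η 0 (k + 1) l := by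
  rw [← coeff_PT h0 h1, PT_rec h0 h1, coeff_sub, coeff_add, coeff_AA_mul_zero h0 h1,
    coeff_BB_mul_zero h0 h1, coeff_X_mul_zero]
  simp only [coeff_PT h0 h1, sub_zero]

lemma trans_k_zero_succ (j k : ℕ) :
    trans η (j + 1) (k + 1) 0 = η * trans η j k 0 + (1 - η) * trans η (j + 1) k 0 := by
  rw [← coeff_PT h0 h1, PT_succ_zero h0 h1, coeff_AA_mul_succ h0 h1]
  simp only [coeff_PT h0 h1]

lemma trans_k_zero_zero (k : ℕ) :
    trans η 0 (k + 1) 0 = (1 - η) * trans η 0 k 0 := by
  rw [← coeff_PT h0 h1, PT_succ_zero h0 h1, coeff_AA_mul_zero h0 h1]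
  simp only [coeff_PT h0 h1]

lemma trans_zero_l_succ (j l : ℕ) :
    trans η (j + 1) 0 (l + 1) = (1 - η) * trans η j 0 l + η * trans η (j + 1) 0 l := by
  rw [← coeff_PT h0 h1, PT_zero_succ h0 h1, coeff_BB_mul_succ h0 h1]
  simp only [coeff_PT h0 h1]

lemma trans_zero_l_zero (l : ℕ) :
    trans η 0 0 (l + 1) = η * trans η 0 0 l := by
  rw [← coeff_PT h0 h1, PT_zero_succ h0 h1, coeff_BB_mul_zero h0 h1]
  simp only [coeff_PT h0 h1]

lemma trans_zero_zero_succ (j : ℕ) : trans η (j + 1) 0 0 = 0 :=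
  trans_eq_zero (by omega)

lemma trans_zero_zero_zero : trans η 0 0 0 = 1 := by
  rw [← coeff_PT h0 h1, PT_zero_zero h0 h1]; simp

lemma trans_diag_left (k : ℕ) : trans η k k 0 = η ^ k := by
  induction k with
  | zero => simpa using trans_zero_zero_zero (η := η) h0 h1
  | succ k ih =>
    rw [trans_k_zero_succ h0 h1, ih, trans_eq_zero (η := η) (j := k + 1) (k := k) (l := 0)
      (by omega)]
    ring

lemma trans_diag_right (l : ℕ) : trans η l 0 l = (1 - η) ^ l := by
  induction l with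
  | zero => simpa using trans_zero_zero_zero (η := η) h0 h1
  | succ l ih =>
    rw [trans_zero_l_succ h0 h1, ih, trans_eq_zero (η := η) (j := l + 1) (k := 0) (l := l)
      (by omega)]
    ring

lemma natDegree_PT_le (k l : ℕ) : (PT η k l).natDegree ≤ k + l := by
  refine natDegree_le_iff_coeff_eq_zero.mpr ?_
  intro j hj
  rw [coeff_PT h0 h1, trans_eq_zero (η := η) hj]

lemma eval_AA_one : (AA η).eval 1 = 1 := by simp [AA]
lemma eval_BB_one : (BB η).eval 1 = 1 := by simp [BB]

lemma eval_PT_one (k l : ℕ) : (PT η k l).eval 1 = 1 := by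
  induction k generalizing l with
  | zero =>
    rw [PT_zero_l h0 h1, eval_pow, eval_BB_one h0 h1, one_pow]
  | succ k ihk =>
    induction l with
    | zero =>
      rw [PT_k_zero h0 h1, eval_pow, eval_AA_one h0 h1, one_pow]
    | succ l ihl =>
      rw [PT_rec h0 h1]
      simp only [eval_sub, eval_add, eval_mul, eval_AA_one h0 h1, eval_BB_one h0 h1, eval_X, ihk,
        ihl]
      norm_num

/-- Normalisation: for `J ≥ k + l` the sum of the transition probabilities is one. -/
lemma sum_trans_eq_one {J k l : ℕ} (hJ : k + l ≤ J) :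
    ∑ j ∈ range (J + 1), trans η j k l = 1 := by
  have h := eval_PT_one (η := η) h0 h1 k l
  rw [eval_eq_sum_range' (n := J + 1)
    (lt_of_le_of_lt ((natDegree_PT_le h0 h1 k l).trans hJ) (Nat.lt_succ_self _))] at h
  simpa [coeff_PT h0 h1] using h

lemma trans_le_one (j k l : ℕ) : trans η j k l ≤ 1 := by
  by_cases hj : j ≤ k + l
  · have h := sum_trans_eq_one (η := η) h0 h1 (J := k + l) (k := k) (l := l) le_rfl
    rw [← h]
    exact single_le_sum (f := fun j => trans η j k l)
      (fun i _ => trans_nonneg i k l) (mem_range.mpr (by omega))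
  · rw [trans_eq_zero (η := η) (by omega)]; norm_num

end

end Vale.Agent.Lib.P369
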