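import Vale.Agent.Lib.P369.Coupling
import Vale.Agent.Lib.P369.Flow

open Finset

namespace Vale.Agent.Lib.P369

lemma hasSum_unshift_fst {f : ℕ × ℕ → ℝ} {a : ℝ} (h0 : ∀ l, f (0, l) = 0)
    (h : HasSum (fun x : ℕ × ℕ => f (x.1 + 1, x.2)) a) : HasSum f a := by
  have hinj : Function.Injective (fun x : ℕ × ℕ => (x.1 + 1, x.2)) := by
    rintro ⟨a, b⟩ ⟨c, d⟩ h
    simp only [Prod.mk.injEq, Nat.add_right_cancel_iff] at h
    simp [h.1, h.2]
  refine (hinj.hasSum_iff (f := f) (a := a) ?_).mp h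
  rintro ⟨k, l⟩ hx
  cases k with
  | zero => exact h0 l
  | succ k => exact absurd ⟨(k, l), rfl⟩ hx

lemma hasSum_unshift_snd {f : ℕ × ℕ → ℝ} {a : ℝ} (h0 : ∀ k, f (k, 0) = 0)
    (h : HasSum (fun x : ℕ × ℕ => f (x.1, x.2 + 1)) a) : HasSum f a := by
  have hinj : Function.Injective (fun x : ℕ × ℕ => (x.1, x.2 + 1)) := by
    rintro ⟨a, b⟩ ⟨c, d⟩ h
    simp only [Prod.mk.injEq, Nat.add_right_cancel_iff] at h
    simp [h.1, h.2]
  refine (hinj.hasSum_iff (f := f) (a := a) ?_).mp h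
  rintro ⟨k, l⟩ hx
  cases l with
  | zero => exact h0 k
  | succ l => exact absurd ⟨(k, l), rfl⟩ hx

lemma hasSum_of_eq {α : Type*} {f g : α → ℝ} {a : ℝ} (h : HasSum f a) (e : ∀ x, g x = f x) :
    HasSum g a := by
  have : g = f := funext e
  rw [this]
  exact h

section Adjoint
variable {P Q : ℕ → ℝ} {K : ℕ × ℕ → ℝ}

/-- The adjoint generator in the first variable. -/
noncomputable def LopdL (r : ℝ) (K : ℕ × ℕ → ℝ) (x : ℕ × ℕ) : ℝ :=
  (r + 1) * ((x.1 : ℝ) * (K (x.1 - 1, x.2) - K x)) +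
    r * (((x.1 : ℝ) + 1) * (K (x.1 + 1, x.2) - K x))

/-- The adjoint generator in the second variable. -/
noncomputable def LopdR (s : ℝ) (K : ℕ × ℕ → ℝ) (x : ℕ × ℕ) : ℝ :=
  (s + 1) * ((x.2 : ℝ) * (K (x.1, x.2 - 1) - K x)) +
    s * (((x.2 : ℝ) + 1) * (K (x.1, x.2 + 1) - K x))

/-- Summation by parts in the first variable. -/
lemma sum_Lop_left {r : ℝ} (hr : 0 ≤ r) (hK : ∀ x, |K x| ≤ 1)
    (hs : Summable (fun x : ℕ × ℕ => ((x.1 : ℝ) + 1) * |P x.1| * |Q x.2|)) :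
    ∃ S, HasSum (fun x : ℕ × ℕ => Lop r P x.1 * Q x.2 * K x) S ∧
      HasSum (fun x : ℕ × ℕ => P x.1 * Q x.2 * LopdL r K x) S := by
  -- the four pieces, all dominated
  have hdom : ∀ (f : ℕ × ℕ → ℝ), (∀ x, |f x| ≤ ((x.1 : ℝ) + 1) * |P x.1| * |Q x.2|) →
      Summable f := fun f hf =>
    Summable.of_norm_bounded hs (fun x => by rw [Real.norm_eq_abs]; exact hf x)
  have hk1 : ∀ k : ℕ, (k : ℝ) ≤ (k : ℝ) + 1 := fun k => by linarith
  have hk0 : ∀ k : ℕ, (0 : ℝ) ≤ (k : ℝ) := fun k => Nat.cast_nonneg k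
  have b1 : Summable (fun x : ℕ × ℕ => (x.1 : ℝ) * P x.1 * Q x.2 * K (x.1 - 1, x.2)) := by
    refine hdom _ (fun x => ?_)
    rw [abs_mul, abs_mul, abs_mul, abs_of_nonneg (hk0 _)]
    have h1 := hK (x.1 - 1, x.2)
    have h2 : 0 ≤ (x.1 : ℝ) * |P x.1| * |Q x.2| := by positivity
    calc (x.1 : ℝ) * |P x.1| * |Q x.2| * |K (x.1 - 1, x.2)| ≤ (x.1 : ℝ) * |P x.1| * |Q x.2| * 1 :=
          mul_le_mul_of_nonneg_left h1 h2
      _ ≤ _ := by
          rw [mul_one]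
          apply mul_le_mul_of_nonneg_right _ (abs_nonneg _)
          exact mul_le_mul_of_nonneg_right (hk1 _) (abs_nonneg _)
  have a2 : Summable (fun x : ℕ × ℕ => (x.1 : ℝ) * P x.1 * Q x.2 * K x) := by
    refine hdom _ (fun x => ?_)
    rw [abs_mul, abs_mul, abs_mul, abs_of_nonneg (hk0 _)]
    have h1 := hK x
    have h2 : 0 ≤ (x.1 : ℝ) * |P x.1| * |Q x.2| := by positivity
    calc (x.1 : ℝ) * |P x.1| * |Q x.2| * |K x| ≤ (x.1 : ℝ) * |P x.1| * |Q x.2| * 1 :=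
          mul_le_mul_of_nonneg_left h1 h2
      _ ≤ _ := by
          rw [mul_one]
          apply mul_le_mul_of_nonneg_right _ (abs_nonneg _)
          exact mul_le_mul_of_nonneg_right (hk1 _) (abs_nonneg _)
  have b3 : Summable (fun x : ℕ × ℕ => ((x.1 : ℝ) + 1) * P x.1 * Q x.2 * K (x.1 + 1, x.2)) := by
    refine hdom _ (fun x => ?_)
    have hp : (0 : ℝ) ≤ (x.1 : ℝ) + 1 := by positivity
    rw [abs_mul, abs_mul, abs_mul, abs_of_nonneg hp]
    have h1 := hK (x.1 + 1, x.2)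
    have h2 : 0 ≤ ((x.1 : ℝ) + 1) * |P x.1| * |Q x.2| := by positivity
    calc ((x.1 : ℝ) + 1) * |P x.1| * |Q x.2| * |K (x.1 + 1, x.2)|
        ≤ ((x.1 : ℝ) + 1) * |P x.1| * |Q x.2| * 1 := mul_le_mul_of_nonneg_left h1 h2
      _ = _ := by rw [mul_one]
  have a4 : Summable (fun x : ℕ × ℕ => ((x.1 : ℝ) + 1) * P x.1 * Q x.2 * K x) := by
    refine hdom _ (fun x => ?_)
    have hp : (0 : ℝ) ≤ (x.1 : ℝ) + 1 := by positivity
    rw [abs_mul, abs_mul, abs_mul, abs_of_nonneg hp]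
    have h1 := hK x
    have h2 : 0 ≤ ((x.1 : ℝ) + 1) * |P x.1| * |Q x.2| := by positivity
    calc ((x.1 : ℝ) + 1) * |P x.1| * |Q x.2| * |K x|
        ≤ ((x.1 : ℝ) + 1) * |P x.1| * |Q x.2| * 1 := mul_le_mul_of_nonneg_left h1 h2
      _ = _ := by rw [mul_one]
  -- shifting
  have a1 : HasSum (fun x : ℕ × ℕ => ((x.1 : ℝ) + 1) * P (x.1 + 1) * Q x.2 * K x)
      (∑' x : ℕ × ℕ, (x.1 : ℝ) * P x.1 * Q x.2 * K (x.1 - 1, x.2)) := by
    have := hasSum_shift_fst (f := fun x : ℕ × ℕ => (x.1 : ℝ) * P x.1 * Q x.2 * K (x.1 - 1, x.2))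
      (by simp) b1.hasSum
    simpa using this
  have a3 : HasSum (fun x : ℕ × ℕ => (x.1 : ℝ) * P (x.1 - 1) * Q x.2 * K x)
      (∑' x : ℕ × ℕ, ((x.1 : ℝ) + 1) * P x.1 * Q x.2 * K (x.1 + 1, x.2)) := by
    refine hasSum_unshift_fst (f := fun x : ℕ × ℕ => (x.1 : ℝ) * P (x.1 - 1) * Q x.2 * K x)
      (by simp) ?_
    have := b3.hasSum
    simpa using this
  have h1 := ((a1.sub a2.hasSum).mul_left (r + 1)).add ((a3.sub a4.hasSum).mul_left r)
  have h2 := ((b1.hasSum.sub a2.hasSum).mul_left (r + 1)).add ((b3.hasSum.sub a4.hasSum).mul_left r)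
  refine ⟨_, hasSum_of_eq h1 (fun x => ?_), hasSum_of_eq h2 (fun x => ?_)⟩
  · unfold Lop
    ring
  · unfold LopdL
    ring

/-- Summation by parts in the second variable. -/
lemma sum_Lop_right {s : ℝ} (hr : 0 ≤ s) (hK : ∀ x, |K x| ≤ 1)
    (hs : Summable (fun x : ℕ × ℕ => |P x.1| * (((x.2 : ℝ) + 1) * |Q x.2|))) :
    ∃ S, HasSum (fun x : ℕ × ℕ => P x.1 * Lop s Q x.2 * K x) S ∧
      HasSum (fun x : ℕ × ℕ => P x.1 * Q x.2 * LopdR s K x) S := by
  have hdom : ∀ (f : ℕ × ℕ → ℝ), (∀ x, |f x| ≤ |P x.1| * (((x.2 : ℝ) + 1) * |Q x.2|)) →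
      Summable f := fun f hf =>
    Summable.of_norm_bounded hs (fun x => by rw [Real.norm_eq_abs]; exact hf x)
  have hk1 : ∀ k : ℕ, (k : ℝ) ≤ (k : ℝ) + 1 := fun k => by linarith
  have hk0 : ∀ k : ℕ, (0 : ℝ) ≤ (k : ℝ) := fun k => Nat.cast_nonneg k
  have hgen : ∀ (n : ℕ → ℝ) (y : ℕ × ℕ → ℕ × ℕ), (∀ k, 0 ≤ n k) → (∀ k, n k ≤ (k : ℝ) + 1) →
      Summable (fun x : ℕ × ℕ => P x.1 * (n x.2 * Q x.2) * K (y x)) := by
    intro n y hn0 hn1
    refine hdom _ (fun x => ?_)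
    rw [abs_mul, abs_mul, abs_mul, abs_of_nonneg (hn0 _)]
    have h1 := hK (y x)
    have h2 : 0 ≤ |P x.1| * (n x.2 * |Q x.2|) :=
      mul_nonneg (abs_nonneg _) (mul_nonneg (hn0 _) (abs_nonneg _))
    calc |P x.1| * (n x.2 * |Q x.2|) * |K (y x)| ≤ |P x.1| * (n x.2 * |Q x.2|) * 1 :=
          mul_le_mul_of_nonneg_left h1 h2
      _ ≤ _ := by
          rw [mul_one]
          apply mul_le_mul_of_nonneg_left _ (abs_nonneg _)
          exact mul_le_mul_of_nonneg_right (hn1 _) (abs_nonneg _)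
  have b1 := hgen (fun k => (k : ℝ)) (fun x => (x.1, x.2 - 1)) hk0 hk1
  have a2 := hgen (fun k => (k : ℝ)) id hk0 hk1
  have b3 := hgen (fun k => (k : ℝ) + 1) (fun x => (x.1, x.2 + 1))
    (fun k => by positivity) (fun k => le_rfl)
  have a4 := hgen (fun k => (k : ℝ) + 1) id (fun k => by positivity) (fun k => le_rfl)
  simp only [id] at a2 a4
  have a1 : HasSum (fun x : ℕ × ℕ => P x.1 * (((x.2 : ℝ) + 1) * Q (x.2 + 1)) * K x)
      (∑' x : ℕ × ℕ, P x.1 * ((x.2 : ℝ) * Q x.2) * K (x.1, x.2 - 1)) := by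
    have := hasSum_shift_snd (f := fun x : ℕ × ℕ => P x.1 * ((x.2 : ℝ) * Q x.2) * K (x.1, x.2 - 1))
      (by simp) b1.hasSum
    simpa using this
  have a3 : HasSum (fun x : ℕ × ℕ => P x.1 * ((x.2 : ℝ) * Q (x.2 - 1)) * K x)
      (∑' x : ℕ × ℕ, P x.1 * (((x.2 : ℝ) + 1) * Q x.2) * K (x.1, x.2 + 1)) := by
    refine hasSum_unshift_snd (f := fun x : ℕ × ℕ => P x.1 * ((x.2 : ℝ) * Q (x.2 - 1)) * K x)
      (by simp) ?_
    have := b3.hasSum
    simpa using this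
  have h1 := ((a1.sub a2.hasSum).mul_left (s + 1)).add ((a3.sub a4.hasSum).mul_left s)
  have h2 := ((b1.hasSum.sub a2.hasSum).mul_left (s + 1)).add ((b3.hasSum.sub a4.hasSum).mul_left s)
  refine ⟨_, hasSum_of_eq h1 (fun x => ?_), hasSum_of_eq h2 (fun x => ?_)⟩
  · unfold Lop
    ring
  · unfold LopdR
    ring

end Adjoint

section OutLop
variable {η : ℝ} {P Q : ℕ → ℝ}

lemma summable_of_linear {x : ℕ → ℝ} (hx0 : ∀ k, 0 ≤ x k)
    (hs : Summable (fun k : ℕ => ((k : ℝ) + 1) * x k)) : Summable x := by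
  refine Summable.of_nonneg_of_le hx0 (fun k => ?_) hs
  have := hx0 k
  have hk : (0 : ℝ) ≤ k := Nat.cast_nonneg k
  nlinarith

/-- The generators on the inputs combine to the generator on the output. -/
lemma output_Lop (h0 : 0 ≤ η) (h1 : η ≤ 1) {r s : ℝ} (hr : 0 ≤ r) (hs : 0 ≤ s)
    (hP0 : ∀ k, 0 ≤ P k) (hQ0 : ∀ k, 0 ≤ Q k)
    (hPs : Summable (fun k : ℕ => ((k : ℝ) + 1) * P k))
    (hQs : Summable (fun k : ℕ => ((k : ℝ) + 1) * Q k)) (j : ℕ) :
    HasSum (fun x : ℕ × ℕ => (Lop r P x.1 * Q x.2 + P x.1 * Lop s Q x.2) * trans η j x.1 x.2)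
      (Lop (η * r + (1 - η) * s) (output η P Q) j) := by
  have hK : ∀ x : ℕ × ℕ, |(fun x : ℕ × ℕ => trans η j x.1 x.2) x| ≤ 1 := by
    intro x
    simp only
    rw [abs_of_nonneg (trans_nonneg _ _ _)]
    exact trans_le_one h0 h1 _ _ _
  have hsL : Summable (fun x : ℕ × ℕ => ((x.1 : ℝ) + 1) * |P x.1| * |Q x.2|) := by
    simp only [abs_of_nonneg (hP0 _), abs_of_nonneg (hQ0 _)]
    exact hPs.mul_of_nonneg (summable_of_linear hQ0 hQs)
      (fun k => mul_nonneg (by positivity) (hP0 k)) hQ0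
  have hsR : Summable (fun x : ℕ × ℕ => |P x.1| * (((x.2 : ℝ) + 1) * |Q x.2|)) := by
    simp only [abs_of_nonneg (hP0 _), abs_of_nonneg (hQ0 _)]
    exact (summable_of_linear hP0 hPs).mul_of_nonneg hQs hP0
      (fun k => mul_nonneg (by positivity) (hQ0 k))
  obtain ⟨S₁, hL₁, hL₂⟩ := sum_Lop_left (P := P) (Q := Q) hr hK hsL
  obtain ⟨S₂, hR₁, hR₂⟩ := sum_Lop_right (P := P) (Q := Q) hs hK hsR
  have hA := hL₁.add hR₁
  have hB := hL₂.add hR₂
  set m := η * r + (1 - η) * s with hm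
  have hC : HasSum (fun x : ℕ × ℕ => P x.1 * Q x.2 * ((m + 1) * (((j : ℝ) + 1) * trans η (j + 1) x.1 x.2 -
      (j : ℝ) * trans η j x.1 x.2) + m * ((j : ℝ) * trans η (j - 1) x.1 x.2 -
      ((j : ℝ) + 1) * trans η j x.1 x.2))) (Lop m (output η P Q) j) := by
    have hj0 := (summable_trans h0 h1 hP0 hQ0 hPs hQs j).hasSum
    have hj1 := (summable_trans h0 h1 hP0 hQ0 hPs hQs (j + 1)).hasSum
    have hj2 := (summable_trans h0 h1 hP0 hQ0 hPs hQs (j - 1)).hasSum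
    have h := (((hj1.mul_left ((j : ℝ) + 1)).sub (hj0.mul_left (j : ℝ))).mul_left (m + 1)).add
      (((hj2.mul_left (j : ℝ)).sub (hj0.mul_left ((j : ℝ) + 1))).mul_left m)
    exact hasSum_of_eq h (fun x => by ring)
  have hB' : HasSum (fun x : ℕ × ℕ => P x.1 * Q x.2 * ((m + 1) * (((j : ℝ) + 1) * trans η (j + 1) x.1 x.2 -
      (j : ℝ) * trans η j x.1 x.2) + m * ((j : ℝ) * trans η (j - 1) x.1 x.2 -
      ((j : ℝ) + 1) * trans η j x.1 x.2))) (S₁ + S₂) := by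
    refine hasSum_of_eq hB (fun x => ?_)
    have hI := trans_intertwine h0 h1 r s j x.1 x.2
    rw [← hm] at hI
    rw [← hI]
    unfold LopdL LopdR
    ring
  have huniq := hB'.unique hC
  rw [← huniq]
  exact hasSum_of_eq hA (fun x => by ring)

end OutLop

/-- A bound for the generator on sequences with geometric decay. -/
lemma Lop_bound {x : ℕ → ℝ} {C ρ t : ℝ} (ht : 0 ≤ t) (hρ0 : 0 < ρ) (hρ1 : ρ ≤ 1) (hC : 0 ≤ C)
    (h : ∀ j, |x j| ≤ C * ρ ^ j) (j : ℕ) :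
    |Lop t x j| ≤ (C * (3 * t + 2 + t / ρ)) * (((j : ℝ) + 1) * ρ ^ j) := by
  have hj : (0 : ℝ) ≤ j := Nat.cast_nonneg j
  have hp : 0 < ρ ^ j := pow_pos hρ0 j
  have h1 := h j
  have h2 := h (j + 1)
  have h3 : ρ ^ (j + 1) ≤ ρ ^ j := pow_le_pow_of_le_one hρ0.le hρ1 (Nat.le_succ j)
  have h4 : |x (j + 1)| ≤ C * ρ ^ j := h2.trans (mul_le_mul_of_nonneg_left h3 hC)
  have h5 : (j : ℝ) * |x (j - 1)| ≤ C / ρ * (((j : ℝ) + 1) * ρ ^ j) := by
    cases j with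
    | zero => simp only [Nat.cast_zero, zero_mul]; positivity
    | succ j =>
      have h6 := h j
      simp only [Nat.add_sub_cancel]
      have e : C / ρ * ((((j + 1 : ℕ) : ℝ) + 1) * ρ ^ (j + 1)) =
          C * ρ ^ j * (((j + 1 : ℕ) : ℝ) + 1) := by
        rw [pow_succ]
        field_simp
      rw [e]
      have hn : (0 : ℝ) ≤ ((j + 1 : ℕ) : ℝ) := Nat.cast_nonneg _
      calc ((j + 1 : ℕ) : ℝ) * |x j| ≤ ((j + 1 : ℕ) : ℝ) * (C * ρ ^ j) :=
            mul_le_mul_of_nonneg_left h6 hn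
        _ ≤ _ := by
            rw [mul_comm]
            apply mul_le_mul_of_nonneg_left _ (by positivity)
            linarith
  set A := ((j : ℝ) + 1) * ρ ^ j with hA
  have hApos : 0 ≤ A := by positivity
  have hb1 : ((j : ℝ) + 1) * |x (j + 1)| ≤ C * A := by
    calc ((j : ℝ) + 1) * |x (j + 1)| ≤ ((j : ℝ) + 1) * (C * ρ ^ j) :=
          mul_le_mul_of_nonneg_left h4 (by positivity)
      _ = _ := by rw [hA]; ring
  have hb2 : ((j : ℝ) + 1) * |x j| ≤ C * A := by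
    calc ((j : ℝ) + 1) * |x j| ≤ ((j : ℝ) + 1) * (C * ρ ^ j) :=
          mul_le_mul_of_nonneg_left h1 (by positivity)
      _ = _ := by rw [hA]; ring
  have hb3 : (j : ℝ) * |x j| ≤ C * A := by
    have : (j : ℝ) * |x j| ≤ ((j : ℝ) + 1) * |x j| :=
      mul_le_mul_of_nonneg_right (by linarith) (abs_nonneg _)
    linarith
  unfold Lop
  have t1 : |((j : ℝ) + 1) * x (j + 1)| = ((j : ℝ) + 1) * |x (j + 1)| := by
    rw [abs_mul, abs_of_nonneg (by positivity)]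
  have t2 : |(j : ℝ) * x j| = (j : ℝ) * |x j| := by rw [abs_mul, abs_of_nonneg hj]
  have t3 : |(j : ℝ) * x (j - 1)| = (j : ℝ) * |x (j - 1)| := by rw [abs_mul, abs_of_nonneg hj]
  have t4 : |((j : ℝ) + 1) * x j| = ((j : ℝ) + 1) * |x j| := by
    rw [abs_mul, abs_of_nonneg (by positivity)]
  have ht1 : 0 ≤ t + 1 := by linarith
  calc |(t + 1) * (((j : ℝ) + 1) * x (j + 1) - (j : ℝ) * x j) +
        t * ((j : ℝ) * x (j - 1) - ((j : ℝ) + 1) * x j)|
      ≤ |(t + 1) * (((j : ℝ) + 1) * x (j + 1) - (j : ℝ) * x j)| +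
        |t * ((j : ℝ) * x (j - 1) - ((j : ℝ) + 1) * x j)| := abs_add_le _ _
    _ = (t + 1) * |((j : ℝ) + 1) * x (j + 1) - (j : ℝ) * x j| +
        t * |(j : ℝ) * x (j - 1) - ((j : ℝ) + 1) * x j| := by
        rw [abs_mul, abs_mul, abs_of_nonneg ht1, abs_of_nonneg ht]
    _ ≤ (t + 1) * (((j : ℝ) + 1) * |x (j + 1)| + (j : ℝ) * |x j|) +
        t * ((j : ℝ) * |x (j - 1)| + ((j : ℝ) + 1) * |x j|) := by
        apply add_le_add
        · apply mul_le_mul_of_nonneg_left _ ht1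
          rw [← t1, ← t2]
          exact abs_sub _ _
        · apply mul_le_mul_of_nonneg_left _ ht
          rw [← t3, ← t4]
          exact abs_sub _ _
    _ ≤ (t + 1) * (C * A + C * A) + t * (C / ρ * A + C * A) := by
        apply add_le_add
        · exact mul_le_mul_of_nonneg_left (add_le_add hb1 hb3) ht1
        · exact mul_le_mul_of_nonneg_left (add_le_add h5 hb2) ht
    _ = (C * (3 * t + 2 + t / ρ)) * A := by
        field_simp
        ring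

/-- The derivative of the output of the two flows. -/
theorem hasDerivAt_output_flow {η : ℝ} (h0 : 0 ≤ η) (h1 : η ≤ 1) {P Q : ℝ → ℕ → ℝ}
    {θ₁ θ₂ r s C₁ C₂ ρ : ℝ} (hθ₁ : 0 < θ₁) (hr : 0 ≤ r) (hs : 0 ≤ s)
    (hρ0 : 0 < ρ) (hρ1 : ρ < 1) (hC₁ : 0 ≤ C₁) (hC₂ : 0 ≤ C₂)
    (hPd : ∀ θ ∈ Set.Ioo θ₁ θ₂, ∀ k, HasDerivAt (fun θ => P θ k) (-Lop r (P θ) k / θ) θ)
    (hQd : ∀ θ ∈ Set.Ioo θ₁ θ₂, ∀ k, HasDerivAt (fun θ => Q θ k) (-Lop s (Q θ) k / θ) θ)
    (hP0 : ∀ θ ∈ Set.Ioo θ₁ θ₂, ∀ k, 0 ≤ P θ k) (hQ0 : ∀ θ ∈ Set.Ioo θ₁ θ₂, ∀ k, 0 ≤ Q θ k)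
    (hPu : ∀ θ ∈ Set.Ioo θ₁ θ₂, ∀ k, P θ k ≤ C₁ * ρ ^ k)
    (hQu : ∀ θ ∈ Set.Ioo θ₁ θ₂, ∀ k, Q θ k ≤ C₂ * ρ ^ k)
    {θ : ℝ} (hθ : θ ∈ Set.Ioo θ₁ θ₂) (j : ℕ) :
    HasDerivAt (fun θ => output η (P θ) (Q θ) j)
      (-Lop (η * r + (1 - η) * s) (output η (P θ) (Q θ)) j / θ) θ := by
  have hlin : ∀ {x : ℕ → ℝ} {C : ℝ}, 0 ≤ C → (∀ k, 0 ≤ x k) → (∀ k, x k ≤ C * ρ ^ k) →
      Summable (fun k : ℕ => ((k : ℝ) + 1) * x k) := by
    intro x C hC hx0 hxu
    refine Summable.of_nonneg_of_le (fun j => mul_nonneg (by positivity) (hx0 j))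
      (fun j => ?_) ((summable_linear_geom hρ0.le hρ1).mul_left C)
    calc ((j : ℝ) + 1) * x j ≤ ((j : ℝ) + 1) * (C * ρ ^ j) :=
          mul_le_mul_of_nonneg_left (hxu j) (by positivity)
      _ = _ := by ring
  set L₁ := C₁ * (3 * r + 2 + r / ρ) with hL₁
  set L₂ := C₂ * (3 * s + 2 + s / ρ) with hL₂
  have hL₁0 : 0 ≤ L₁ := by positivity
  have hL₂0 : 0 ≤ L₂ := by positivity
  set u : ℕ × ℕ → ℝ := fun x =>
    (L₁ / θ₁ * (((x.1 : ℝ) + 1) * ρ ^ x.1)) * (C₂ * ρ ^ x.2) +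
    (C₁ * ρ ^ x.1) * (L₂ / θ₁ * (((x.2 : ℝ) + 1) * ρ ^ x.2)) with hu
  have hgeom : Summable (fun k : ℕ => ρ ^ k) := summable_geometric_of_lt_one hρ0.le hρ1
  have hus : Summable u := by
    have h2 := ((summable_linear_geom hρ0.le hρ1).mul_left (L₁ / θ₁)).mul_of_nonneg
      (hgeom.mul_left C₂) (fun k => by positivity) (fun k => by positivity)
    have h3 := (hgeom.mul_left C₁).mul_of_nonneg
      ((summable_linear_geom hρ0.le hρ1).mul_left (L₂ / θ₁))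
      (fun k => by positivity) (fun k => by positivity)
    exact h2.add h3
  have hterm : ∀ (x : ℕ × ℕ) (y : ℝ), y ∈ Set.Ioo θ₁ θ₂ →
      HasDerivAt (fun θ => P θ x.1 * Q θ x.2 * trans η j x.1 x.2)
      ((-Lop r (P y) x.1 / y * Q y x.2 + P y x.1 * (-Lop s (Q y) x.2 / y)) * trans η j x.1 x.2) y :=
    fun x y hy => ((hPd y hy x.1).fun_mul (hQd y hy x.2)).mul_const _
  have hbound : ∀ (x : ℕ × ℕ) (y : ℝ), y ∈ Set.Ioo θ₁ θ₂ →
      ‖(-Lop r (P y) x.1 / y * Q y x.2 + P y x.1 * (-Lop s (Q y) x.2 / y)) * trans η j x.1 x.2‖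
        ≤ u x := by
    intro x y hy
    have hy0 : 0 < y := lt_trans hθ₁ hy.1
    have hPabs : ∀ k, |P y k| ≤ C₁ * ρ ^ k := fun k => by
      rw [abs_of_nonneg (hP0 y hy k)]; exact hPu y hy k
    have hQabs : ∀ k, |Q y k| ≤ C₂ * ρ ^ k := fun k => by
      rw [abs_of_nonneg (hQ0 y hy k)]; exact hQu y hy k
    have hLP := Lop_bound hr hρ0 hρ1.le hC₁ hPabs x.1
    have hLQ := Lop_bound hs hρ0 hρ1.le hC₂ hQabs x.2
    have hT := trans_le_one h0 h1 j x.1 x.2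
    have hT0 := trans_nonneg (η := η) j x.1 x.2
    have hdiv : ∀ w W : ℝ, |w| ≤ W → |(-w) / y| ≤ W / θ₁ := by
      intro w W hw
      have hW : 0 ≤ W := le_trans (abs_nonneg _) hw
      rw [abs_div, abs_neg, abs_of_pos hy0]
      calc |w| / y ≤ W / y := div_le_div_of_nonneg_right hw hy0.le
        _ ≤ W / θ₁ := div_le_div_of_nonneg_left hW hθ₁ hy.1.le
    have a1 := hdiv _ _ hLP
    have a2 := hdiv _ _ hLQ
    have e1 : L₁ * (((x.1 : ℝ) + 1) * ρ ^ x.1) / θ₁ = L₁ / θ₁ * (((x.1 : ℝ) + 1) * ρ ^ x.1) := by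
      ring
    have e2 : L₂ * (((x.2 : ℝ) + 1) * ρ ^ x.2) / θ₁ = L₂ / θ₁ * (((x.2 : ℝ) + 1) * ρ ^ x.2) := by
      ring
    rw [e1] at a1
    rw [e2] at a2
    rw [Real.norm_eq_abs, abs_mul, abs_of_nonneg hT0]
    have hsum : |-Lop r (P y) x.1 / y * Q y x.2 + P y x.1 * (-Lop s (Q y) x.2 / y)| ≤ u x := by
      calc _ ≤ |-Lop r (P y) x.1 / y * Q y x.2| + |P y x.1 * (-Lop s (Q y) x.2 / y)| :=
            abs_add_le _ _
        _ = |-Lop r (P y) x.1 / y| * |Q y x.2| + |P y x.1| * |-Lop s (Q y) x.2 / y| := by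
            rw [abs_mul, abs_mul]
        _ ≤ _ := by
            apply add_le_add
            · exact mul_le_mul a1 (hQabs _) (abs_nonneg _) (by positivity)
            · exact mul_le_mul (hPabs _) a2 (abs_nonneg _) (by positivity)
    have hu0 : 0 ≤ |-Lop r (P y) x.1 / y * Q y x.2 + P y x.1 * (-Lop s (Q y) x.2 / y)| :=
      abs_nonneg _
    calc _ ≤ u x * 1 := mul_le_mul hsum hT hT0 (hu0.trans hsum)
      _ = u x := mul_one _
  have hPl := hlin hC₁ (hP0 θ hθ) (hPu θ hθ)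
  have hQl := hlin hC₂ (hQ0 θ hθ) (hQu θ hθ)
  have hfinal := hasDerivAt_tsum_of_isPreconnected hus isOpen_Ioo isPreconnected_Ioo hterm hbound
    hθ (summable_trans h0 h1 (hP0 θ hθ) (hQ0 θ hθ) hPl hQl j) hθ
  have hval := output_Lop h0 h1 hr hs (hP0 θ hθ) (hQ0 θ hθ) hPl hQl j
  have hval2 := hval.mul_left (-1 / θ)
  have e3 : (∑' x : ℕ × ℕ, (-Lop r (P θ) x.1 / θ * Q θ x.2 + P θ x.1 * (-Lop s (Q θ) x.2 / θ)) *
      trans η j x.1 x.2) = -Lop (η * r + (1 - η) * s) (output η (P θ) (Q θ)) j / θ := by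
    have : -Lop (η * r + (1 - η) * s) (output η (P θ) (Q θ)) j / θ =
        -1 / θ * Lop (η * r + (1 - η) * s) (output η (P θ) (Q θ)) j := by ring
    rw [this, ← hval2.tsum_eq]
    apply tsum_congr
    intro x
    ring
  rw [e3] at hfinal
  exact hfinal

/-! ### The thermal sequences -/

lemma thermal_pos {t : ℝ} (ht : 0 < t) (j : ℕ) : 0 < thermal t j := by
  unfold thermal
  positivity

lemma thermal_nonneg {t : ℝ} (ht : 0 ≤ t) (j : ℕ) : 0 ≤ thermal t j := by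
  unfold thermal
  positivity

lemma thermal_succ {t : ℝ} (ht : 0 ≤ t) (j : ℕ) :
    thermal t (j + 1) = t * (thermal t j - thermal t (j + 1)) := by
  unfold thermal
  have : (1 + t) ≠ 0 := by positivity
  rw [pow_succ]
  field_simp
  ring

lemma thermal_ratio {t : ℝ} (ht : 0 ≤ t) : t / (1 + t) < 1 := by
  rw [div_lt_one (by positivity)]
  linarith

lemma hasSum_thermal {t : ℝ} (ht : 0 ≤ t) : HasSum (thermal t) 1 := by
  have h := (hasSum_geometric_of_lt_one (r := t / (1 + t)) (by positivity)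
    (thermal_ratio ht)).mul_left (1 / (1 + t))
  have e : 1 / (1 + t) * (1 - t / (1 + t))⁻¹ = 1 := by
    have : (1 + t) ≠ 0 := by positivity
    have h2 : 1 - t / (1 + t) = 1 / (1 + t) := by
      field_simp
      ring
    rw [h2]
    field_simp
  rw [e] at h
  exact h

lemma summable_thermal_linear {t : ℝ} (ht : 0 ≤ t) :
    Summable (fun k : ℕ => ((k : ℝ) + 1) * thermal t k) := by
  have h := (summable_linear_geom (ρ := t / (1 + t)) (by positivity)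
    (thermal_ratio ht)).mul_left (1 / (1 + t))
  refine h.congr (fun k => ?_)
  unfold thermal
  ring

/-- The output of a beam splitter on two thermal inputs is thermal. -/
theorem output_thermal {η r s : ℝ} (h0 : 0 ≤ η) (h1 : η ≤ 1) (hr : 0 ≤ r) (hs : 0 ≤ s) :
    output η (thermal r) (thermal s) = thermal (η * r + (1 - η) * s) := by
  set m := η * r + (1 - η) * s with hm
  have hm0 : 0 ≤ m := by
    have : 0 ≤ 1 - η := by linarith
    positivity
  have hp0 := thermal_nonneg hr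
  have hq0 := thermal_nonneg hs
  have hps := summable_thermal_linear hr
  have hqs := summable_thermal_linear hs
  set c := output η (thermal r) (thermal s) with hc
  have hrec : ∀ j, c (j + 1) = m * (c j - c (j + 1)) := by
    intro j
    have hE1 := hasSum_E1 h0 h1 hp0 hq0 hps hqs j
    have hE2 := hasSum_E2 h0 h1 hp0 hq0 hps hqs j
    have h2 := hE1.mul_left m
    have : (fun x : ℕ × ℕ => m * ((thermal r x.1 - thermal r (x.1 + 1)) *
        (thermal s x.2 - thermal s (x.2 + 1)) * Mt η j x)) =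
        fun x : ℕ × ℕ => (η * thermal r (x.1 + 1) * (thermal s x.2 - thermal s (x.2 + 1)) +
        (1 - η) * (thermal r x.1 - thermal r (x.1 + 1)) * thermal s (x.2 + 1)) * Mt η j x := by
      funext x
      have ha := thermal_succ hr x.1
      have hb := thermal_succ hs x.2
      rw [hm]
      linear_combination (-(η * (thermal s x.2 - thermal s (x.2 + 1)) * Mt η j x)) * ha -
        ((1 - η) * (thermal r x.1 - thermal r (x.1 + 1)) * Mt η j x) * hb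
    rw [this] at h2
    exact hE2.unique h2
  have hsum : HasSum c 1 := output_hasSum h0 h1 hp0 hq0 hps hqs (hasSum_thermal hr) (hasSum_thermal hs)
  have h1m : (1 + m) ≠ 0 := by positivity
  have hgeo : ∀ j, c j = c 0 * (m / (1 + m)) ^ j := by
    intro j
    induction j with
    | zero => simp
    | succ j ih =>
      have h2 := hrec j
      have h3 : c (j + 1) = m / (1 + m) * c j := by
        field_simp
        linarith
      rw [h3, ih, pow_succ]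
      ring
  have hs2 : HasSum c (c 0 * (1 + m)) := by
    have h := (hasSum_geometric_of_lt_one (r := m / (1 + m)) (by positivity)
      (thermal_ratio hm0)).mul_left (c 0)
    have e : c 0 * (1 - m / (1 + m))⁻¹ = c 0 * (1 + m) := by
      have h2 : 1 - m / (1 + m) = 1 / (1 + m) := by
        field_simp
        ring
      rw [h2]
      field_simp
    rw [e] at h
    have e2 : (fun n => c 0 * (m / (1 + m)) ^ n) = c := by
      funext n
      exact (hgeo n).symm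
    rw [e2] at h
    exact h
  have huniq := hsum.unique hs2
  have hc0 : c 0 = 1 / (1 + m) := by
    field_simp
    linarith
  funext j
  rw [hgeo j, hc0]
  rfl

end Vale.Agent.Lib.P369
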