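import Vale.Agent.Lib.P369.Analysis

open Finset

namespace Vale.Agent.Lib.P369

/-- Regular sequences: strictly decreasing probability sequences with geometric two sided bounds. -/
structure Reg (x : ℕ → ℝ) (c C z ρ : ℝ) : Prop where
  c_pos : 0 < c
  z_pos : 0 < z
  ρ_pos : 0 < ρ
  ρ_lt : ρ < 1
  low : ∀ j, c * z ^ j ≤ x j
  up : ∀ j, x j ≤ C * ρ ^ j
  anti : ∀ j, x (j + 1) < x j
  sum : HasSum x 1

/-- The current of the thermal generator. -/
noncomputable def Jc (t : ℝ) (x : ℕ → ℝ) (j : ℕ) : ℝ :=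
  ((j : ℝ) + 1) * ((t + 1) * x (j + 1) - t * x j)

/-- The weights of the shell decomposition. -/
noncomputable def Wf (x : ℕ → ℝ) (j : ℕ) : ℝ := ((j : ℝ) + 1) * (x j - x (j + 1))

/-- The local temperatures. -/
noncomputable def tf (x : ℕ → ℝ) (j : ℕ) : ℝ := x (j + 1) / (x j - x (j + 1))

/-- The logarithmic difference. -/
noncomputable def Dt (x : ℕ → ℝ) (j : ℕ) : ℝ := Real.log (x j) - Real.log (x (j + 1))

/-- The logarithmic derivative sum. -/
noncomputable def Df (t : ℝ) (x : ℕ → ℝ) : ℝ := ∑' j, Jc t x j * Dt x j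

lemma summable_sq_geom {ρ : ℝ} (h0 : 0 ≤ ρ) (h1 : ρ < 1) :
    Summable (fun j : ℕ => ((j : ℝ) + 1) ^ 2 * ρ ^ j) := by
  have hn : ‖ρ‖ < 1 := by
    rw [Real.norm_eq_abs, abs_of_nonneg h0]; exact h1
  have h2 := summable_pow_mul_geometric_of_norm_lt_one 2 hn
  have h3 := summable_pow_mul_geometric_of_norm_lt_one 1 hn
  have h4 := summable_pow_mul_geometric_of_norm_lt_one 0 hn
  have := (h2.add (h3.mul_left 2)).add h4
  refine this.congr ?_
  intro j
  simp only [pow_one, pow_zero]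
  ring

lemma summable_linear_geom {ρ : ℝ} (h0 : 0 ≤ ρ) (h1 : ρ < 1) :
    Summable (fun j : ℕ => ((j : ℝ) + 1) * ρ ^ j) := by
  refine Summable.of_nonneg_of_le (fun j => by positivity) (fun j => ?_) (summable_sq_geom h0 h1)
  have : (1 : ℝ) ≤ (j : ℝ) + 1 := by
    have : (0 : ℝ) ≤ j := Nat.cast_nonneg j
    linarith
  have h3 : 0 ≤ ρ ^ j := by positivity
  nlinarith [mul_le_mul_of_nonneg_right this (by positivity : 0 ≤ ((j : ℝ) + 1) * ρ ^ j)]

section
variable {x : ℕ → ℝ} {c C z ρ : ℝ}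

lemma Reg.pos (h : Reg x c C z ρ) (j : ℕ) : 0 < x j :=
  lt_of_lt_of_le (mul_pos h.c_pos (pow_pos h.z_pos j)) (h.low j)

lemma Reg.C_pos (h : Reg x c C z ρ) : 0 < C := by
  have := h.up 0
  have h2 := h.pos 0
  simp only [pow_zero, mul_one] at this
  linarith

lemma Reg.pi_pos (h : Reg x c C z ρ) (j : ℕ) : 0 < x j - x (j + 1) := by
  have := h.anti j
  linarith

lemma Reg.tf_pos (h : Reg x c C z ρ) (j : ℕ) : 0 < tf x j :=
  div_pos (h.pos _) (h.pi_pos j)

lemma Reg.Lg_tf (h : Reg x c C z ρ) (j : ℕ) : Lg (tf x j) = Dt x j := by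
  have h1 := h.pos j
  have h2 := h.pos (j + 1)
  have h3 := h.pi_pos j
  unfold Lg Dt tf
  have e : x (j + 1) / (x j - x (j + 1)) + 1 = x j / (x j - x (j + 1)) := by
    field_simp
    ring
  rw [e, Real.log_div h1.ne' h3.ne', Real.log_div h2.ne' h3.ne']
  ring

lemma Reg.W_Gam (h : Reg x c C z ρ) (τ : ℝ) (j : ℕ) :
    Wf x j * Gam (tf x j) τ = Jc τ x j * Dt x j / Lg τ := by
  have h3 := h.pi_pos j
  unfold Gam
  rw [h.Lg_tf]
  unfold Wf Jc tf
  field_simp
  ring

lemma Reg.log_bound (h : Reg x c C z ρ) (j : ℕ) :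
    |Real.log (x j)| ≤ (|Real.log c| + |Real.log C|) + (|Real.log z| + |Real.log ρ|) * j := by
  have hpos := h.pos j
  have hC := h.C_pos
  have hlow : Real.log c + j * Real.log z ≤ Real.log (x j) := by
    have hz : 0 < z ^ j := pow_pos h.z_pos j
    have := Real.log_le_log (mul_pos h.c_pos hz) (h.low j)
    rwa [Real.log_mul h.c_pos.ne' hz.ne', Real.log_pow] at this
  have hup : Real.log (x j) ≤ Real.log C + j * Real.log ρ := by
    have hr : 0 < ρ ^ j := pow_pos h.ρ_pos j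
    have := Real.log_le_log hpos (h.up j)
    rwa [Real.log_mul hC.ne' hr.ne', Real.log_pow] at this
  have hj : (0 : ℝ) ≤ j := Nat.cast_nonneg j
  have h1 := neg_abs_le (Real.log c)
  have h2 := neg_abs_le (Real.log z)
  have h3 := le_abs_self (Real.log C)
  have h4 := le_abs_self (Real.log ρ)
  have h5 := abs_nonneg (Real.log c)
  have h6 := abs_nonneg (Real.log z)
  have h7 := abs_nonneg (Real.log C)
  have h8 := abs_nonneg (Real.log ρ)
  rw [abs_le]
  constructor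
  · have : j * (-|Real.log z|) ≤ j * Real.log z := mul_le_mul_of_nonneg_left h2 hj
    have h9 : 0 ≤ j * |Real.log ρ| := by positivity
    nlinarith
  · have : j * Real.log ρ ≤ j * |Real.log ρ| := mul_le_mul_of_nonneg_left h4 hj
    have h9 : 0 ≤ j * |Real.log z| := by positivity
    nlinarith

/-- A generic bound for the logarithm terms. -/
lemma Reg.log_bound' (h : Reg x c C z ρ) (j : ℕ) :
    |Real.log (x j)| ≤ ((|Real.log c| + |Real.log C|) + (|Real.log z| + |Real.log ρ|)) *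
      ((j : ℝ) + 1) := by
  have := h.log_bound j
  have hj : (0 : ℝ) ≤ j := Nat.cast_nonneg j
  have h5 := abs_nonneg (Real.log c)
  have h6 := abs_nonneg (Real.log z)
  have h7 := abs_nonneg (Real.log C)
  have h8 := abs_nonneg (Real.log ρ)
  have h9 : 0 ≤ (|Real.log c| + |Real.log C|) * j := by positivity
  have h10 : 0 ≤ (|Real.log z| + |Real.log ρ|) := by positivity
  nlinarith

lemma Reg.abs_bound (h : Reg x c C z ρ) (j : ℕ) : |x j| ≤ C * ρ ^ j := by
  rw [abs_of_pos (h.pos j)]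
  exact h.up j

lemma Reg.Jc_bound (h : Reg x c C z ρ) {τ : ℝ} (hτ : 0 ≤ τ) (j : ℕ) :
    |Jc τ x j| ≤ ((2 * τ + 1) * C) * (((j : ℝ) + 1) * ρ ^ j) := by
  have h1 := h.pos j
  have h2 := h.pos (j + 1)
  have h3 := h.anti j
  have h4 := h.up j
  have hj : (0 : ℝ) < (j : ℝ) + 1 := by positivity
  unfold Jc
  rw [abs_mul, abs_of_pos hj]
  have : |(τ + 1) * x (j + 1) - τ * x j| ≤ (2 * τ + 1) * (C * ρ ^ j) := by
    rw [abs_le]
    constructor <;> nlinarith
  calc ((j : ℝ) + 1) * |(τ + 1) * x (j + 1) - τ * x j|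
      ≤ ((j : ℝ) + 1) * ((2 * τ + 1) * (C * ρ ^ j)) := mul_le_mul_of_nonneg_left this hj.le
    _ = _ := by ring

lemma Reg.Dt_bound (h : Reg x c C z ρ) (j : ℕ) :
    |Dt x j| ≤ 3 * ((|Real.log c| + |Real.log C|) + (|Real.log z| + |Real.log ρ|)) *
      ((j : ℝ) + 1) := by
  unfold Dt
  have h1 := h.log_bound' j
  have h2 := h.log_bound' (j + 1)
  push_cast at h2
  have h3 := abs_sub (Real.log (x j)) (Real.log (x (j + 1)))
  set E := (|Real.log c| + |Real.log C|) + (|Real.log z| + |Real.log ρ|)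
  have hE : 0 ≤ E := by positivity
  have hj : (0 : ℝ) ≤ j := Nat.cast_nonneg j
  nlinarith

lemma Reg.term_bound (h : Reg x c C z ρ) {τ : ℝ} (hτ : 0 ≤ τ) (j : ℕ) :
    |Jc τ x j * Dt x j| ≤ (((2 * τ + 1) * C) * (3 * ((|Real.log c| + |Real.log C|) +
      (|Real.log z| + |Real.log ρ|)))) * (((j : ℝ) + 1) ^ 2 * ρ ^ j) := by
  rw [abs_mul]
  have h1 := h.Jc_bound hτ j
  have h2 := h.Dt_bound j
  have hC := h.C_pos
  have hρ := h.ρ_pos
  calc |Jc τ x j| * |Dt x j| ≤ (((2 * τ + 1) * C) * (((j : ℝ) + 1) * ρ ^ j)) *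
        (3 * ((|Real.log c| + |Real.log C|) + (|Real.log z| + |Real.log ρ|)) * ((j : ℝ) + 1)) :=
        mul_le_mul h1 h2 (abs_nonneg _) (by positivity)
    _ = _ := by ring

lemma Reg.summable_term (h : Reg x c C z ρ) {τ : ℝ} (hτ : 0 ≤ τ) :
    Summable (fun j => Jc τ x j * Dt x j) := by
  refine Summable.of_norm_bounded (g := fun j => (((2 * τ + 1) * C) * (3 * ((|Real.log c| +
    |Real.log C|) + (|Real.log z| + |Real.log ρ|)))) * (((j : ℝ) + 1) ^ 2 * ρ ^ j)) ?_ ?_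
  · exact (summable_sq_geom h.ρ_pos.le h.ρ_lt).mul_left _
  · intro j
    rw [Real.norm_eq_abs]
    exact h.term_bound hτ j

/-- The sum of the weights is one. -/
lemma Reg.hasSum_Wf (h : Reg x c C z ρ) : HasSum (Wf x) 1 := by
  have hC := h.C_pos
  have hs1 : Summable (fun j : ℕ => ((j : ℝ) + 1) * x j) := by
    refine Summable.of_nonneg_of_le (fun j => mul_nonneg (by positivity) (h.pos j).le)
      (fun j => ?_) ((summable_linear_geom h.ρ_pos.le h.ρ_lt).mul_left C)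
    have := h.up j
    have hj : (0 : ℝ) ≤ (j : ℝ) + 1 := by positivity
    calc ((j : ℝ) + 1) * x j ≤ ((j : ℝ) + 1) * (C * ρ ^ j) := mul_le_mul_of_nonneg_left this hj
      _ = _ := by ring
  have hs2 : Summable (fun j : ℕ => (j : ℝ) * x j) := by
    refine Summable.of_nonneg_of_le (fun j => mul_nonneg (by positivity) (h.pos j).le)
      (fun j => ?_) hs1
    have := h.pos j
    nlinarith
  have h1 := hs2.hasSum
  have h2 : HasSum (fun j : ℕ => ((j + 1 : ℕ) : ℝ) * x (j + 1)) (∑' j : ℕ, (j : ℝ) * x j) := by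
    have := (hasSum_nat_add_iff' (f := fun j : ℕ => (j : ℝ) * x j) 1).mpr h1
    simpa using this
  have h3 := h.sum.add h1
  have h4 := h3.sub h2
  have e : (1 + ∑' j : ℕ, (j : ℝ) * x j) - ∑' j : ℕ, (j : ℝ) * x j = 1 := by ring
  rw [e] at h4
  have e2 : (fun b => x b + (b : ℝ) * x b - ((b + 1 : ℕ) : ℝ) * x (b + 1)) = Wf x := by
    funext b
    unfold Wf
    push_cast
    ring
  rw [e2] at h4
  exact h4

end

end Vale.Agent.Lib.P369
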