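import Vale.Agent.Lib.P369.Kernel2

open Finset

namespace Vale.Agent.Lib.P369

/-- Triple sums over a box. -/
def Sb (A B C : ℕ) (u : ℕ → ℕ → ℕ → ℝ) : ℝ :=
  ∑ j ∈ range C, ∑ k ∈ range A, ∑ l ∈ range B, u j k l

/-- Lower the index `j`, with value zero at index zero. -/
def pj (u : ℕ → ℕ → ℕ → ℝ) : ℕ → ℕ → ℕ → ℝ
  | 0, _, _ => 0
  | j + 1, k, l => u j k l

/-- Lower the index `k`, with value zero at index zero. -/
def pk (u : ℕ → ℕ → ℕ → ℝ) : ℕ → ℕ → ℕ → ℝ
  | _, 0, _ => 0
  | j, k + 1, l => u j k l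

/-- Lower the index `l`, with value zero at index zero. -/
def pl (u : ℕ → ℕ → ℕ → ℝ) : ℕ → ℕ → ℕ → ℝ
  | _, _, 0 => 0
  | j, k, l + 1 => u j k l

lemma sum_range_succ_pr {n : ℕ} {v w : ℕ → ℝ} (h0 : v 0 = 0) (h : ∀ i, v (i + 1) = w i) :
    ∑ i ∈ range (n + 1), v i = ∑ i ∈ range n, w i := by
  rw [sum_range_succ', h0, add_zero]
  exact sum_congr rfl fun i _ => h i

lemma Sb_pk (A B C : ℕ) (u : ℕ → ℕ → ℕ → ℝ) : Sb (A + 1) B C (pk u) = Sb A B C u := by
  unfold Sb
  refine sum_congr rfl fun j _ => ?_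
  exact sum_range_succ_pr (by simp [pk]) (fun k => by simp [pk])

lemma Sb_pl (A B C : ℕ) (u : ℕ → ℕ → ℕ → ℝ) : Sb A (B + 1) C (pl u) = Sb A B C u := by
  unfold Sb
  refine sum_congr rfl fun j _ => sum_congr rfl fun k _ => ?_
  exact sum_range_succ_pr (by simp [pl]) (fun l => by simp [pl])

lemma Sb_pj (A B C : ℕ) (u : ℕ → ℕ → ℕ → ℝ) : Sb A B (C + 1) (pj u) = Sb A B C u := by
  unfold Sb
  exact sum_range_succ_pr (by simp [pj]) (fun j => by simp [pj])

/-- Moving a shift from one factor of a product to the other, one coordinate. -/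
lemma sum_shift (M : ℕ) (u v : ℕ → ℝ) (w : ℕ → ℝ) (h0 : w 0 = 0) (hw : ∀ i, w (i + 1) = u i)
    (hv : v M = 0) :
    ∑ i ∈ range M, u i * v (i + 1) = ∑ i ∈ range M, w i * v i := by
  cases M with
  | zero => simp
  | succ m =>
    rw [sum_range_succ, hv, mul_zero, add_zero, sum_range_succ', h0, zero_mul, add_zero]
    exact sum_congr rfl fun i _ => by rw [hw]

lemma Sb_shift_l (M : ℕ) (u f : ℕ → ℕ → ℕ → ℝ) (hf : ∀ j k, f j k M = 0) :
    Sb M M M (fun j k l => u j k l * f j k (l + 1)) = Sb M M M (fun j k l => pl u j k l * f j k l) := by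
  unfold Sb
  refine sum_congr rfl fun j _ => sum_congr rfl fun k _ => ?_
  exact sum_shift M (fun l => u j k l) (fun l => f j k l) (fun l => pl u j k l) (by simp [pl])
    (fun l => by simp [pl]) (hf j k)

lemma Sb_shift_k (M : ℕ) (u f : ℕ → ℕ → ℕ → ℝ) (hf : ∀ j l, f j M l = 0) :
    Sb M M M (fun j k l => u j k l * f j (k + 1) l) = Sb M M M (fun j k l => pk u j k l * f j k l) := by
  unfold Sb
  refine sum_congr rfl fun j _ => ?_
  rw [sum_comm, sum_comm (s := range M) (t := range M) (f := fun k l => pk u j k l * f j k l)]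
  refine sum_congr rfl fun l _ => ?_
  exact sum_shift M (fun k => u j k l) (fun k => f j k l) (fun k => pk u j k l) (by simp [pk])
    (fun k => by simp [pk]) (hf j l)

lemma Sb_shift_j (M : ℕ) (u f : ℕ → ℕ → ℕ → ℝ) (hf : ∀ k l, f M k l = 0) :
    Sb M M M (fun j k l => u j k l * f (j + 1) k l) = Sb M M M (fun j k l => pj u j k l * f j k l) := by
  have key : ∀ F : ℕ → ℕ → ℕ → ℝ, Sb M M M F = ∑ k ∈ range M, ∑ l ∈ range M, ∑ j ∈ range M, F j k l := by
    intro F
    unfold Sb
    rw [sum_comm]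
    refine sum_congr rfl fun k _ => ?_
    rw [sum_comm]
  rw [key, key]
  refine sum_congr rfl fun k _ => sum_congr rfl fun l _ => ?_
  exact sum_shift M (fun j => u j k l) (fun j => f j k l) (fun j => pj u j k l) (by simp [pj])
    (fun j => by simp [pj]) (hf k l)

/-- Linearity of the box sums in the form used below. -/
lemma Sb_lin (A B C : ℕ) (x₁ x₂ x₃ x₄ x₅ x₆ : ℕ → ℕ → ℕ → ℝ) (c₂ c₃ c₄ c₅ : ℝ) :
    Sb A B C (fun j k l => x₁ j k l - c₂ * x₂ j k l - c₃ * x₃ j k l - c₄ * x₄ j k l
      - c₅ * x₅ j k l + x₆ j k l) =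
    Sb A B C x₁ - c₂ * Sb A B C x₂ - c₃ * Sb A B C x₃ - c₄ * Sb A B C x₄ - c₅ * Sb A B C x₅
      + Sb A B C x₆ := by
  unfold Sb
  simp only [sum_add_distrib, sum_sub_distrib, mul_sum]

section Kernel
variable {η : ℝ} (h0 : 0 ≤ η) (h1 : η ≤ 1)
include h0 h1

/-- The fundamental recursion of the transition probabilities, coming from the generating function
`1 / (1 - (1-η) x - η y - η x z - (1-η) y z + x y z)`. -/
lemma trans_fund (j k l : ℕ) :
    trans η j k l - (1 - η) * pk (trans η) j k l - η * pl (trans η) j k l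
      - η * pk (pj (trans η)) j k l - (1 - η) * pl (pj (trans η)) j k l
      + pl (pk (pj (trans η))) j k l = if j = 0 ∧ k = 0 ∧ l = 0 then 1 else 0 := by
  cases j with
  | zero =>
    cases k with
    | zero =>
      cases l with
      | zero => simp [pj, pk, pl, trans_zero_zero_zero h0 h1]
      | succ l =>
        simp only [pj, pk, pl, trans_zero_l_zero h0 h1 l]
        simp
    | succ k =>
      cases l with
      | zero =>
        simp only [pj, pk, pl, trans_k_zero_zero h0 h1 k]
        simp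
      | succ l =>
        simp only [pj, pk, pl, trans_rec_zero h0 h1 k l]
        simp
  | succ j =>
    cases k with
    | zero =>
      cases l with
      | zero =>
        simp only [pj, pk, pl, trans_zero_zero_succ (η := η) h0 h1 j]
        simp
      | succ l =>
        simp only [pj, pk, pl, trans_zero_l_succ h0 h1 j l]
        simp
    | succ k =>
      cases l with
      | zero =>
        simp only [pj, pk, pl, trans_k_zero_succ h0 h1 j k]
        simp
      | succ l =>
        simp only [pj, pk, pl, trans_rec_succ h0 h1 j k l]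
        simp
        ring

/-- The box sum of the transition probabilities. -/
noncomputable def Vb (η : ℝ) (a b c : ℕ) : ℝ := Sb a b c (trans η)

/-- The box sums solve the discrete wave equation with right hand side one. -/
lemma Vb_wave (a b c : ℕ) :
    Vb η (a + 1) (b + 1) (c + 1) - (1 - η) * Vb η a (b + 1) (c + 1) - η * Vb η (a + 1) b (c + 1)
      - η * Vb η a (b + 1) c - (1 - η) * Vb η (a + 1) b c + Vb η a b c = 1 := by
  have e1 : Vb η a (b + 1) (c + 1) = Sb (a + 1) (b + 1) (c + 1) (pk (trans η)) :=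
    (Sb_pk _ _ _ _).symm
  have e2 : Vb η (a + 1) b (c + 1) = Sb (a + 1) (b + 1) (c + 1) (pl (trans η)) :=
    (Sb_pl _ _ _ _).symm
  have e3 : Vb η a (b + 1) c = Sb (a + 1) (b + 1) (c + 1) (pk (pj (trans η))) := by
    rw [Sb_pk, Sb_pj]; rfl
  have e4 : Vb η (a + 1) b c = Sb (a + 1) (b + 1) (c + 1) (pl (pj (trans η))) := by
    rw [Sb_pl, Sb_pj]; rfl
  have e5 : Vb η a b c = Sb (a + 1) (b + 1) (c + 1) (pl (pk (pj (trans η)))) := by
    rw [Sb_pl, Sb_pk, Sb_pj]; rfl
  have e6 : Vb η (a + 1) (b + 1) (c + 1) = Sb (a + 1) (b + 1) (c + 1) (trans η) := rfl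
  rw [e1, e2, e3, e4, e5, e6, ← Sb_lin]
  have e7 : (fun j k l => trans η j k l - (1 - η) * pk (trans η) j k l - η * pl (trans η) j k l
      - η * pk (pj (trans η)) j k l - (1 - η) * pl (pj (trans η)) j k l
      + pl (pk (pj (trans η))) j k l) = fun j k l => if j = 0 ∧ k = 0 ∧ l = 0 then (1 : ℝ) else 0 := by
    funext j k l
    exact trans_fund h0 h1 j k l
  rw [e7]
  unfold Sb
  rw [sum_eq_single 0, sum_eq_single 0, sum_eq_single 0]
  · simp
  · intro l _ hl; simp [hl]
  · simp
  · intro k _ hk; simp [hk]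
  · simp
  · intro j _ hj; simp [hj]
  · simp

lemma Vb_succ_a (a b c : ℕ) :
    Vb η (a + 1) b c = Vb η a b c + ∑ j ∈ range c, ∑ l ∈ range b, trans η j a l := by
  unfold Vb Sb
  rw [← sum_add_distrib]
  refine sum_congr rfl fun j _ => ?_
  rw [sum_range_succ]

lemma Vb_succ_b (a b c : ℕ) :
    Vb η a (b + 1) c = Vb η a b c + ∑ j ∈ range c, ∑ k ∈ range a, trans η j k b := by
  unfold Vb Sb
  rw [← sum_add_distrib]
  refine sum_congr rfl fun j _ => ?_
  rw [← sum_add_distrib]
  refine sum_congr rfl fun k _ => ?_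
  rw [sum_range_succ]

lemma Vb_succ_c (a b c : ℕ) :
    Vb η a b (c + 1) = Vb η a b c + ∑ k ∈ range a, ∑ l ∈ range b, trans η c k l := by
  unfold Vb Sb
  rw [sum_range_succ]

/-- The mixed differences of the box sums are nonnegative. -/
lemma Vb_mixed_ab (a b c : ℕ) :
    0 ≤ Vb η (a + 1) (b + 1) c - Vb η a (b + 1) c - Vb η (a + 1) b c + Vb η a b c := by
  have e : Vb η (a + 1) (b + 1) c - Vb η a (b + 1) c - Vb η (a + 1) b c + Vb η a b c =
      ∑ j ∈ range c, trans η j a b := by
    rw [Vb_succ_a h0 h1 a (b + 1) c, Vb_succ_a h0 h1 a b c]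
    have : ∑ j ∈ range c, ∑ l ∈ range (b + 1), trans η j a l =
        ∑ j ∈ range c, ∑ l ∈ range b, trans η j a l + ∑ j ∈ range c, trans η j a b := by
      rw [← sum_add_distrib]
      exact sum_congr rfl fun j _ => sum_range_succ _ _
    rw [this]
    ring
  rw [e]
  exact sum_nonneg fun j _ => trans_nonneg _ _ _

lemma Vb_mixed_ac (a b c : ℕ) :
    0 ≤ Vb η (a + 1) b (c + 1) - Vb η a b (c + 1) - Vb η (a + 1) b c + Vb η a b c := by
  have e : Vb η (a + 1) b (c + 1) - Vb η a b (c + 1) - Vb η (a + 1) b c + Vb η a b c =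
      ∑ l ∈ range b, trans η c a l := by
    rw [Vb_succ_a h0 h1 a b (c + 1), Vb_succ_a h0 h1 a b c, sum_range_succ]
    ring
  rw [e]
  exact sum_nonneg fun j _ => trans_nonneg _ _ _

lemma Vb_mixed_bc (a b c : ℕ) :
    0 ≤ Vb η a (b + 1) (c + 1) - Vb η a b (c + 1) - Vb η a (b + 1) c + Vb η a b c := by
  have e : Vb η a (b + 1) (c + 1) - Vb η a b (c + 1) - Vb η a (b + 1) c + Vb η a b c =
      ∑ k ∈ range a, trans η c k b := by
    rw [Vb_succ_b h0 h1 a b (c + 1), Vb_succ_b h0 h1 a b c, sum_range_succ]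
    ring
  rw [e]
  exact sum_nonneg fun j _ => trans_nonneg _ _ _

end Kernel

/-- The number of elements of `S` at or above `m`. -/
def rk (S : Finset ℕ) (m : ℕ) : ℕ := (S.filter (fun x => m ≤ x)).card

lemma rk_succ (S : Finset ℕ) (m : ℕ) : rk S m = rk S (m + 1) + if m ∈ S then 1 else 0 := by
  unfold rk
  have e : S.filter (fun x => m ≤ x) =
      S.filter (fun x => m + 1 ≤ x) ∪ (if m ∈ S then {m} else ∅) := by
    ext x
    by_cases hm : m ∈ S
    · simp only [mem_filter, hm, if_true, mem_union, mem_singleton]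
      constructor
      · rintro ⟨h1, h2⟩
        rcases Nat.lt_or_ge m x with h | h
        · exact Or.inl ⟨h1, h⟩
        · exact Or.inr (by omega)
      · rintro (⟨h1, h2⟩ | rfl)
        · exact ⟨h1, by omega⟩
        · exact ⟨hm, le_rfl⟩
    · simp only [mem_filter, hm, if_false, union_empty]
      constructor
      · rintro ⟨h1, h2⟩
        refine ⟨h1, ?_⟩
        rcases Nat.lt_or_ge m x with h | h
        · exact h
        · have : x = m := by omega
          rw [this] at h1
          exact absurd h1 hm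
      · rintro ⟨h1, h2⟩
        exact ⟨h1, by omega⟩
  rw [e, card_union_of_disjoint]
  · by_cases hm : m ∈ S <;> simp [hm]
  · by_cases hm : m ∈ S
    · simp [hm]
    · simp [hm]

lemma rk_zero (S : Finset ℕ) : rk S 0 = S.card := by
  unfold rk
  simp

lemma rk_eq_zero {S : Finset ℕ} {m : ℕ} (h : ∀ x ∈ S, x < m) : rk S m = 0 := by
  unfold rk
  rw [card_eq_zero, filter_eq_empty_iff]
  intro x hx
  have := h x hx
  omega

lemma Vb_zero_a (η : ℝ) (b c : ℕ) : Vb η 0 b c = 0 := by simp [Vb, Sb]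
lemma Vb_zero_b (η : ℝ) (a c : ℕ) : Vb η a 0 c = 0 := by simp [Vb, Sb]
lemma Vb_zero_c (η : ℝ) (a b : ℕ) : Vb η a b 0 = 0 := by simp [Vb, Sb]

section Main
variable {η : ℝ} (h0 : 0 ≤ η) (h1 : η ≤ 1)
include h0 h1

/-- The discrete Green identity: a finitely supported function is recovered from the forward
difference operator through the transition probabilities. -/
lemma green (M : ℕ) (hM : 0 < M) (f : ℕ → ℕ → ℕ → ℝ) (hj : ∀ k l, f M k l = 0)
    (hk : ∀ j l, f j M l = 0) (hl : ∀ j k, f j k M = 0) :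
    Sb M M M (fun j k l => trans η j k l *
      (f j k l - (1 - η) * f j (k + 1) l - η * f j k (l + 1) - η * f (j + 1) (k + 1) l
        - (1 - η) * f (j + 1) k (l + 1) + f (j + 1) (k + 1) (l + 1))) = f 0 0 0 := by
  have s1 := Sb_shift_k M (trans η) f hk
  have s2 := Sb_shift_l M (trans η) f hl
  have s3 : Sb M M M (fun j k l => trans η j k l * f (j + 1) (k + 1) l) =
      Sb M M M (fun j k l => pk (pj (trans η)) j k l * f j k l) := by
    rw [Sb_shift_j M (trans η) (fun j k l => f j (k + 1) l) (fun k l => hj (k + 1) l)]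
    exact Sb_shift_k M (pj (trans η)) f hk
  have s4 : Sb M M M (fun j k l => trans η j k l * f (j + 1) k (l + 1)) =
      Sb M M M (fun j k l => pl (pj (trans η)) j k l * f j k l) := by
    rw [Sb_shift_j M (trans η) (fun j k l => f j k (l + 1)) (fun k l => hj k (l + 1))]
    exact Sb_shift_l M (pj (trans η)) f hl
  have s5 : Sb M M M (fun j k l => trans η j k l * f (j + 1) (k + 1) (l + 1)) =
      Sb M M M (fun j k l => pl (pk (pj (trans η))) j k l * f j k l) := by
    rw [Sb_shift_j M (trans η) (fun j k l => f j (k + 1) (l + 1)) (fun k l => hj (k + 1) (l + 1))]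
    rw [Sb_shift_k M (pj (trans η)) (fun j k l => f j k (l + 1)) (fun j l => hk j (l + 1))]
    exact Sb_shift_l M (pk (pj (trans η))) f hl
  have key : Sb M M M (fun j k l => (if j = 0 ∧ k = 0 ∧ l = 0 then (1 : ℝ) else 0) * f j k l) =
      f 0 0 0 := by
    obtain ⟨m, rfl⟩ : ∃ m, M = m + 1 := ⟨M - 1, by omega⟩
    unfold Sb
    rw [sum_eq_single 0, sum_eq_single 0, sum_eq_single 0]
    · simp
    · intro l _ hl'; simp [hl']
    · simp
    · intro k _ hk'; simp [hk']
    · simp
    · intro j _ hj'; simp [hj']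
    · simp
  have e7 : (fun j k l => (if j = 0 ∧ k = 0 ∧ l = 0 then (1 : ℝ) else 0) * f j k l) =
      fun j k l => trans η j k l * f j k l - (1 - η) * (pk (trans η) j k l * f j k l)
        - η * (pl (trans η) j k l * f j k l) - η * (pk (pj (trans η)) j k l * f j k l)
        - (1 - η) * (pl (pj (trans η)) j k l * f j k l)
        + pl (pk (pj (trans η))) j k l * f j k l := by
    funext j k l
    rw [← trans_fund h0 h1 j k l]
    ring
  have e8 : (fun j k l => trans η j k l *
      (f j k l - (1 - η) * f j (k + 1) l - η * f j k (l + 1) - η * f (j + 1) (k + 1) l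
        - (1 - η) * f (j + 1) k (l + 1) + f (j + 1) (k + 1) (l + 1))) =
      fun j k l => trans η j k l * f j k l - (1 - η) * (trans η j k l * f j (k + 1) l)
        - η * (trans η j k l * f j k (l + 1)) - η * (trans η j k l * f (j + 1) (k + 1) l)
        - (1 - η) * (trans η j k l * f (j + 1) k (l + 1))
        + trans η j k l * f (j + 1) (k + 1) (l + 1) := by
    funext j k l
    ring
  rw [e7] at key
  rw [e8, Sb_lin, s1, s2, s3, s4, s5, ← Sb_lin]
  exact key

/-- **Riesz rearrangement for the beam splitter kernel.** For all finite sets the sum of the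
transition probabilities over `J × A × B` is at most the sum over the box of initial segments with
the same sizes. -/
theorem riesz_finset (J A B : Finset ℕ) :
    ∑ j ∈ J, ∑ k ∈ A, ∑ l ∈ B, trans η j k l ≤ Vb η A.card B.card J.card := by
  obtain ⟨M, hM, hMJ, hMA, hMB⟩ : ∃ M : ℕ, 0 < M ∧ (∀ x ∈ J, x < M) ∧ (∀ x ∈ A, x < M) ∧
      (∀ x ∈ B, x < M) := by
    refine ⟨J.sup id + A.sup id + B.sup id + 1, by omega, fun x hx => ?_, fun x hx => ?_,
      fun x hx => ?_⟩
    · have := le_sup (f := id) hx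
      simp only [id] at this
      omega
    · have := le_sup (f := id) hx
      simp only [id] at this
      omega
    · have := le_sup (f := id) hx
      simp only [id] at this
      omega
  set f : ℕ → ℕ → ℕ → ℝ := fun j k l => Vb η (rk A k) (rk B l) (rk J j) with hf
  have hG := green h0 h1 M hM f
    (fun k l => by simp only [hf]; rw [rk_eq_zero hMJ, Vb_zero_c])
    (fun j l => by simp only [hf]; rw [rk_eq_zero hMA, Vb_zero_a])
    (fun j k => by simp only [hf]; rw [rk_eq_zero hMB, Vb_zero_b])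
  have hf0 : f 0 0 0 = Vb η A.card B.card J.card := by
    simp only [hf, rk_zero]
  rw [← hf0, ← hG]
  have hsub : ∀ (S : Finset ℕ) (u : ℕ → ℝ), (∀ x ∈ S, x < M) →
      ∑ i ∈ S, u i = ∑ i ∈ range M, if i ∈ S then u i else 0 := by
    intro S u hS
    rw [sum_ite_mem, inter_eq_right.mpr (fun x hx => mem_range.mpr (hS x hx))]
  have hlhs : ∑ j ∈ J, ∑ k ∈ A, ∑ l ∈ B, trans η j k l =
      Sb M M M (fun j k l => if j ∈ J then (if k ∈ A then (if l ∈ B then trans η j k l else 0) else 0)
        else 0) := by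
    unfold Sb
    rw [hsub J _ hMJ]
    refine sum_congr rfl fun j _ => ?_
    by_cases hj : j ∈ J
    · simp only [hj, if_true]
      rw [hsub A _ hMA]
      refine sum_congr rfl fun k _ => ?_
      by_cases hk : k ∈ A
      · simp only [hk, if_true]
        rw [hsub B _ hMB]
      · simp [hk]
    · simp [hj]
  rw [hlhs]
  unfold Sb
  refine sum_le_sum fun j _ => sum_le_sum fun k _ => sum_le_sum fun l _ => ?_
  have hT := trans_nonneg (η := η) j k l
  have hrA := rk_succ A k
  have hrB := rk_succ B l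
  have hrJ := rk_succ J j
  simp only [hf]
  set a := rk A (k + 1)
  set b := rk B (l + 1)
  set c := rk J (j + 1)
  have m1 := Vb_mixed_ab (η := η) h0 h1 a b c
  have m2 := Vb_mixed_ac (η := η) h0 h1 a b c
  have m3 := Vb_mixed_bc (η := η) h0 h1 a b c
  have hw := Vb_wave (η := η) h0 h1 a b c
  have h1e : 0 ≤ 1 - η := by linarith
  rw [hrA, hrB, hrJ]
  by_cases hj : j ∈ J <;> by_cases hk : k ∈ A <;> by_cases hl : l ∈ B <;>
    simp only [hj, hk, hl, if_true, if_false, add_zero]
  · have : Vb η (a + 1) (b + 1) (c + 1) - (1 - η) * Vb η a (b + 1) (c + 1) -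
        η * Vb η (a + 1) b (c + 1) - η * Vb η a (b + 1) c - (1 - η) * Vb η (a + 1) b c +
        Vb η a b c = 1 := hw
    rw [this, mul_one]
  · have h3 := mul_nonneg h1e m2
    have : 0 ≤ Vb η (a + 1) b (c + 1) - (1 - η) * Vb η a b (c + 1) - η * Vb η (a + 1) b (c + 1) -
        η * Vb η a b c - (1 - η) * Vb η (a + 1) b c + Vb η a b c := by
      linarith
    exact mul_nonneg hT this
  · have h3 := mul_nonneg h0 m3
    have : 0 ≤ Vb η a (b + 1) (c + 1) - (1 - η) * Vb η a (b + 1) (c + 1) - η * Vb η a b (c + 1) -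
        η * Vb η a (b + 1) c - (1 - η) * Vb η a b c + Vb η a b c := by
      linarith
    exact mul_nonneg hT this
  · have : 0 ≤ Vb η a b (c + 1) - (1 - η) * Vb η a b (c + 1) - η * Vb η a b (c + 1) -
        η * Vb η a b c - (1 - η) * Vb η a b c + Vb η a b c := by
      nlinarith
    exact mul_nonneg hT this
  · have : 0 ≤ Vb η (a + 1) (b + 1) c - (1 - η) * Vb η a (b + 1) c - η * Vb η (a + 1) b c -
        η * Vb η a (b + 1) c - (1 - η) * Vb η (a + 1) b c + Vb η a b c := by
      linarith
    exact mul_nonneg hT this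
  · have : 0 ≤ Vb η (a + 1) b c - (1 - η) * Vb η a b c - η * Vb η (a + 1) b c -
        η * Vb η a b c - (1 - η) * Vb η (a + 1) b c + Vb η a b c := by
      nlinarith
    exact mul_nonneg hT this
  · have : 0 ≤ Vb η a (b + 1) c - (1 - η) * Vb η a (b + 1) c - η * Vb η a b c -
        η * Vb η a (b + 1) c - (1 - η) * Vb η a b c + Vb η a b c := le_of_eq (by ring)
    exact mul_nonneg hT this
  · have : 0 ≤ Vb η a b c - (1 - η) * Vb η a b c - η * Vb η a b c -
        η * Vb η a b c - (1 - η) * Vb η a b c + Vb η a b c := by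
      nlinarith
    exact mul_nonneg hT this

end Main

end Vale.Agent.Lib.P369
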