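import Vale.Agent.Lib.P369.Final

open Finset Filter Topology

namespace Vale.Agent.Lib.P369

section Tools
variable {A X I : Type*}

lemma hasSum_prod_of_nonneg {f : A × X → ℝ} (h0 : ∀ z, 0 ≤ f z) {u : A → ℝ} {U : ℝ}
    (hu : ∀ a, HasSum (fun x => f (a, x)) (u a)) (hU : HasSum u U) : HasSum f U := by
  have hs : Summable f := by
    rw [summable_prod_of_nonneg (f := f) (fun z => h0 z)]
    refine ⟨fun a => (hu a).summable, ?_⟩
    have : (fun a => ∑' x, f (a, x)) = u := funext fun a => (hu a).tsum_eq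
    rw [this]
    exact hU.summable
  have h2 := hs.hasSum.prod_fiberwise hu
  rw [← h2.unique hU]
  exact hs.hasSum

/-- Entropy on an arbitrary countable index type. -/
noncomputable def ent (P : X → ℝ) : ℝ := ∑' x, Real.negMulLog (P x)

/-- The output distribution for a kernel `R j k l`. -/
noncomputable def outK (R : X → X → X → ℝ) (P Q : X → ℝ) (j : X) : ℝ :=
  ∑' x : X × X, P x.1 * Q x.2 * R j x.1 x.2

/-- First marginal. -/
noncomputable def marg (P : I × X → ℝ) (i : I) : ℝ := ∑' x, P (i, x)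

/-- Conditional distribution. -/
noncomputable def cond (P : I × X → ℝ) (i : I) (x : X) : ℝ := P (i, x) / marg P i

/-- Product kernel. -/
def prodKer (T : I → I → I → ℝ) (R : X → X → X → ℝ) (j k l : I × X) : ℝ :=
  T j.1 k.1 l.1 * R j.2 k.2 l.2

/-- Additive size on a product. -/
def prodSz (szI : I → ℝ) (sz : X → ℝ) (z : I × X) : ℝ := szI z.1 + sz z.2

/-- A probability distribution with finite mean size. -/
structure Dist (sz : X → ℝ) (P : X → ℝ) : Prop where
  nonneg : ∀ x, 0 ≤ P x
  hasSum : HasSum P 1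
  mean : Summable fun x => sz x * P x

/-- A stochastic kernel for which the mean size is at most additive. -/
structure Ker (sz : X → ℝ) (R : X → X → X → ℝ) : Prop where
  nonneg : ∀ j k l, 0 ≤ R j k l
  hasSum : ∀ k l, HasSum (fun j => R j k l) 1
  mean : ∀ k l, Summable (fun j => sz j * R j k l)
  mean_le : ∀ k l, ∑' j, sz j * R j k l ≤ sz k + sz l

lemma Dist.le_one {sz P : X → ℝ} (h : Dist sz P) (x : X) : P x ≤ 1 :=
  le_hasSum h.hasSum x (fun y _ => h.nonneg y)

lemma Dist.negMulLog_nonneg {sz P : X → ℝ} (h : Dist sz P) (x : X) :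
    0 ≤ Real.negMulLog (P x) :=
  Real.negMulLog_nonneg (h.nonneg x) (h.le_one x)

lemma Dist.summable_ent {sz P : X → ℝ} (h : Dist sz P)
    (hexp : Summable fun x => Real.exp (-sz x - 1)) :
    Summable fun x => Real.negMulLog (P x) :=
  Summable.of_nonneg_of_le h.negMulLog_nonneg
    (fun x => negMulLog_le_tangent (h.nonneg x) (sz x)) (h.mean.add hexp)

lemma Dist.ent_nonneg {sz P : X → ℝ} (h : Dist sz P) : 0 ≤ ent P :=
  tsum_nonneg h.negMulLog_nonneg

lemma Ker.le_one {sz : X → ℝ} {R : X → X → X → ℝ} (h : Ker sz R) (j k l : X) : R j k l ≤ 1 :=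
  le_hasSum (h.hasSum k l) j (fun i _ => h.nonneg i k l)

lemma hasSum_mul_of_nonneg {Y : Type*} {P : X → ℝ} {Q : Y → ℝ} {a b : ℝ} (hP0 : ∀ x, 0 ≤ P x)
    (hQ0 : ∀ x, 0 ≤ Q x) (hP : HasSum P a) (hQ : HasSum Q b) :
    HasSum (fun x : X × Y => P x.1 * Q x.2) (a * b) :=
  hasSum_prod_of_nonneg (fun z => mul_nonneg (hP0 _) (hQ0 _))
    (fun i => hQ.mul_left (P i)) (hP.mul_right b)

lemma outK_nonneg {sz : X → ℝ} {R : X → X → X → ℝ} (hR : Ker sz R) {P Q : X → ℝ}
    (hP : ∀ x, 0 ≤ P x) (hQ : ∀ x, 0 ≤ Q x) (j : X) : 0 ≤ outK R P Q j :=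
  tsum_nonneg fun x => mul_nonneg (mul_nonneg (hP _) (hQ _)) (hR.nonneg _ _ _)

theorem Ker.dist_outK {sz : X → ℝ} {R : X → X → X → ℝ} (hsz : ∀ x, 0 ≤ sz x) (hR : Ker sz R)
    {P Q : X → ℝ} (hP : Dist sz P) (hQ : Dist sz Q) : Dist sz (outK R P Q) := by
  refine ⟨outK_nonneg hR hP.nonneg hQ.nonneg, ?_, ?_⟩
  · have hf : HasSum (fun z : (X × X) × X => P z.1.1 * Q z.1.2 * R z.2 z.1.1 z.1.2) 1 := by
      refine hasSum_prod_of_nonneg
        (fun z => mul_nonneg (mul_nonneg (hP.nonneg _) (hQ.nonneg _)) (hR.nonneg _ _ _))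
        (u := fun x => P x.1 * Q x.2) (fun x => ?_) ?_
      · simpa using (hR.hasSum x.1 x.2).mul_left (P x.1 * Q x.2)
      · simpa using hasSum_mul_of_nonneg hP.nonneg hQ.nonneg hP.hasSum hQ.hasSum
    exact (hasSum_swap_fiber hf).1
  · have hg0 : (0 : (X × X) × X → ℝ) ≤ fun z => P z.1.1 * Q z.1.2 * (sz z.2 * R z.2 z.1.1 z.1.2) := fun z =>
      mul_nonneg (mul_nonneg (hP.nonneg _) (hQ.nonneg _)) (mul_nonneg (hsz _) (hR.nonneg _ _ _))
    have hg : Summable (fun z : (X × X) × X => P z.1.1 * Q z.1.2 * (sz z.2 * R z.2 z.1.1 z.1.2)) := by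
      rw [summable_prod_of_nonneg hg0]
      refine ⟨fun x => ?_, ?_⟩
      · show Summable (fun j => P x.1 * Q x.2 * (sz j * R j x.1 x.2))
        exact (hR.mean x.1 x.2).mul_left (P x.1 * Q x.2)
      have h1 : Summable (fun x : X × X => sz x.1 * P x.1 * Q x.2) :=
        hP.mean.mul_of_nonneg hQ.hasSum.summable (fun k => mul_nonneg (hsz k) (hP.nonneg k))
          hQ.nonneg
      have h2 : Summable (fun x : X × X => P x.1 * (sz x.2 * Q x.2)) :=
        hP.hasSum.summable.mul_of_nonneg hQ.mean hP.nonneg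
          (fun k => mul_nonneg (hsz k) (hQ.nonneg k))
      refine Summable.of_nonneg_of_le (fun x => tsum_nonneg fun j => hg0 (x, j)) (fun x => ?_)
        (h1.add h2)
      show ∑' j, P x.1 * Q x.2 * (sz j * R j x.1 x.2) ≤ _
      rw [tsum_mul_left]
      have h3 := hR.mean_le x.1 x.2
      have h4 : 0 ≤ P x.1 * Q x.2 := mul_nonneg (hP.nonneg _) (hQ.nonneg _)
      calc P x.1 * Q x.2 * ∑' j, sz j * R j x.1 x.2 ≤ P x.1 * Q x.2 * (sz x.1 + sz x.2) :=
            mul_le_mul_of_nonneg_left h3 h4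
        _ = _ := by ring
    refine (hasSum_swap_fiber hg.hasSum).1.summable.congr (fun j => ?_)
    show (∑' x : X × X, P x.1 * Q x.2 * (sz j * R j x.1 x.2)) =
      sz j * (∑' x : X × X, P x.1 * Q x.2 * R j x.1 x.2)
    rw [← tsum_mul_left]
    apply tsum_congr
    intro x
    ring

theorem Ker.prod {szI : I → ℝ} {sz : X → ℝ} {T : I → I → I → ℝ} {R : X → X → X → ℝ}
    (hszI : ∀ x, 0 ≤ szI x) (hsz : ∀ x, 0 ≤ sz x) (hT : Ker szI T) (hR : Ker sz R) :
    Ker (prodSz szI sz) (prodKer T R) := by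
  have key : ∀ k l : I × X, HasSum (fun j : I × X => prodSz szI sz j * prodKer T R j k l)
      ((∑' i, szI i * T i k.1 l.1) + ∑' x, sz x * R x k.2 l.2) := by
    intro k l
    refine hasSum_prod_of_nonneg (fun z => mul_nonneg (add_nonneg (hszI _) (hsz _))
        (mul_nonneg (hT.nonneg _ _ _) (hR.nonneg _ _ _)))
      (u := fun i => szI i * T i k.1 l.1 + T i k.1 l.1 * ∑' x, sz x * R x k.2 l.2) (fun i => ?_) ?_
    · have h1 := (hR.hasSum k.2 l.2).mul_left (szI i * T i k.1 l.1)
      have h2 := (hR.mean k.2 l.2).hasSum.mul_left (T i k.1 l.1)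
      have h3 := h1.add h2
      simp only [mul_one] at h3
      refine h3.congr_fun ?_ 
      intro x
      simp only [prodSz, prodKer]
      ring
    · have h1 := (hT.mean k.1 l.1).hasSum
      have h2 := (hT.hasSum k.1 l.1).mul_right (∑' x, sz x * R x k.2 l.2)
      have h3 := h1.add h2
      simpa using h3
  refine ⟨fun j k l => mul_nonneg (hT.nonneg _ _ _) (hR.nonneg _ _ _), fun k l => ?_,
    fun k l => (key k l).summable, fun k l => ?_⟩
  · refine hasSum_prod_of_nonneg (fun z => mul_nonneg (hT.nonneg _ _ _) (hR.nonneg _ _ _))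
      (u := fun i => T i k.1 l.1) (fun i => ?_) (hT.hasSum k.1 l.1)
    simpa using (hR.hasSum k.2 l.2).mul_left (T i k.1 l.1)
  · rw [(key k l).tsum_eq]
    have h1 := hT.mean_le k.1 l.1
    have h2 := hR.mean_le k.2 l.2
    simp only [prodSz]
    linarith

section Marg
variable {szI : I → ℝ} {sz : X → ℝ} {P : I × X → ℝ}

lemma Dist.fiber (hP : Dist (prodSz szI sz) P) (i : I) : HasSum (fun x => P (i, x)) (marg P i) :=
  (hP.hasSum.summable.prod_factor i).hasSum

lemma Dist.dist_marg (hszI : ∀ x, 0 ≤ szI x) (hsz : ∀ x, 0 ≤ sz x) (hP : Dist (prodSz szI sz) P) :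
    Dist szI (marg P) := by
  refine ⟨fun i => tsum_nonneg fun x => hP.nonneg _, hP.hasSum.prod_fiberwise hP.fiber, ?_⟩
  have h1 : Summable (fun z : I × X => szI z.1 * P z) := by
    refine Summable.of_nonneg_of_le (fun z => mul_nonneg (hszI _) (hP.nonneg _)) (fun z => ?_) hP.mean
    apply mul_le_mul_of_nonneg_right _ (hP.nonneg _)
    simp only [prodSz]
    linarith [hsz z.2]
  refine h1.prod.congr (fun i => ?_)
  show (∑' x, szI i * P (i, x)) = szI i * ∑' x, P (i, x)
  rw [tsum_mul_left]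

lemma Dist.dist_cond (hszI : ∀ x, 0 ≤ szI x) (hsz : ∀ x, 0 ≤ sz x) (hP : Dist (prodSz szI sz) P)
    {i : I} (hm : 0 < marg P i) : Dist sz (cond P i) := by
  refine ⟨fun x => div_nonneg (hP.nonneg _) hm.le, ?_, ?_⟩
  · have := (hP.fiber i).div_const (marg P i)
    rwa [div_self hm.ne'] at this
  · have h1 : Summable (fun z : I × X => sz z.2 * P z) := by
      refine Summable.of_nonneg_of_le (fun z => mul_nonneg (hsz _) (hP.nonneg _)) (fun z => ?_) hP.mean
      apply mul_le_mul_of_nonneg_right _ (hP.nonneg _)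
      simp only [prodSz]
      linarith [hszI z.1]
    refine ((h1.prod_factor i).div_const (marg P i)).congr (fun x => ?_)
    simp only [cond]
    ring

lemma Dist.mul_cond (hP : Dist (prodSz szI sz) P) (i : I) (x : X) :
    P (i, x) = marg P i * cond P i x := by
  have h1 : P (i, x) ≤ marg P i := le_hasSum (hP.fiber i) x (fun y _ => hP.nonneg _)
  have h0 := hP.nonneg (i, x)
  by_cases h : marg P i = 0
  · rw [h, zero_mul]
    rw [h] at h1
    linarith
  · simp only [cond]
    field_simp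

theorem chain_rule (hszI : ∀ x, 0 ≤ szI x) (hsz : ∀ x, 0 ≤ sz x) (hP : Dist (prodSz szI sz) P)
    (hPe : Summable fun z => Real.negMulLog (P z))
    (hpe : Summable fun i => Real.negMulLog (marg P i)) :
    Summable (fun i => marg P i * ent (cond P i)) ∧
      ent P = ent (marg P) + ∑' i, marg P i * ent (cond P i) := by
  have hfib : ∀ i, HasSum (fun x => Real.negMulLog (P (i, x)))
      (Real.negMulLog (marg P i) + marg P i * ent (cond P i)) := by
    intro i
    have hs := (hPe.prod_factor i).hasSum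
    have hv : (∑' x, Real.negMulLog (P (i, x))) =
        Real.negMulLog (marg P i) + marg P i * ent (cond P i) := by
      rcases (hP.dist_marg hszI hsz).nonneg i |>.eq_or_lt with h | h
      · have hz : ∀ x, P (i, x) = 0 := fun x => by
          rw [hP.mul_cond i x, ← h, zero_mul]
        simp [hz, ← h]
      · have hc := hP.dist_cond hszI hsz h
        have e : ∀ x, marg P i * Real.negMulLog (cond P i x) =
            Real.negMulLog (P (i, x)) - cond P i x * Real.negMulLog (marg P i) := by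
          intro x
          rw [hP.mul_cond i x, Real.negMulLog_mul]
          ring
        have h1 : HasSum (fun x => marg P i * Real.negMulLog (cond P i x))
            ((∑' x, Real.negMulLog (P (i, x))) - 1 * Real.negMulLog (marg P i)) := by
          refine (hs.sub (hc.hasSum.mul_right (Real.negMulLog (marg P i)))).congr_fun ?_ 
          intro x
          exact e x
        have h2 : (∑' x, marg P i * Real.negMulLog (cond P i x)) = marg P i * ent (cond P i) := by
          rw [tsum_mul_left]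
          rfl
        rw [← h2, h1.tsum_eq]
        ring
    rw [← hv]
    exact hs
  have h1 := hPe.hasSum.prod_fiberwise hfib
  have h2 := (h1.sub hpe.hasSum).congr_fun (g := fun i => marg P i * ent (cond P i)) ?_
  · refine ⟨h2.summable, ?_⟩
    rw [h2.tsum_eq]
    simp only [ent]
    ring
  · intro i
    ring

end Marg

section Mix
variable {lam : A → ℝ} {c : A → X → ℝ} {Lam : ℝ} {y : X → ℝ}

/-- The entropy of a mixture: concavity of the entropy, with the normalisation `Lam`. -/
theorem mix_entropy (hlam0 : ∀ a, 0 ≤ lam a) (hlam : HasSum lam Lam)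
    (hc0 : ∀ a x, 0 ≤ c a x) (hc1 : ∀ a, 0 < lam a → HasSum (c a) 1)
    (hy : ∀ x, HasSum (fun a => lam a * c a x) (y x))
    (hye : Summable fun x => Real.negMulLog (y x)) :
    Summable (fun a => lam a * ent (c a)) ∧
      (∑' a, lam a * ent (c a)) + Real.negMulLog Lam ≤ ent y := by
  have hmass : HasSum y Lam := by
    have hf : HasSum (fun z : A × X => lam z.1 * c z.1 z.2) Lam := by
      refine hasSum_prod_of_nonneg (fun z => mul_nonneg (hlam0 _) (hc0 _ _)) (u := lam)
        (fun a => ?_) hlam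
      rcases (hlam0 a).eq_or_lt with h | h
      · simp only [← h, zero_mul]
        exact hasSum_zero
      · simpa using (hc1 a h).mul_left (lam a)
    have h2 := (hasSum_swap_fiber hf).1
    have e : (fun x => ∑' a, lam a * c a x) = y := funext fun x => (hy x).tsum_eq
    simp only at h2
    rwa [e] at h2
  have hy0 : ∀ x, 0 ≤ y x := fun x => (hy x).nonneg (fun a => mul_nonneg (hlam0 _) (hc0 _ _))
  have hLam0 : 0 ≤ Lam := hlam.nonneg hlam0
  have hg0 : ∀ a x, 0 ≤ lam a * Real.negMulLog (c a x) := by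
    intro a x
    rcases (hlam0 a).eq_or_lt with h | h
    · simp [← h]
    · exact mul_nonneg h.le (Real.negMulLog_nonneg (hc0 a x)
        (le_hasSum (hc1 a h) x (fun i _ => hc0 a i)))
  rcases hLam0.eq_or_lt with hL | hL
  · have hz : ∀ a, lam a = 0 := by
      intro a
      have := le_hasSum hlam a (fun i _ => hlam0 i)
      rw [← hL] at this
      exact le_antisymm this (hlam0 a)
    have hyz : ∀ x, y x = 0 := by
      intro x
      have := (hy x).tsum_eq
      simp only [hz, zero_mul, tsum_zero] at this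
      exact this.symm
    simp [hz, ent, hyz, ← hL, summable_zero]
  have hpt : ∀ x, Summable (fun a => lam a * Real.negMulLog (c a x)) ∧
      ∑' a, lam a * Real.negMulLog (c a x) ≤ Real.negMulLog (y x) + y x * Real.log Lam := by
    intro x
    rcases (hy0 x).eq_or_lt with h | h
    · have hz : HasSum (fun a => lam a * c a x) 0 := by
        have := hy x
        rwa [← h] at this
      have h1 := (hasSum_zero_iff_of_nonneg (fun a => mul_nonneg (hlam0 a) (hc0 a x))).mp hz
      have h2 : ∀ a, lam a * Real.negMulLog (c a x) = 0 := by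
        intro a
        have h3 := congrFun h1 a
        rcases mul_eq_zero.mp h3 with h4 | h4
        · simp [h4]
        · simp [h4]
      simp only [h2, tsum_zero]
      refine ⟨summable_zero, ?_⟩
      rw [← h]
      simp
    · set v := y x / Lam with hv
      have hvpos : 0 < v := div_pos h hL
      set a0 := -Real.log v - 1 with ha0
      have hbd : ∀ a, lam a * Real.negMulLog (c a x) ≤ a0 * (lam a * c a x) + v * lam a := by
        intro a
        have h1 := negMulLog_le_tangent (hc0 a x) a0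
        have h2 : Real.exp (-a0 - 1) = v := by
          rw [ha0]
          have : -(-Real.log v - 1) - 1 = Real.log v := by ring
          rw [this, Real.exp_log hvpos]
        rw [h2] at h1
        have h3 := mul_le_mul_of_nonneg_left h1 (hlam0 a)
        calc _ ≤ _ := h3
          _ = _ := by ring
      have hsum := ((hy x).mul_left a0).add (hlam.mul_left v)
      have hs : Summable (fun a => lam a * Real.negMulLog (c a x)) :=
        Summable.of_nonneg_of_le (fun a => hg0 a x) hbd hsum.summable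
      refine ⟨hs, ?_⟩
      have h3 := hasSum_le hbd hs.hasSum hsum
      have h4 : v * Lam = y x := by
        rw [hv]
        field_simp
      have h5 : Real.log v = Real.log (y x) - Real.log Lam := Real.log_div h.ne' hL.ne'
      have h6 : a0 * y x + v * Lam = Real.negMulLog (y x) + y x * Real.log Lam := by
        rw [h4, ha0, h5]
        unfold Real.negMulLog
        ring
      rwa [h6] at h3
  have hB : Summable (fun x => Real.negMulLog (y x) + y x * Real.log Lam) :=
    hye.add (hmass.summable.mul_right _)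
  have hnn : (0 : X × A → ℝ) ≤ fun z => lam z.2 * Real.negMulLog (c z.2 z.1) :=
    fun z => hg0 _ _
  have hG : Summable (fun z : X × A => lam z.2 * Real.negMulLog (c z.2 z.1)) := by
    rw [summable_prod_of_nonneg hnn]
    exact ⟨fun x => (hpt x).1, Summable.of_nonneg_of_le
      (fun x => tsum_nonneg fun a => hg0 a x) (fun x => (hpt x).2) hB⟩
  have hsw := (hasSum_swap_fiber hG.hasSum).1
  have e1 : (fun a => ∑' x, (fun z : X × A => lam z.2 * Real.negMulLog (c z.2 z.1)) (x, a)) =
      fun a => lam a * ent (c a) := by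
    funext a
    show (∑' x, lam a * Real.negMulLog (c a x)) = _
    rw [tsum_mul_left]
    rfl
  rw [e1] at hsw
  refine ⟨hsw.summable, ?_⟩
  rw [hsw.tsum_eq]
  have h7 := hG.hasSum.prod_fiberwise (fun x => (hpt x).1.hasSum)
  have h8 := hasSum_le (fun x => (hpt x).2) h7 hB.hasSum
  have h9 : (∑' x, (Real.negMulLog (y x) + y x * Real.log Lam)) = ent y + Lam * Real.log Lam := by
    have := (hye.hasSum.add (hmass.mul_right (Real.log Lam))).tsum_eq
    rw [this]
    rfl
  rw [h9] at h8
  unfold Real.negMulLog at *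
  linarith

end Mix

section Step
variable {szI : I → ℝ} {sz : X → ℝ} {T : I → I → I → ℝ} {R : X → X → X → ℝ} {P Q : I × X → ℝ}

lemma summable_terms {Y : Type*} {szY : Y → ℝ} {R' : Y → Y → Y → ℝ} (hR' : Ker szY R')
    {P' Q' : Y → ℝ} (hP : Dist szY P') (hQ : Dist szY Q') (j : Y) :
    Summable (fun x : Y × Y => P' x.1 * Q' x.2 * R' j x.1 x.2) := by
  refine Summable.of_nonneg_of_le
    (fun x => mul_nonneg (mul_nonneg (hP.nonneg _) (hQ.nonneg _)) (hR'.nonneg _ _ _))
    (fun x => ?_) (hasSum_mul_of_nonneg hP.nonneg hQ.nonneg hP.hasSum hQ.hasSum).summable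
  exact mul_le_of_le_one_right (mul_nonneg (hP.nonneg _) (hQ.nonneg _)) (hR'.le_one _ _ _)

lemma outK_prod_hasSum (hT : Ker szI T) (hR : Ker sz R) (hszI : ∀ x, 0 ≤ szI x) (hsz : ∀ x, 0 ≤ sz x)
    (hP : Dist (prodSz szI sz) P) (hQ : Dist (prodSz szI sz) Q) (j₀ : I) (j' : X) :
    HasSum (fun a : I × I => marg P a.1 * marg Q a.2 * T j₀ a.1 a.2 *
        outK R (cond P a.1) (cond Q a.2) j') (outK (prodKer T R) P Q (j₀, j')) := by
  let E := Equiv.prodProdProdComm I X I X
  let F : (I × I) × (X × X) → ℝ := fun z =>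
    P (z.1.1, z.2.1) * Q (z.1.2, z.2.2) * (T j₀ z.1.1 z.1.2 * R j' z.2.1 z.2.2)
  have hEF : ∀ x, F (E x) = P x.1 * Q x.2 * prodKer T R (j₀, j') x.1 x.2 := fun x => rfl
  have hs : Summable F := by
    have h1 := summable_terms (hT.prod hszI hsz hR) hP hQ (j₀, j')
    have h2 : Summable (F ∘ E) := h1.congr (fun x => (hEF x).symm)
    exact (E.summable_iff).mp h2
  have hval : (∑' z, F z) = outK (prodKer T R) P Q (j₀, j') := by
    rw [← E.tsum_eq F]
    exact tsum_congr hEF
  rw [← hval]
  refine hs.hasSum.prod_fiberwise (fun a => ?_)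
  have h1 := (hs.prod_factor a).hasSum
  have h2 : (∑' b, F (a, b)) = marg P a.1 * marg Q a.2 * T j₀ a.1 a.2 *
      outK R (cond P a.1) (cond Q a.2) j' := by
    unfold outK
    rw [← tsum_mul_left]
    apply tsum_congr
    intro b
    simp only [F]
    rw [hP.mul_cond a.1 b.1, hQ.mul_cond a.2 b.2]
    ring
  rwa [h2] at h1

lemma summable_exp_prod (hexpI : Summable fun x => Real.exp (-szI x - 1))
    (hexp : Summable fun x => Real.exp (-sz x - 1)) :
    Summable fun z => Real.exp (-prodSz szI sz z - 1) := by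
  have h := (hexpI.mul_of_nonneg hexp (fun _ => (Real.exp_pos _).le)
    (fun _ => (Real.exp_pos _).le)).mul_right (Real.exp 1)
  refine h.congr (fun z => ?_)
  rw [← Real.exp_add, ← Real.exp_add]
  congr 1
  simp only [prodSz]
  ring

theorem cond_ineq (hszI : ∀ x, 0 ≤ szI x) (hsz : ∀ x, 0 ≤ sz x) (hT : Ker szI T) (hR : Ker sz R)
    (hexpI : Summable fun x => Real.exp (-szI x - 1)) (hexp : Summable fun x => Real.exp (-sz x - 1))
    (hP : Dist (prodSz szI sz) P) (hQ : Dist (prodSz szI sz) Q) :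
    Summable (fun a : I × I => marg P a.1 * marg Q a.2 * ent (outK R (cond P a.1) (cond Q a.2))) ∧
    (∑' a : I × I, marg P a.1 * marg Q a.2 * ent (outK R (cond P a.1) (cond Q a.2))) +
      ent (outK T (marg P) (marg Q)) ≤ ent (outK (prodKer T R) P Q) := by
  have hsz' : ∀ z, 0 ≤ prodSz szI sz z := fun z => add_nonneg (hszI _) (hsz _)
  have hm := hP.dist_marg hszI hsz
  have hn := hQ.dist_marg hszI hsz
  have hCd := Ker.dist_outK hsz' (hT.prod hszI hsz hR) hP hQ
  have hexp' := summable_exp_prod hexpI hexp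
  have hCe := hCd.summable_ent hexp'
  have hc0d := Ker.dist_outK hszI hT hm hn
  have hc0e := hc0d.summable_ent hexpI
  have hlam0 : ∀ j₀ (a : I × I), 0 ≤ marg P a.1 * marg Q a.2 * T j₀ a.1 a.2 := fun j₀ a =>
    mul_nonneg (mul_nonneg (hm.nonneg _) (hn.nonneg _)) (hT.nonneg _ _ _)
  have hposs : ∀ j₀ (a : I × I), 0 < marg P a.1 * marg Q a.2 * T j₀ a.1 a.2 →
      0 < marg P a.1 ∧ 0 < marg Q a.2 := by
    intro j₀ a h
    constructor
    · refine lt_of_le_of_ne (hm.nonneg _) (fun h0 => ?_)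
      rw [← h0] at h
      simp at h
    · refine lt_of_le_of_ne (hn.nonneg _) (fun h0 => ?_)
      rw [← h0] at h
      simp at h
  have hcd : ∀ a : I × I, 0 < marg P a.1 → 0 < marg Q a.2 →
      Dist sz (outK R (cond P a.1) (cond Q a.2)) := fun a h1 h2 =>
    Ker.dist_outK hsz hR (hP.dist_cond hszI hsz h1) (hQ.dist_cond hszI hsz h2)
  have hcnn : ∀ (a : I × I) x, 0 ≤ outK R (cond P a.1) (cond Q a.2) x := fun a x =>
    outK_nonneg hR (fun y => div_nonneg (hP.nonneg _) (hm.nonneg _))
      (fun y => div_nonneg (hQ.nonneg _) (hn.nonneg _)) x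
  have hmix : ∀ j₀ : I, _ := fun j₀ => mix_entropy (hlam0 j₀)
    (summable_terms hT hm hn j₀).hasSum hcnn
    (fun a ha => (hcd a (hposs j₀ a ha).1 (hposs j₀ a ha).2).hasSum)
    (outK_prod_hasSum hT hR hszI hsz hP hQ j₀) (hCe.prod_factor j₀)
  have hW0 : (0 : I × (I × I) → ℝ) ≤ fun z => marg P z.2.1 * marg Q z.2.2 * T z.1 z.2.1 z.2.2 *
      ent (outK R (cond P z.2.1) (cond Q z.2.2)) := by
    intro z
    rcases (hlam0 z.1 z.2).eq_or_lt with h | h
    · simp [← h]
    · exact mul_nonneg h.le (hcd z.2 (hposs _ _ h).1 (hposs _ _ h).2).ent_nonneg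
  have hbound : ∀ j₀ : I, (∑' a : I × I, marg P a.1 * marg Q a.2 * T j₀ a.1 a.2 *
      ent (outK R (cond P a.1) (cond Q a.2))) ≤
      (∑' x, Real.negMulLog (outK (prodKer T R) P Q (j₀, x))) -
        Real.negMulLog (outK T (marg P) (marg Q) j₀) := by
    intro j₀
    have := (hmix j₀).2
    have e : (∑' b : I × I, marg P b.1 * marg Q b.2 * T j₀ b.1 b.2) =
      outK T (marg P) (marg Q) j₀ := rfl
    rw [e] at this
    have e2 : ent (fun x => outK (prodKer T R) P Q (j₀, x)) =
      ∑' x, Real.negMulLog (outK (prodKer T R) P Q (j₀, x)) := rfl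
    rw [e2] at this
    linarith
  have hbs : Summable (fun j₀ => (∑' x, Real.negMulLog (outK (prodKer T R) P Q (j₀, x))) -
        Real.negMulLog (outK T (marg P) (marg Q) j₀)) := hCe.prod.sub hc0e
  have hW : Summable (fun z : I × (I × I) => marg P z.2.1 * marg Q z.2.2 * T z.1 z.2.1 z.2.2 *
      ent (outK R (cond P z.2.1) (cond Q z.2.2))) := by
    rw [summable_prod_of_nonneg hW0]
    exact ⟨fun j₀ => (hmix j₀).1, Summable.of_nonneg_of_le
      (fun j₀ => tsum_nonneg fun a => hW0 (j₀, a)) hbound hbs⟩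
  have hsw := (hasSum_swap_fiber hW.hasSum).1
  have e1 : (fun a : I × I => ∑' j₀, (fun z : I × (I × I) => marg P z.2.1 * marg Q z.2.2 *
      T z.1 z.2.1 z.2.2 * ent (outK R (cond P z.2.1) (cond Q z.2.2))) (j₀, a)) =
      fun a => marg P a.1 * marg Q a.2 * ent (outK R (cond P a.1) (cond Q a.2)) := by
    funext a
    show (∑' j₀, marg P a.1 * marg Q a.2 * T j₀ a.1 a.2 * ent (outK R (cond P a.1) (cond Q a.2))) = _
    have h3 := ((hT.hasSum a.1 a.2).mul_left (marg P a.1 * marg Q a.2)).mul_right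
      (ent (outK R (cond P a.1) (cond Q a.2)))
    rw [h3.tsum_eq]
    ring
  rw [e1] at hsw
  refine ⟨hsw.summable, ?_⟩
  rw [hsw.tsum_eq]
  have h7 := hW.hasSum.prod_fiberwise (fun j₀ => (hmix j₀).1.hasSum)
  have h8 := hasSum_le hbound h7 hbs.hasSum
  have h9 : (∑' j₀, ((∑' x, Real.negMulLog (outK (prodKer T R) P Q (j₀, x))) -
        Real.negMulLog (outK T (marg P) (marg Q) j₀))) =
      ent (outK (prodKer T R) P Q) - ent (outK T (marg P) (marg Q)) := by
    have h10 := hCe.hasSum.prod_fiberwise (fun j₀ => (hCe.prod_factor j₀).hasSum)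
    exact (h10.sub hc0e.hasSum).tsum_eq
  rw [h9] at h8
  linarith

theorem step (hszI : ∀ x, 0 ≤ szI x) (hsz : ∀ x, 0 ≤ sz x) (hT : Ker szI T) (hR : Ker sz R)
    (hexpI : Summable fun x => Real.exp (-szI x - 1)) (hexp : Summable fun x => Real.exp (-sz x - 1))
    (hP : Dist (prodSz szI sz) P) (hQ : Dist (prodSz szI sz) Q)
    {a b d A B D A₀ B₀ D₀ : ℝ} (ha : 0 ≤ a) (hb : 0 ≤ b) (hd : 0 ≤ d)
    (h1 : a * (ent (marg P) - A₀) + b * (ent (marg Q) - B₀) ≤
      d * (ent (outK T (marg P) (marg Q)) - D₀))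
    (h2 : ∀ k l, 0 < marg P k → 0 < marg Q l →
      a * (ent (cond P k) - A) + b * (ent (cond Q l) - B) ≤
        d * (ent (outK R (cond P k) (cond Q l)) - D)) :
    a * (ent P - (A + A₀)) + b * (ent Q - (B + B₀)) ≤
      d * (ent (outK (prodKer T R) P Q) - (D + D₀)) := by
  have hexp' := summable_exp_prod hexpI hexp
  have hm := hP.dist_marg hszI hsz
  have hn := hQ.dist_marg hszI hsz
  obtain ⟨hus, hPc⟩ := chain_rule hszI hsz hP (hP.summable_ent hexp') (hm.summable_ent hexpI)
  obtain ⟨hvs, hQc⟩ := chain_rule hszI hsz hQ (hQ.summable_ent hexp') (hn.summable_ent hexpI)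
  obtain ⟨hws, hC⟩ := cond_ineq hszI hsz hT hR hexpI hexp hP hQ
  have hu0 : ∀ k, 0 ≤ marg P k * ent (cond P k) := by
    intro k
    rcases (hm.nonneg k).eq_or_lt with h | h
    · simp [← h]
    · exact mul_nonneg h.le (hP.dist_cond hszI hsz h).ent_nonneg
  have hv0 : ∀ k, 0 ≤ marg Q k * ent (cond Q k) := by
    intro k
    rcases (hn.nonneg k).eq_or_lt with h | h
    · simp [← h]
    · exact mul_nonneg h.le (hQ.dist_cond hszI hsz h).ent_nonneg
  set U := ∑' k, marg P k * ent (cond P k) with hU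
  set V := ∑' k, marg Q k * ent (cond Q k) with hV
  set W := ∑' a : I × I, marg P a.1 * marg Q a.2 * ent (outK R (cond P a.1) (cond Q a.2)) with hW
  have hmn := hasSum_mul_of_nonneg hm.nonneg hn.nonneg hm.hasSum hn.hasSum
  have h3 := hasSum_mul_of_nonneg hu0 hn.nonneg hus.hasSum hn.hasSum
  have h4 := hasSum_mul_of_nonneg hm.nonneg hv0 hm.hasSum hvs.hasSum
  have hL := ((h3.sub (hmn.mul_left A)).mul_left a).add ((h4.sub (hmn.mul_left B)).mul_left b)
  have hR' := (hws.hasSum.sub (hmn.mul_left D)).mul_left d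
  have hterm : ∀ z : I × I, a * (marg P z.1 * ent (cond P z.1) * marg Q z.2 -
      A * (marg P z.1 * marg Q z.2)) + b * (marg P z.1 * (marg Q z.2 * ent (cond Q z.2)) -
      B * (marg P z.1 * marg Q z.2)) ≤ d * (marg P z.1 * marg Q z.2 *
      ent (outK R (cond P z.1) (cond Q z.2)) - D * (marg P z.1 * marg Q z.2)) := by
    intro z
    rcases (hm.nonneg z.1).eq_or_lt with h | h
    · simp [← h]
    rcases (hn.nonneg z.2).eq_or_lt with h' | h'
    · simp [← h']
    have h5 := mul_le_mul_of_nonneg_left (h2 z.1 z.2 h h') (mul_pos h h').le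
    calc _ = _ := by ring
      _ ≤ _ := h5
      _ = _ := by ring
  have hsum := hasSum_le hterm hL hR'
  have e1 : a * (U * 1 - A * (1 * 1)) + b * (1 * V - B * (1 * 1)) = a * (U - A) + b * (V - B) := by
    ring
  have e2 : d * (W - D * (1 * 1)) = d * (W - D) := by ring
  rw [e1, e2] at hsum
  rw [hPc, hQc]
  calc a * (ent (marg P) + U - (A + A₀)) + b * (ent (marg Q) + V - (B + B₀))
      = (a * (ent (marg P) - A₀) + b * (ent (marg Q) - B₀)) + (a * (U - A) + b * (V - B)) := by ring
    _ ≤ d * (ent (outK T (marg P) (marg Q)) - D₀) + d * (W - D) := add_le_add h1 hsum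
    _ = d * ((W + ent (outK T (marg P) (marg Q))) - (D + D₀)) := by ring
    _ ≤ _ := mul_le_mul_of_nonneg_left (by linarith) hd

end Step

end Tools

end Vale.Agent.Lib.P369
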