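import Vale.Agent.Lib.P369.Tensor
import Vale.Agent.Lib.P369.DefsN

open Finset Filter Topology

namespace Vale.Agent.Lib.P369

/-- Total photon number. -/
noncomputable def szN {n : ℕ} (k : Fin n → ℕ) : ℝ := ∑ i, (k i : ℝ)

lemma szN_nonneg {n : ℕ} (k : Fin n → ℕ) : 0 ≤ szN k :=
  Finset.sum_nonneg fun _ _ => Nat.cast_nonneg _

/-- Split off the first coordinate. -/
def consE (n : ℕ) : ℕ × (Fin n → ℕ) ≃ (Fin (n + 1) → ℕ) where
  toFun x := Fin.cons x.1 x.2
  invFun f := (f 0, Fin.tail f)
  left_inv x := by simp [Fin.tail_cons]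
  right_inv f := Fin.cons_self_tail f

lemma szN_cons {n : ℕ} (x : ℕ × (Fin n → ℕ)) :
    szN (consE n x) = prodSz (fun k : ℕ => (k : ℝ)) szN x := by
  simp [szN, prodSz, consE, Fin.sum_univ_succ]

lemma nTrans_cons {η : ℝ} {n : ℕ} (j k l : ℕ × (Fin n → ℕ)) :
    nTrans η (consE n j) (consE n k) (consE n l) = prodKer (trans η) (nTrans η) j k l := by
  simp [nTrans, prodKer, consE, Fin.prod_univ_succ]

section Equiv
variable {Y Z : Type*}

lemma Ker.equiv (e : Y ≃ Z) {szY : Y → ℝ} {szZ : Z → ℝ} {RY : Y → Y → Y → ℝ} {RZ : Z → Z → Z → ℝ}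
    (hs : ∀ y, szZ (e y) = szY y) (hR : ∀ j k l, RZ (e j) (e k) (e l) = RY j k l)
    (h : Ker szY RY) : Ker szZ RZ := by
  have hR' : ∀ j k l : Z, RZ j k l = RY (e.symm j) (e.symm k) (e.symm l) := by
    intro j k l
    rw [← hR]
    simp
  have hs' : ∀ y, szZ y = szY (e.symm y) := by
    intro y
    rw [← hs]
    simp
  refine ⟨fun j k l => ?_, fun k l => ?_, fun k l => ?_, fun k l => ?_⟩
  · rw [hR']
    exact h.nonneg _ _ _
  · refine (e.hasSum_iff).mp ?_
    have := h.hasSum (e.symm k) (e.symm l)
    refine this.congr_fun ?_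
    intro j
    simp [hR']
  · refine (e.summable_iff).mp ?_
    refine (h.mean (e.symm k) (e.symm l)).congr ?_
    intro j
    simp [hR', hs']
  · rw [← e.tsum_eq]
    have h1 := h.mean_le (e.symm k) (e.symm l)
    simp only [hR', hs', Equiv.symm_apply_apply]
    exact h1

end Equiv

lemma ker_trans {η : ℝ} (h0 : 0 ≤ η) (h1 : η ≤ 1) : Ker (fun k : ℕ => (k : ℝ)) (trans η) := by
  have hfin : ∀ k l : ℕ, HasSum (fun j : ℕ => (j : ℝ) * trans η j k l)
      (∑ j ∈ range (k + l + 1), (j : ℝ) * trans η j k l) := fun k l =>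
    hasSum_sum_of_ne_finset_zero (fun j hj => by
      rw [trans_eq_zero (by simpa using hj), mul_zero])
  refine ⟨fun j k l => trans_nonneg _ _ _, fun k l => hasSum_trans h0 h1 k l,
    fun k l => (hfin k l).summable, fun k l => ?_⟩
  rw [(hfin k l).tsum_eq]
  calc ∑ j ∈ range (k + l + 1), (j : ℝ) * trans η j k l
      ≤ ∑ j ∈ range (k + l + 1), ((k : ℝ) + (l : ℝ)) * trans η j k l := by
        apply sum_le_sum
        intro j hj
        apply mul_le_mul_of_nonneg_right _ (trans_nonneg _ _ _)
        have : j ≤ k + l := by simp only [mem_range] at hj; omega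
        exact_mod_cast this
    _ = (k : ℝ) + l := by
        rw [← mul_sum, sum_trans_eq_one h0 h1 le_rfl, mul_one]

lemma ker_nTrans {η : ℝ} (h0 : 0 ≤ η) (h1 : η ≤ 1) :
    ∀ n : ℕ, Ker (szN (n := n)) (nTrans η) := by
  intro n
  induction n with
  | zero =>
    refine ⟨fun j k l => ?_, fun k l => ?_, fun k l => ?_, fun k l => ?_⟩
    · simp [nTrans]
    · simpa [nTrans] using hasSum_unique (fun _ : Fin 0 → ℕ => (1 : ℝ))
    · simpa [szN] using summable_zero
    · simp [szN]
  | succ n ih =>
    refine Ker.equiv (consE n) szN_cons nTrans_cons ?_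
    exact Ker.prod (fun k => Nat.cast_nonneg k) szN_nonneg (ker_trans h0 h1) ih

lemma summable_expN : ∀ n : ℕ, Summable (fun k : Fin n → ℕ => Real.exp (-szN k - 1)) := by
  intro n
  induction n with
  | zero => exact (hasSum_unique _).summable
  | succ n ih =>
    refine ((consE n).summable_iff).mp ?_
    have h := summable_exp_prod (szI := fun k : ℕ => (k : ℝ)) (sz := szN (n := n))
      summable_exp_neg ih
    refine h.congr (fun z => ?_)
    simp only [Function.comp]
    rw [szN_cons]

lemma NPassive.toDist {n : ℕ} {p : (Fin n → ℕ) → ℝ} (hp : NPassive p) : Dist szN p :=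
  ⟨hp.nonneg, by
    have := hp.summable.hasSum
    rwa [hp.sum_eq_one] at this, hp.finite_mean⟩

lemma Dist.comp_consE {n : ℕ} {p : (Fin (n + 1) → ℕ) → ℝ} (hp : Dist szN p) :
    Dist (prodSz (fun k : ℕ => (k : ℝ)) szN) (p ∘ consE n) := by
  refine ⟨fun x => hp.nonneg _, ((consE n).hasSum_iff).mpr hp.hasSum, ?_⟩
  have h := ((consE n).summable_iff).mpr hp.mean
  refine h.congr (fun z => ?_)
  simp [szN_cons]

lemma consE_le {n : ℕ} {a b : ℕ} {x y : Fin n → ℕ} (h1 : a ≤ b) (h2 : x ≤ y) :
    consE n (a, x) ≤ consE n (b, y) := by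
  intro i
  refine Fin.cases ?_ (fun i => ?_) i
  · simpa [consE] using h1
  · simpa [consE] using h2 i

/-- The marginal of a nonincreasing distribution on the first mode is a passive one-mode state. -/
lemma NPassive.isPassive_marg {n : ℕ} {p : (Fin (n + 1) → ℕ) → ℝ} (hp : NPassive p) :
    IsPassive (marg (p ∘ consE n)) := by
  have hd := hp.toDist.comp_consE
  have hm := hd.dist_marg (szI := fun k : ℕ => (k : ℝ)) (fun k => Nat.cast_nonneg k) szN_nonneg
  refine ⟨hm.nonneg, ?_, hm.hasSum.summable, hm.hasSum.tsum_eq, hm.mean⟩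
  intro a b hab
  refine (hd.fiber b).summable.tsum_le_tsum (fun x => ?_) (hd.fiber a).summable
  exact hp.antitone (consE_le hab le_rfl)

/-- The conditional of a nonincreasing distribution on the other modes. -/
lemma NPassive.npassive_cond {n : ℕ} {p : (Fin (n + 1) → ℕ) → ℝ} (hp : NPassive p) {k : ℕ}
    (hk : 0 < marg (p ∘ consE n) k) : NPassive (cond (p ∘ consE n) k) := by
  have hd := hp.toDist.comp_consE
  have hc := hd.dist_cond (szI := fun k : ℕ => (k : ℝ)) (fun k => Nat.cast_nonneg k) szN_nonneg hk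
  refine ⟨hc.nonneg, ?_, hc.hasSum.summable, hc.hasSum.tsum_eq, hc.mean⟩
  intro x y hxy
  exact div_le_div_of_nonneg_right (hp.antitone (consE_le le_rfl hxy)) hk.le

lemma ent_comp_consE {n : ℕ} (p : (Fin (n + 1) → ℕ) → ℝ) : ent (p ∘ consE n) = nEntropy p :=
  (consE n).tsum_eq (fun k => Real.negMulLog (p k))

lemma outK_comp_consE {η : ℝ} {n : ℕ} (p q : (Fin (n + 1) → ℕ) → ℝ) :
    outK (prodKer (trans η) (nTrans η)) (p ∘ consE n) (q ∘ consE n) =
      nOutput η p q ∘ consE n := by
  funext j
  simp only [outK, nOutput, Function.comp]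
  rw [← ((consE n).prodCongr (consE n)).tsum_eq]
  apply tsum_congr
  intro x
  simp only [Equiv.prodCongr_apply, Prod.map]
  rw [nTrans_cons]

/-- The linearised inequality for `n` modes, by induction on `n`. -/
theorem spade_n {η r s : ℝ} (h0 : 0 < η) (h1 : η < 1) (hr : 0 < r) (hs : 0 < s) :
    ∀ (n : ℕ) {p q : (Fin n → ℕ) → ℝ}, NPassive p → NPassive q →
      (η / Lg r) * (nEntropy p - n * g r) + ((1 - η) / Lg s) * (nEntropy q - n * g s) ≤
        (1 / Lg (η * r + (1 - η) * s)) *
          (nEntropy (nOutput η p q) - n * g (η * r + (1 - η) * s)) := by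
  intro n
  have h1' : 0 < 1 - η := by linarith
  have hm : 0 < η * r + (1 - η) * s := by positivity
  have hLr := Lg_pos hr
  have hLs := Lg_pos hs
  have hLm := Lg_pos hm
  induction n with
  | zero =>
    intro p q hp hq
    have hone : ∀ (u : (Fin 0 → ℕ) → ℝ), HasSum u 1 → ∀ x, u x = 1 := by
      intro u hu x
      have h := (hasSum_unique u).unique hu
      exact (congrArg u (Subsingleton.elim _ _)).trans h
    have hD := Ker.dist_outK szN_nonneg (ker_nTrans h0.le h1.le 0) hp.toDist hq.toDist
    have hpe : nEntropy p = 0 := by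
      unfold nEntropy
      simp [hone p hp.toDist.hasSum]
    have hqe : nEntropy q = 0 := by
      unfold nEntropy
      simp [hone q hq.toDist.hasSum]
    have hce : nEntropy (nOutput η p q) = 0 := by
      unfold nEntropy
      have : ∀ k, nOutput η p q k = 1 := hone _ hD.hasSum
      simp [this]
    simp [hpe, hqe, hce]
  | succ n ih =>
    intro p q hp hq
    have hP := hp.toDist.comp_consE
    have hQ := hq.toDist.comp_consE
    have key := step (szI := fun k : ℕ => (k : ℝ)) (sz := szN (n := n)) (T := trans η)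
      (R := nTrans η) (fun k => Nat.cast_nonneg k) szN_nonneg (ker_trans h0.le h1.le)
      (ker_nTrans h0.le h1.le n) summable_exp_neg (summable_expN n) hP hQ
      (a := η / Lg r) (b := (1 - η) / Lg s) (d := 1 / Lg (η * r + (1 - η) * s))
      (A := n * g r) (B := n * g s) (D := n * g (η * r + (1 - η) * s))
      (A₀ := g r) (B₀ := g s) (D₀ := g (η * r + (1 - η) * s))
      (by positivity) (by positivity) (by positivity) ?_ ?_
    · rw [ent_comp_consE, ent_comp_consE, outK_comp_consE, ent_comp_consE] at key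
      have e1 : (((n + 1 : ℕ) : ℝ)) * g r = n * g r + g r := by push_cast; ring
      have e2 : (((n + 1 : ℕ) : ℝ)) * g s = n * g s + g s := by push_cast; ring
      have e3 : (((n + 1 : ℕ) : ℝ)) * g (η * r + (1 - η) * s) =
          n * g (η * r + (1 - η) * s) + g (η * r + (1 - η) * s) := by push_cast; ring
      rw [e1, e2, e3]
      exact key
    · have := spade hp.isPassive_marg hq.isPassive_marg h0 h1 hr hs
      calc _ = η * ((entropy (marg (p ∘ consE n)) - g r) / Lg r) +
            (1 - η) * ((entropy (marg (q ∘ consE n)) - g s) / Lg s) := by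
              simp only [ent, entropy]
              ring
        _ ≤ _ := this
        _ = _ := by
              simp only [ent, entropy]
              rw [div_eq_mul_inv, one_div, mul_comm]
              rfl
    · intro k l hk hl
      exact ih (hp.npassive_cond hk) (hq.npassive_cond hl)

end Vale.Agent.Lib.P369
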