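import Vale.Agent.Lib.P369.Assembly

open Finset Filter Topology

namespace Vale.Agent.Lib.P369

/-- The normalisation of the truncation. -/
noncomputable def Zt (p : ℕ → ℝ) (M : ℕ) : ℝ := ∑ i ∈ range (M + 1), (p i - p (M + 1))

/-- The truncation of a nonincreasing sequence: cut the tail and subtract a constant. -/
noncomputable def trunc (p : ℕ → ℝ) (M i : ℕ) : ℝ :=
  if i ≤ M then (p i - p (M + 1)) / Zt p M else 0

section
variable {p : ℕ → ℝ}

lemma IsPassive.summable_linear (hp : IsPassive p) :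
    Summable (fun k : ℕ => ((k : ℝ) + 1) * p k) := by
  refine (hp.finite_mean.add hp.summable).congr (fun k => ?_)
  ring

lemma Zt_eq (M : ℕ) : Zt p M = ∑ i ∈ range (M + 1), p i - ((M + 1 : ℕ) : ℝ) * p (M + 1) := by
  unfold Zt
  rw [sum_sub_distrib]
  simp

lemma IsPassive.tendsto_zero (hp : IsPassive p) : Tendsto (fun M => p (M + 1)) atTop (𝓝 0) :=
  (tendsto_add_atTop_iff_nat 1).mpr hp.summable.tendsto_atTop_zero

lemma IsPassive.tendsto_Zt (hp : IsPassive p) : Tendsto (Zt p) atTop (𝓝 1) := by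
  have h1 : Tendsto (fun M => ∑ i ∈ range (M + 1), p i) atTop (𝓝 1) := by
    have := (hp.summable.hasSum.tendsto_sum_nat).comp (tendsto_add_atTop_nat 1)
    rw [hp.sum_eq_one] at this
    exact this
  have h2 : Tendsto (fun M : ℕ => ((M + 1 : ℕ) : ℝ) * p (M + 1)) atTop (𝓝 0) :=
    (tendsto_add_atTop_iff_nat (f := fun k : ℕ => (k : ℝ) * p k) 1).mpr
      hp.finite_mean.tendsto_atTop_zero
  have h3 := h1.sub h2
  simp only [sub_zero] at h3
  exact h3.congr (fun M => (Zt_eq M).symm)

lemma IsPassive.eventually_Zt (hp : IsPassive p) : ∀ᶠ M in atTop, 1 / 2 ≤ Zt p M :=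
  hp.tendsto_Zt.eventually (lt_mem_nhds (by norm_num : (1 / 2 : ℝ) < 1)) |>.mono fun M h => h.le

lemma IsPassive.tendsto_trunc (hp : IsPassive p) (i : ℕ) :
    Tendsto (fun M => trunc p M i) atTop (𝓝 (p i)) := by
  have h1 : Tendsto (fun M => (p i - p (M + 1)) / Zt p M) atTop (𝓝 ((p i - 0) / 1)) :=
    (tendsto_const_nhds.sub hp.tendsto_zero).div hp.tendsto_Zt one_ne_zero
  simp only [sub_zero, div_one] at h1
  refine h1.congr' ?_
  filter_upwards [eventually_ge_atTop i] with M hM
  simp [trunc, hM]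

lemma trunc_nonneg (hp : IsPassive p) {M : ℕ} (hZ : 1 / 2 ≤ Zt p M) (i : ℕ) : 0 ≤ trunc p M i := by
  unfold trunc
  split_ifs with h
  · apply div_nonneg _ (by linarith)
    have := hp.antitone (show i ≤ M + 1 by omega)
    linarith
  · exact le_rfl

lemma trunc_le (hp : IsPassive p) {M : ℕ} (hZ : 1 / 2 ≤ Zt p M) (i : ℕ) :
    trunc p M i ≤ 2 * p i := by
  unfold trunc
  split_ifs with h
  · have h0 : 0 < Zt p M := by linarith
    rw [div_le_iff₀ h0]
    have h1 := hp.nonneg i
    have h2 := hp.nonneg (M + 1)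
    nlinarith
  · have := hp.nonneg i
    linarith

lemma trunc_finPassive (hp : IsPassive p) {M : ℕ} (hZ : 1 / 2 ≤ Zt p M) :
    FinPassive (trunc p M) M := by
  have h0 : 0 < Zt p M := by linarith
  refine ⟨trunc_nonneg hp hZ, ?_, ?_, ?_⟩
  · intro i j hij
    show trunc p M j ≤ trunc p M i
    unfold trunc
    by_cases hj : j ≤ M
    · have hi : i ≤ M := le_trans hij hj
      rw [if_pos hj, if_pos hi]
      apply div_le_div_of_nonneg_right _ h0.le
      have := hp.antitone hij
      linarith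
    · rw [if_neg hj]
      split_ifs with hi
      · apply div_nonneg _ h0.le
        have := hp.antitone (show i ≤ M + 1 by omega)
        linarith
      · exact le_rfl
  · intro k hk
    unfold trunc
    rw [if_neg (by omega)]
  · have : ∀ i ∈ range (M + 1), trunc p M i = (p i - p (M + 1)) / Zt p M := by
      intro i hi
      unfold trunc
      rw [if_pos (by simp only [mem_range] at hi; omega)]
    rw [sum_congr rfl this, ← sum_div]
    exact div_self h0.ne'

end

/-- `-x log x ≤ a x + exp(-a-1)`. -/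
lemma negMulLog_le_tangent {x : ℝ} (hx : 0 ≤ x) (a : ℝ) :
    Real.negMulLog x ≤ a * x + Real.exp (-a - 1) := by
  rcases eq_or_lt_of_le hx with h | h
  · rw [← h]
    simp only [Real.negMulLog_zero, mul_zero, zero_add]
    exact (Real.exp_pos _).le
  · have h1 : 0 < Real.exp (-a - 1) / x := div_pos (Real.exp_pos _) h
    have h2 := Real.log_le_sub_one_of_pos h1
    rw [Real.log_div (Real.exp_pos _).ne' h.ne', Real.log_exp] at h2
    unfold Real.negMulLog
    have h3 : x * (-a - 1 - Real.log x) ≤ x * (Real.exp (-a - 1) / x - 1) :=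
      mul_le_mul_of_nonneg_left h2 hx
    have h4 : x * (Real.exp (-a - 1) / x - 1) = Real.exp (-a - 1) - x := by
      field_simp
    rw [h4] at h3
    nlinarith

lemma summable_exp_neg : Summable (fun i : ℕ => Real.exp (-(i : ℝ) - 1)) := by
  have h := (summable_geometric_of_lt_one (r := Real.exp (-1)) (Real.exp_pos _).le
    (by rw [Real.exp_lt_one_iff]; norm_num)).mul_left (Real.exp (-1))
  refine h.congr (fun i => ?_)
  rw [← Real.exp_nat_mul, ← Real.exp_add]
  congr 1
  push_cast
  ring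

/-- Dominated convergence for the entropy. -/
theorem tendsto_entropy {x : ℕ → ℕ → ℝ} {y : ℕ → ℝ} {A : ℝ} (hA : 0 ≤ A)
    (hlim : ∀ i, Tendsto (fun M => x M i) atTop (𝓝 (y i)))
    (hb : ∀ᶠ M in atTop, ∀ i, 0 ≤ x M i ∧ x M i ≤ 1 ∧ x M i ≤ A * y i)
    (hmean : Summable (fun i : ℕ => (i : ℝ) * y i)) :
    Tendsto (fun M => entropy (x M)) atTop (𝓝 (entropy y)) := by
  unfold entropy
  refine tendsto_tsum_of_dominated_convergence
    (bound := fun i : ℕ => A * ((i : ℝ) * y i) + Real.exp (-(i : ℝ) - 1))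
    ((hmean.mul_left A).add summable_exp_neg)
    (fun i => Real.continuous_negMulLog.continuousAt.tendsto.comp (hlim i)) ?_
  filter_upwards [hb] with M hM i
  obtain ⟨h0, h1, h2⟩ := hM i
  rw [Real.norm_eq_abs, abs_of_nonneg (Real.negMulLog_nonneg h0 h1)]
  refine (negMulLog_le_tangent h0 i).trans ?_
  have hi : (0 : ℝ) ≤ i := Nat.cast_nonneg i
  have := mul_le_mul_of_nonneg_left h2 hi
  nlinarith

section Output
variable {η : ℝ} {p q : ℕ → ℝ}

/-- The output has finite mean photon number. -/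
lemma output_mean (h0 : 0 ≤ η) (h1 : η ≤ 1) (hp0 : ∀ k, 0 ≤ p k) (hq0 : ∀ k, 0 ≤ q k)
    (hps : Summable (fun k : ℕ => ((k : ℝ) + 1) * p k))
    (hqs : Summable (fun k : ℕ => ((k : ℝ) + 1) * q k)) :
    Summable (fun j : ℕ => (j : ℝ) * output η p q j) := by
  have hfinite : ∀ x : ℕ × ℕ, HasSum (fun j : ℕ => p x.1 * q x.2 * ((j : ℝ) * trans η j x.1 x.2))
      (∑ j ∈ range (x.1 + x.2 + 1), p x.1 * q x.2 * ((j : ℝ) * trans η j x.1 x.2)) := by
    intro x
    apply hasSum_sum_of_ne_finset_zero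
    intro j hj
    rw [trans_eq_zero (by simpa using hj)]
    ring
  have hbd : ∀ x : ℕ × ℕ, ∑ j ∈ range (x.1 + x.2 + 1), p x.1 * q x.2 * ((j : ℝ) * trans η j x.1 x.2)
      ≤ ((x.1 : ℝ) + 1) * p x.1 * (((x.2 : ℝ) + 1) * q x.2) := by
    intro x
    have hpq : 0 ≤ p x.1 * q x.2 := mul_nonneg (hp0 _) (hq0 _)
    rw [← mul_sum]
    have h2 : ∑ j ∈ range (x.1 + x.2 + 1), (j : ℝ) * trans η j x.1 x.2 ≤
        ((x.1 : ℝ) + 1) * ((x.2 : ℝ) + 1) := by
      calc ∑ j ∈ range (x.1 + x.2 + 1), (j : ℝ) * trans η j x.1 x.2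
          ≤ ∑ j ∈ range (x.1 + x.2 + 1), ((x.1 : ℝ) + (x.2 : ℝ)) * trans η j x.1 x.2 := by
            apply sum_le_sum
            intro j hj
            apply mul_le_mul_of_nonneg_right _ (trans_nonneg _ _ _)
            have : j ≤ x.1 + x.2 := by simp only [mem_range] at hj; omega
            exact_mod_cast this
        _ = ((x.1 : ℝ) + (x.2 : ℝ)) := by
            rw [← mul_sum, sum_trans_eq_one h0 h1 le_rfl, mul_one]
        _ ≤ _ := by
            have h3 : (0 : ℝ) ≤ x.1 := Nat.cast_nonneg _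
            have h4 : (0 : ℝ) ≤ x.2 := Nat.cast_nonneg _
            nlinarith [mul_nonneg h3 h4]
    calc p x.1 * q x.2 * ∑ j ∈ range (x.1 + x.2 + 1), (j : ℝ) * trans η j x.1 x.2
        ≤ p x.1 * q x.2 * (((x.1 : ℝ) + 1) * ((x.2 : ℝ) + 1)) :=
          mul_le_mul_of_nonneg_left h2 hpq
      _ = _ := by ring
  have hnn : (0 : (ℕ × ℕ) × ℕ → ℝ) ≤ fun y => p y.1.1 * q y.1.2 * ((y.2 : ℝ) * trans η y.2 y.1.1 y.1.2) :=
    fun y => mul_nonneg (mul_nonneg (hp0 _) (hq0 _)) (mul_nonneg (Nat.cast_nonneg _) (trans_nonneg _ _ _))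
  have hF : Summable (fun y : (ℕ × ℕ) × ℕ => p y.1.1 * q y.1.2 * ((y.2 : ℝ) * trans η y.2 y.1.1 y.1.2)) := by
    rw [summable_prod_of_nonneg hnn]
    refine ⟨fun x => (hfinite x).summable, ?_⟩
    have hprod : Summable (fun x : ℕ × ℕ => ((x.1 : ℝ) + 1) * p x.1 * (((x.2 : ℝ) + 1) * q x.2)) :=
      hps.mul_of_nonneg hqs (fun k => mul_nonneg (by positivity) (hp0 k))
        (fun k => mul_nonneg (by positivity) (hq0 k))
    refine Summable.of_nonneg_of_le (fun x => tsum_nonneg fun j => hnn (x, j)) (fun x => ?_) hprod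
    rw [(hfinite x).tsum_eq]
    exact hbd x
  obtain ⟨h2, h3⟩ := hasSum_swap_fiber hF.hasSum
  refine h2.summable.congr (fun j => ?_)
  unfold output
  rw [← tsum_mul_left]
  apply tsum_congr
  intro x
  ring

end Output

section Limit
variable {η r s : ℝ} {p q : ℕ → ℝ}

lemma output_trunc_tendsto (hp : IsPassive p) (hq : IsPassive q) (h0 : 0 ≤ η) (h1 : η ≤ 1) (j : ℕ) :
    Tendsto (fun M => output η (trunc p M) (trunc q M) j) atTop (𝓝 (output η p q j)) := by
  unfold output
  have hsum : Summable (fun x : ℕ × ℕ => (2 * p x.1) * (2 * q x.2)) :=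
    (hp.summable.mul_left 2).mul_of_nonneg (hq.summable.mul_left 2)
      (fun k => mul_nonneg (by norm_num) (hp.nonneg k))
      (fun k => mul_nonneg (by norm_num) (hq.nonneg k))
  refine tendsto_tsum_of_dominated_convergence hsum (fun x => ?_) ?_
  · exact ((hp.tendsto_trunc x.1).mul (hq.tendsto_trunc x.2)).mul_const _
  · filter_upwards [hp.eventually_Zt, hq.eventually_Zt] with M hZp hZq x
    have h2 := trunc_nonneg hp hZp x.1
    have h3 := trunc_nonneg hq hZq x.2
    have h4 := trunc_le hp hZp x.1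
    have h5 := trunc_le hq hZq x.2
    have h6 := trans_nonneg (η := η) j x.1 x.2
    have h7 := trans_le_one h0 h1 j x.1 x.2
    rw [Real.norm_eq_abs, abs_of_nonneg (by positivity)]
    calc _ ≤ trunc p M x.1 * trunc q M x.2 * 1 := mul_le_mul_of_nonneg_left h7 (by positivity)
      _ = trunc p M x.1 * trunc q M x.2 := by ring
      _ ≤ _ := mul_le_mul h4 h5 h3 (by have := hp.nonneg x.1; positivity)

lemma finPassive_linear {σ : ℕ → ℝ} {N : ℕ} (h : FinPassive σ N) :
    Summable (fun k : ℕ => ((k : ℝ) + 1) * σ k) := by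
  apply summable_of_ne_finset_zero (s := range (N + 1))
  intro k hk
  rw [h.supp k (by simp only [mem_range, not_lt] at hk; omega), mul_zero]

lemma finPassive_hasSum {σ : ℕ → ℝ} {N : ℕ} (h : FinPassive σ N) : HasSum σ 1 := by
  rw [← h.sum]
  apply hasSum_sum_of_ne_finset_zero
  intro k hk
  exact h.supp k (by simp only [mem_range, not_lt] at hk; omega)

lemma output_trunc_bounds (hp : IsPassive p) (hq : IsPassive q) (h0 : 0 ≤ η) (h1 : η ≤ 1) :
    ∀ᶠ M in atTop, ∀ j, 0 ≤ output η (trunc p M) (trunc q M) j ∧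
      output η (trunc p M) (trunc q M) j ≤ 1 ∧
      output η (trunc p M) (trunc q M) j ≤ 4 * output η p q j := by
  filter_upwards [hp.eventually_Zt, hq.eventually_Zt] with M hZp hZq j
  have hfp := trunc_finPassive hp hZp
  have hfq := trunc_finPassive hq hZq
  have hS1 := summable_trans h0 h1 hfp.nonneg hfq.nonneg (finPassive_linear hfp)
    (finPassive_linear hfq) j
  have hS2 := summable_trans h0 h1 hp.nonneg hq.nonneg hp.summable_linear hq.summable_linear j
  have hnn : ∀ j, 0 ≤ output η (trunc p M) (trunc q M) j := fun j =>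
    tsum_nonneg fun x => mul_nonneg (mul_nonneg (hfp.nonneg _) (hfq.nonneg _)) (trans_nonneg _ _ _)
  refine ⟨hnn j, ?_, ?_⟩
  · exact le_hasSum (output_hasSum h0 h1 hfp.nonneg hfq.nonneg (finPassive_linear hfp)
      (finPassive_linear hfq) (finPassive_hasSum hfp) (finPassive_hasSum hfq)) j (fun i _ => hnn i)
  · unfold output
    rw [← tsum_mul_left]
    refine hS1.tsum_le_tsum (fun x => ?_) (hS2.mul_left 4)
    have h2 := hfp.nonneg x.1
    have h3 := hfq.nonneg x.2
    have h4 := trunc_le hp hZp x.1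
    have h5 := trunc_le hq hZq x.2
    have h6 := trans_nonneg (η := η) j x.1 x.2
    have h7 : trunc p M x.1 * trunc q M x.2 ≤ (2 * p x.1) * (2 * q x.2) :=
      mul_le_mul h4 h5 h3 (by have := hp.nonneg x.1; positivity)
    calc _ ≤ ((2 * p x.1) * (2 * q x.2)) * trans η j x.1 x.2 :=
          mul_le_mul_of_nonneg_right h7 h6
      _ = _ := by ring

/-- The main inequality for all passive inputs with finite mean photon number. -/
theorem spade (hp : IsPassive p) (hq : IsPassive q) (h0 : 0 < η) (h1 : η < 1)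
    (hr : 0 < r) (hs : 0 < s) :
    η * ((entropy p - g r) / Lg r) + (1 - η) * ((entropy q - g s) / Lg s) ≤
      (entropy (output η p q) - g (η * r + (1 - η) * s)) / Lg (η * r + (1 - η) * s) := by
  have hE1 : Tendsto (fun M => entropy (trunc p M)) atTop (𝓝 (entropy p)) := by
    refine tendsto_entropy (A := 2) (by norm_num) hp.tendsto_trunc ?_ hp.finite_mean
    filter_upwards [hp.eventually_Zt] with M hZ i
    have hf := trunc_finPassive hp hZ
    exact ⟨hf.nonneg i, le_hasSum (finPassive_hasSum hf) i (fun j _ => hf.nonneg j),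
      trunc_le hp hZ i⟩
  have hE2 : Tendsto (fun M => entropy (trunc q M)) atTop (𝓝 (entropy q)) := by
    refine tendsto_entropy (A := 2) (by norm_num) hq.tendsto_trunc ?_ hq.finite_mean
    filter_upwards [hq.eventually_Zt] with M hZ i
    have hf := trunc_finPassive hq hZ
    exact ⟨hf.nonneg i, le_hasSum (finPassive_hasSum hf) i (fun j _ => hf.nonneg j),
      trunc_le hq hZ i⟩
  have hE3 : Tendsto (fun M => entropy (output η (trunc p M) (trunc q M))) atTop
      (𝓝 (entropy (output η p q))) :=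
    tendsto_entropy (A := 4) (by norm_num) (output_trunc_tendsto hp hq h0.le h1.le)
      (output_trunc_bounds hp hq h0.le h1.le)
      (output_mean h0.le h1.le hp.nonneg hq.nonneg hp.summable_linear hq.summable_linear)
  refine le_of_tendsto_of_tendsto
    ((((hE1.sub_const _).div_const _).const_mul η).add
      (((hE2.sub_const _).div_const _).const_mul (1 - η)))
    ((hE3.sub_const _).div_const _) ?_
  filter_upwards [hp.eventually_Zt, hq.eventually_Zt] with M hZp hZq
  exact spade_fin (trunc_finPassive hp hZp) (trunc_finPassive hq hZq) h0 h1 hr hs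

end Limit

end Vale.Agent.Lib.P369
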